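import Mathlib

open MeasureTheory Set
open scoped ENNReal

namespace Vale.Agent.Lib.P243

/-- vertical slice of a planar set -/
def vslice (Ω : Set (ℝ × ℝ)) (z : ℝ) : Set ℝ := {x | (z, x) ∈ Ω}

/-- width of the vertical slice -/
noncomputable def width (Ω : Set (ℝ × ℝ)) (z : ℝ) : ℝ := sSup (vslice Ω z) - sInf (vslice Ω z)

theorem vslice_eq_image (Ω : Set (ℝ × ℝ)) (z : ℝ) :
    vslice Ω z = Prod.snd '' (Ω ∩ Prod.fst ⁻¹' {z}) := by
  ext x
  constructor
  · intro h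
    exact ⟨(z, x), ⟨h, rfl⟩, rfl⟩
  · rintro ⟨⟨a, b⟩, ⟨h, hz⟩, rfl⟩
    have hz' : a = z := hz
    subst hz'
    exact h

theorem fst_image_eq_Icc {Ω : Set (ℝ × ℝ)} (hconv : Convex ℝ Ω) (hcomp : IsCompact Ω)
    (hne : Ω.Nonempty) :
    Prod.fst '' Ω = Icc (sInf (Prod.fst '' Ω)) (sSup (Prod.fst '' Ω)) := by
  apply eq_Icc_of_connected_compact
  · exact ⟨hne.image _, hconv.isPreconnected.image _ continuous_fst.continuousOn⟩
  · exact hcomp.image continuous_fst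

theorem fiber_convex {Ω : Set (ℝ × ℝ)} (hconv : Convex ℝ Ω) (z : ℝ) :
    Convex ℝ (Ω ∩ Prod.fst ⁻¹' {z}) := by
  apply hconv.inter
  have h : Convex ℝ ((LinearMap.fst ℝ ℝ ℝ) ⁻¹' {z}) := (convex_singleton z).linear_preimage _
  exact h

theorem fiber_compact {Ω : Set (ℝ × ℝ)} (hcomp : IsCompact Ω) (z : ℝ) :
    IsCompact (Ω ∩ Prod.fst ⁻¹' {z}) :=
  hcomp.inter_right (isClosed_singleton.preimage continuous_fst)

theorem vslice_compact {Ω : Set (ℝ × ℝ)} (hcomp : IsCompact Ω) (z : ℝ) :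
    IsCompact (vslice Ω z) := by
  rw [vslice_eq_image]
  exact (fiber_compact hcomp z).image continuous_snd

theorem vslice_nonempty {Ω : Set (ℝ × ℝ)} {z : ℝ} (hz : z ∈ Prod.fst '' Ω) :
    (vslice Ω z).Nonempty := by
  obtain ⟨⟨a, b⟩, hab, rfl⟩ := hz
  exact ⟨b, hab⟩

theorem vslice_eq_Icc {Ω : Set (ℝ × ℝ)} (hconv : Convex ℝ Ω) (hcomp : IsCompact Ω) {z : ℝ}
    (hz : z ∈ Prod.fst '' Ω) :
    vslice Ω z = Icc (sInf (vslice Ω z)) (sSup (vslice Ω z)) := by
  apply eq_Icc_of_connected_compact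
  · refine ⟨vslice_nonempty hz, ?_⟩
    rw [vslice_eq_image]
    exact (fiber_convex hconv z).isPreconnected.image _ continuous_snd.continuousOn
  · exact vslice_compact hcomp z

theorem width_nonneg {Ω : Set (ℝ × ℝ)} (hconv : Convex ℝ Ω) (hcomp : IsCompact Ω) {z : ℝ}
    (hz : z ∈ Prod.fst '' Ω) : 0 ≤ width Ω z := by
  have _h1 := hconv
  have _h2 := hz
  have hc := vslice_compact hcomp z
  have := Real.sInf_le_sSup (vslice Ω z) hc.bddBelow hc.bddAbove
  unfold width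
  linarith

theorem volume_vslice {Ω : Set (ℝ × ℝ)} (hconv : Convex ℝ Ω) (hcomp : IsCompact Ω) {z : ℝ}
    (hz : z ∈ Prod.fst '' Ω) :
    volume (vslice Ω z) = ENNReal.ofReal (width Ω z) := by
  have h : volume (vslice Ω z) = volume (Icc (sInf (vslice Ω z)) (sSup (vslice Ω z))) :=
    congrArg (fun s : Set ℝ => volume s) (vslice_eq_Icc hconv hcomp hz)
  rw [h, Real.volume_Icc]
  rfl

theorem vslice_empty {Ω : Set (ℝ × ℝ)} {z : ℝ} (hz : z ∉ Prod.fst '' Ω) : vslice Ω z = ∅ := by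
  ext x
  constructor
  · intro h
    exact hz ⟨(z, x), h, rfl⟩
  · intro h
    exact h.elim

theorem width_concave {Ω : Set (ℝ × ℝ)} (hconv : Convex ℝ Ω) (hcomp : IsCompact Ω) :
    ConcaveOn ℝ (Prod.fst '' Ω) (width Ω) := by
  refine ⟨?_, ?_⟩
  · have h : Convex ℝ ((LinearMap.fst ℝ ℝ ℝ) '' Ω) := hconv.linear_image _
    exact h
  · intro z₁ hz₁ z₂ hz₂ a b ha hb hab
    have hc₁ := vslice_compact hcomp z₁
    have hc₂ := vslice_compact hcomp z₂
    have hu₁ : (z₁, sSup (vslice Ω z₁)) ∈ Ω := hc₁.sSup_mem (vslice_nonempty hz₁)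
    have hl₁ : (z₁, sInf (vslice Ω z₁)) ∈ Ω := hc₁.sInf_mem (vslice_nonempty hz₁)
    have hu₂ : (z₂, sSup (vslice Ω z₂)) ∈ Ω := hc₂.sSup_mem (vslice_nonempty hz₂)
    have hl₂ : (z₂, sInf (vslice Ω z₂)) ∈ Ω := hc₂.sInf_mem (vslice_nonempty hz₂)
    have hu := hconv hu₁ hu₂ ha hb hab
    have hl := hconv hl₁ hl₂ ha hb hab
    have hc := vslice_compact hcomp (a • z₁ + b • z₂)
    have hu' : a • sSup (vslice Ω z₁) + b • sSup (vslice Ω z₂) ∈ vslice Ω (a • z₁ + b • z₂) := by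
      simpa [vslice] using hu
    have hl' : a • sInf (vslice Ω z₁) + b • sInf (vslice Ω z₂) ∈ vslice Ω (a • z₁ + b • z₂) := by
      simpa [vslice] using hl
    have h1 := le_csSup hc.bddAbove hu'
    have h2 := csInf_le hc.bddBelow hl'
    simp only [width, smul_eq_mul] at *
    nlinarith

theorem volume_eq_lintegral_width {Ω : Set (ℝ × ℝ)} (hconv : Convex ℝ Ω) (hcomp : IsCompact Ω)
    (hne : Ω.Nonempty) :
    volume Ω = ∫⁻ z in Icc (sInf (Prod.fst '' Ω)) (sSup (Prod.fst '' Ω)),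
      ENNReal.ofReal (width Ω z) := by
  rw [Measure.volume_eq_prod, Measure.prod_apply hcomp.measurableSet,
    ← lintegral_indicator measurableSet_Icc]
  apply lintegral_congr
  intro z
  have hI := fst_image_eq_Icc hconv hcomp hne
  by_cases hz : z ∈ Icc (sInf (Prod.fst '' Ω)) (sSup (Prod.fst '' Ω))
  · rw [indicator_of_mem hz]
    rw [← hI] at hz
    exact volume_vslice hconv hcomp hz
  · rw [indicator_of_notMem hz]
    rw [← hI] at hz
    have : Prod.mk z ⁻¹' Ω = vslice Ω z := rfl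
    rw [this, vslice_empty hz, measure_empty]

end Vale.Agent.Lib.P243
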