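import Mathlib

/-!
# Concave densities on an interval (package T for P243)

`concave_tent`: a concave nonnegative function `a` on `[z₀, z₁]` with integral `A` satisfies
`a z ≥ tent z * A` pointwise, where `tent z = 2 min (z - z₀) (z₁ - z) / (z₁ - z₀)^2`.
`tent_integral`: the integral of `tent` over `[z₀, z₁]` is `1/2`.
`two_density`: the integrated two-density inequality used in the two-cylinder theorem.
-/

namespace Vale.Agent.Lib.P243

open MeasureTheory Set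
open scoped ENNReal

/-- The normalised extremal concave profile on `[z₀, z₁]` (its integral is `1/2`). -/
noncomputable def tent (z₀ z₁ z : ℝ) : ℝ := 2 * min (z - z₀) (z₁ - z) / (z₁ - z₀) ^ 2

/-- Midpoint bound for concave functions: `∫_a^b f ≤ (b - a) * f ((a + b) / 2)`. -/
theorem integral_le_midpoint {a b : ℝ} (hab : a ≤ b) {f : ℝ → ℝ}
    (hf : ConcaveOn ℝ (Icc a b) f) (hfi : IntervalIntegrable f volume a b) :
    ∫ x in a..b, f x ≤ (b - a) * f ((a + b) / 2) := by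
  have h1 : ∫ x in a..b, f (a + b - x) = ∫ x in a..b, f x := by
    rw [intervalIntegral.integral_comp_sub_left (fun x => f x) (a + b)]
    simp
  have hfi' : IntervalIntegrable (fun x => f (a + b - x)) volume a b := by
    have := (hfi.comp_sub_left (a + b)).symm
    simpa using this
  have h2 : ∫ x in a..b, (f x + f (a + b - x)) ≤ ∫ x in a..b, (2 * f ((a + b) / 2)) := by
    apply intervalIntegral.integral_mono_on hab (hfi.add hfi') intervalIntegrable_const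
    intro x hx
    have hy : a + b - x ∈ Icc a b := ⟨by linarith [hx.2], by linarith [hx.1]⟩
    have := hf.2 hx hy (by norm_num : (0 : ℝ) ≤ 1 / 2) (by norm_num : (0 : ℝ) ≤ 1 / 2)
      (by norm_num)
    simp only [smul_eq_mul] at this
    have e : (1 / 2 : ℝ) * x + 1 / 2 * (a + b - x) = (a + b) / 2 := by ring
    rw [e] at this
    linarith
  rw [intervalIntegral.integral_add hfi hfi', h1, intervalIntegral.integral_const,
    smul_eq_mul] at h2
  linarith

/-- A concave nonnegative function on `[z₀, z₁]` is bounded by twice its midpoint value. -/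
theorem concave_le_two_mid {a : ℝ → ℝ} {z₀ z₁ : ℝ}
    (hc : ConcaveOn ℝ (Icc z₀ z₁) a) (h0 : ∀ t ∈ Icc z₀ z₁, 0 ≤ a t)
    {t : ℝ} (ht : t ∈ Icc z₀ z₁) : a t ≤ 2 * a ((z₀ + z₁) / 2) := by
  have hy : z₀ + z₁ - t ∈ Icc z₀ z₁ := ⟨by linarith [ht.2], by linarith [ht.1]⟩
  have := hc.2 ht hy (by norm_num : (0 : ℝ) ≤ 1 / 2) (by norm_num : (0 : ℝ) ≤ 1 / 2)
    (by norm_num)
  simp only [smul_eq_mul] at this
  have e : (1 / 2 : ℝ) * t + 1 / 2 * (z₀ + z₁ - t) = (z₀ + z₁) / 2 := by ring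
  rw [e] at this
  linarith [h0 _ hy]

/-- A concave nonnegative function on a compact interval is interval integrable. -/
theorem concave_intervalIntegrable {a : ℝ → ℝ} {z₀ z₁ : ℝ} (h01 : z₀ ≤ z₁)
    (hc : ConcaveOn ℝ (Icc z₀ z₁) a) (h0 : ∀ t ∈ Icc z₀ z₁, 0 ≤ a t) :
    IntervalIntegrable a volume z₀ z₁ := by
  rw [intervalIntegrable_iff_integrableOn_Ioo_of_le h01]
  have hcont : ContinuousOn a (Ioo z₀ z₁) := by
    have := hc.continuousOn_interior
    rwa [interior_Icc] at this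
  refine ⟨hcont.aestronglyMeasurable measurableSet_Ioo,
    HasFiniteIntegral.restrict_of_bounded (C := 2 * a ((z₀ + z₁) / 2)) measure_Ioo_lt_top ?_⟩
  filter_upwards [ae_restrict_mem measurableSet_Ioo] with t ht
  have htI : t ∈ Icc z₀ z₁ := Ioo_subset_Icc_self ht
  rw [Real.norm_of_nonneg (h0 t htI)]
  exact concave_le_two_mid hc h0 htI

/-- The lower integral of a concave nonnegative function is the real interval integral. -/
theorem lintegral_concave_eq {a : ℝ → ℝ} {z₀ z₁ : ℝ} (h01 : z₀ ≤ z₁)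
    (hc : ConcaveOn ℝ (Icc z₀ z₁) a) (h0 : ∀ t ∈ Icc z₀ z₁, 0 ≤ a t) :
    ∫⁻ t in Icc z₀ z₁, ENNReal.ofReal (a t) = ENNReal.ofReal (∫ t in z₀..z₁, a t) := by
  have hi := concave_intervalIntegrable h01 hc h0
  have hi' : IntegrableOn a (Icc z₀ z₁) volume :=
    (intervalIntegrable_iff_integrableOn_Icc_of_le h01).1 hi
  rw [intervalIntegral.integral_of_le h01, ← integral_Icc_eq_integral_Ioc,
    ofReal_integral_eq_lintegral_ofReal hi']
  filter_upwards [ae_restrict_mem measurableSet_Icc] with t ht using h0 t ht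

/-- Real form of `concave_tent`, left half. -/
theorem tent_mul_integral_le_left {a : ℝ → ℝ} {z₀ z₁ : ℝ} (h01 : z₀ < z₁)
    (hc : ConcaveOn ℝ (Icc z₀ z₁) a) (h0 : ∀ t ∈ Icc z₀ z₁, 0 ≤ a t)
    {z : ℝ} (hz : z ∈ Icc z₀ z₁) (hleft : z - z₀ ≤ z₁ - z) :
    tent z₀ z₁ z * (∫ t in z₀..z₁, a t) ≤ a z := by
  have hl : 0 < z₁ - z₀ := by linarith
  have htent : tent z₀ z₁ z = 2 * (z - z₀) / (z₁ - z₀) ^ 2 := by
    unfold tent; rw [min_eq_left hleft]
  rcases hz.1.eq_or_lt with rfl | hu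
  · rw [htent]; simp; exact h0 _ hz
  set u := z - z₀ with hudef
  have hu0 : 0 < u := by rw [hudef]; linarith
  set p := z₀ + 2 * u with hpdef
  have hp0 : z₀ ≤ p := by rw [hpdef]; linarith
  have hp1 : p ≤ z₁ := by rw [hpdef, hudef]; linarith
  have hi := concave_intervalIntegrable h01.le hc h0
  have hi1 : IntervalIntegrable a volume z₀ p := hi.mono_set (by
    rw [uIcc_of_le hp0, uIcc_of_le h01.le]; exact Icc_subset_Icc le_rfl hp1)
  have hi2 : IntervalIntegrable a volume p z₁ := hi.mono_set (by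
    rw [uIcc_of_le hp1, uIcc_of_le h01.le]; exact Icc_subset_Icc hp0 le_rfl)
  have hsplit : ∫ t in z₀..z₁, a t = (∫ t in z₀..p, a t) + ∫ t in p..z₁, a t :=
    (intervalIntegral.integral_add_adjacent_intervals hi1 hi2).symm
  -- first piece
  have hP1 : ∫ t in z₀..p, a t ≤ 2 * u * a z := by
    have hc1 : ConcaveOn ℝ (Icc z₀ p) a :=
      hc.subset (Icc_subset_Icc le_rfl hp1) (convex_Icc _ _)
    have := integral_le_midpoint hp0 hc1 hi1
    have e1 : (z₀ + p) / 2 = z := by rw [hpdef, hudef]; ring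
    have e2 : p - z₀ = 2 * u := by rw [hpdef]; ring
    rwa [e1, e2] at this
  -- second piece
  have hP2 : ∫ t in p..z₁, a t ≤ ∫ t in p..z₁, a z * ((t - z₀) / u) := by
    apply intervalIntegral.integral_mono_on hp1 hi2
    · exact (by fun_prop : Continuous fun t : ℝ => a z * ((t - z₀) / u)).intervalIntegrable _ _
    · intro t ht
      have htz : 0 < t - z₀ := by have := ht.1; rw [hpdef] at this; linarith
      have htI : t ∈ Icc z₀ z₁ := ⟨by linarith, ht.2⟩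
      have hz0I : z₀ ∈ Icc z₀ z₁ := ⟨le_rfl, h01.le⟩
      have hl0 : 0 ≤ 1 - u / (t - z₀) := by
        rw [sub_nonneg, div_le_one htz]
        have := ht.1; rw [hpdef] at this; linarith
      have hl1 : 0 ≤ u / (t - z₀) := div_nonneg hu0.le htz.le
      have := hc.2 hz0I htI hl0 hl1 (by ring)
      simp only [smul_eq_mul] at this
      have e : (1 - u / (t - z₀)) * z₀ + u / (t - z₀) * t = z := by
        rw [hudef]; field_simp; ring
      rw [e] at this
      have h00 : 0 ≤ (1 - u / (t - z₀)) * a z₀ := mul_nonneg hl0 (h0 _ hz0I)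
      have h3 : u / (t - z₀) * a t ≤ a z := by linarith
      have h4 : a t * u ≤ a z * (t - z₀) := by
        have := mul_le_mul_of_nonneg_right h3 htz.le
        have e' : u / (t - z₀) * a t * (t - z₀) = a t * u := by field_simp
        rwa [e'] at this
      have h5 : a z * ((t - z₀) / u) = a z * (t - z₀) / u := by ring
      rw [h5, le_div_iff₀ hu0]
      exact h4
  have eP2 : ∫ t in p..z₁, a z * ((t - z₀) / u)
      = a z / u * ((z₁ ^ 2 - p ^ 2) / 2 - z₀ * (z₁ - p)) := by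
    have : ∀ t : ℝ, a z * ((t - z₀) / u) = (a z / u) * t - a z * z₀ / u := by
      intro t; field_simp
    simp_rw [this]
    have hc1 : IntervalIntegrable (fun _ : ℝ => a z * z₀ / u) volume p z₁ :=
      intervalIntegrable_const
    have hc2 : IntervalIntegrable (fun t : ℝ => (a z / u) * t) volume p z₁ :=
      (by fun_prop : Continuous fun t : ℝ => (a z / u) * t).intervalIntegrable _ _
    rw [intervalIntegral.integral_sub hc2 hc1,
      intervalIntegral.integral_const, intervalIntegral.integral_const_mul, integral_id]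
    simp only [smul_eq_mul]
    field_simp
  rw [htent, hsplit]
  have hA : (∫ t in z₀..p, a t) + ∫ t in p..z₁, a t
      ≤ 2 * u * a z + a z / u * ((z₁ ^ 2 - p ^ 2) / 2 - z₀ * (z₁ - p)) := by
    rw [← eP2]; linarith
  have hcoef : 0 ≤ 2 * u / (z₁ - z₀) ^ 2 := by positivity
  calc 2 * u / (z₁ - z₀) ^ 2 * ((∫ t in z₀..p, a t) + ∫ t in p..z₁, a t)
      ≤ 2 * u / (z₁ - z₀) ^ 2
        * (2 * u * a z + a z / u * ((z₁ ^ 2 - p ^ 2) / 2 - z₀ * (z₁ - p))) :=
        mul_le_mul_of_nonneg_left hA hcoef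
    _ = a z := by
        rw [hpdef]
        field_simp
        ring

/-- Real form of `concave_tent`. -/
theorem tent_mul_integral_le {a : ℝ → ℝ} {z₀ z₁ : ℝ} (h01 : z₀ < z₁)
    (hc : ConcaveOn ℝ (Icc z₀ z₁) a) (h0 : ∀ t ∈ Icc z₀ z₁, 0 ≤ a t)
    {z : ℝ} (hz : z ∈ Icc z₀ z₁) :
    tent z₀ z₁ z * (∫ t in z₀..z₁, a t) ≤ a z := by
  rcases le_total (z - z₀) (z₁ - z) with hleft | hright
  · exact tent_mul_integral_le_left h01 hc h0 hz hleft
  · -- reflect
    have hrefl : ∀ t ∈ Icc z₀ z₁, z₀ + z₁ - t ∈ Icc z₀ z₁ := fun t ht =>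
      ⟨by linarith [ht.2], by linarith [ht.1]⟩
    have hc' : ConcaveOn ℝ (Icc z₀ z₁) (fun t => a (z₀ + z₁ - t)) := by
      refine ⟨convex_Icc _ _, ?_⟩
      intro x hx y hy s r hs hr hsr
      have := hc.2 (hrefl x hx) (hrefl y hy) hs hr hsr
      simp only [smul_eq_mul] at this ⊢
      have e : z₀ + z₁ - (s * x + r * y) = s * (z₀ + z₁ - x) + r * (z₀ + z₁ - y) := by
        have : r = 1 - s := by linarith
        subst this; ring
      rw [e]; exact this
    have h0' : ∀ t ∈ Icc z₀ z₁, 0 ≤ a (z₀ + z₁ - t) := fun t ht => h0 _ (hrefl t ht)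
    have := tent_mul_integral_le_left h01 hc' h0' (hrefl z hz) (by linarith)
    have e1 : z₀ + z₁ - (z₀ + z₁ - z) = z := by ring
    have e2 : tent z₀ z₁ (z₀ + z₁ - z) = tent z₀ z₁ z := by
      unfold tent
      have : z₀ + z₁ - z - z₀ = z₁ - z := by ring
      have h' : z₁ - (z₀ + z₁ - z) = z - z₀ := by ring
      rw [this, h', min_comm]
    have e3 : ∫ t in z₀..z₁, a (z₀ + z₁ - t) = ∫ t in z₀..z₁, a t := by
      rw [intervalIntegral.integral_comp_sub_left (fun x => a x) (z₀ + z₁)]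
      simp
    rwa [e1, e2, e3] at this

theorem tent_nonneg {z₀ z₁ z : ℝ} (hz : z ∈ Icc z₀ z₁) : 0 ≤ tent z₀ z₁ z := by
  unfold tent
  have : 0 ≤ min (z - z₀) (z₁ - z) := le_min (by linarith [hz.1]) (by linarith [hz.2])
  positivity

theorem continuous_tent (z₀ z₁ : ℝ) : Continuous (tent z₀ z₁) := by
  unfold tent
  exact ((continuous_const.mul ((continuous_id.sub continuous_const).min
    (continuous_const.sub continuous_id))).div_const _)

theorem concave_tent {a : ℝ → ℝ} {z₀ z₁ : ℝ} (h01 : z₀ < z₁)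
    (hc : ConcaveOn ℝ (Icc z₀ z₁) a) (h0 : ∀ t ∈ Icc z₀ z₁, 0 ≤ a t)
    {z : ℝ} (hz : z ∈ Icc z₀ z₁) :
    ENNReal.ofReal (tent z₀ z₁ z) * (∫⁻ t in Icc z₀ z₁, ENNReal.ofReal (a t))
      ≤ ENNReal.ofReal (a z) := by
  rw [lintegral_concave_eq h01.le hc h0, ← ENNReal.ofReal_mul (tent_nonneg hz)]
  exact ENNReal.ofReal_le_ofReal (tent_mul_integral_le h01 hc h0 hz)

/-- Real integral of the tent. -/
theorem integral_tent {z₀ z₁ : ℝ} (h01 : z₀ < z₁) :
    ∫ z in z₀..z₁, tent z₀ z₁ z = 1 / 2 := by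
  have hl : z₁ - z₀ ≠ 0 := by linarith
  set m := (z₀ + z₁) / 2 with hm
  have h0m : z₀ ≤ m := by rw [hm]; linarith
  have hm1 : m ≤ z₁ := by rw [hm]; linarith
  have hint : ∀ p q : ℝ, IntervalIntegrable (tent z₀ z₁) volume p q := fun p q =>
    (continuous_tent z₀ z₁).intervalIntegrable p q
  rw [← intervalIntegral.integral_add_adjacent_intervals (hint z₀ m) (hint m z₁)]
  have eL : ∫ z in z₀..m, tent z₀ z₁ z
      = ∫ z in z₀..m, (2 / (z₁ - z₀) ^ 2 * z - 2 * z₀ / (z₁ - z₀) ^ 2) := by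
    apply intervalIntegral.integral_congr
    intro z hz
    rw [uIcc_of_le h0m] at hz
    have : z - z₀ ≤ z₁ - z := by have := hz.2; rw [hm] at this; linarith
    simp only [tent, min_eq_left this]
    ring
  have eR : ∫ z in m..z₁, tent z₀ z₁ z
      = ∫ z in m..z₁, (2 * z₁ / (z₁ - z₀) ^ 2 - 2 / (z₁ - z₀) ^ 2 * z) := by
    apply intervalIntegral.integral_congr
    intro z hz
    rw [uIcc_of_le hm1] at hz
    have : z₁ - z ≤ z - z₀ := by have := hz.1; rw [hm] at this; linarith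
    simp only [tent, min_eq_right this]
    ring
  rw [eL, eR]
  have hcL1 : IntervalIntegrable (fun z : ℝ => 2 / (z₁ - z₀) ^ 2 * z) volume z₀ m :=
    (by fun_prop : Continuous fun z : ℝ => 2 / (z₁ - z₀) ^ 2 * z).intervalIntegrable _ _
  have hcL2 : IntervalIntegrable (fun _ : ℝ => 2 * z₀ / (z₁ - z₀) ^ 2) volume z₀ m :=
    intervalIntegrable_const
  have hcR1 : IntervalIntegrable (fun z : ℝ => 2 / (z₁ - z₀) ^ 2 * z) volume m z₁ :=
    (by fun_prop : Continuous fun z : ℝ => 2 / (z₁ - z₀) ^ 2 * z).intervalIntegrable _ _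
  have hcR2 : IntervalIntegrable (fun _ : ℝ => 2 * z₁ / (z₁ - z₀) ^ 2) volume m z₁ :=
    intervalIntegrable_const
  rw [intervalIntegral.integral_sub hcL1 hcL2, intervalIntegral.integral_sub hcR2 hcR1,
    intervalIntegral.integral_const, intervalIntegral.integral_const_mul, integral_id,
    intervalIntegral.integral_const, intervalIntegral.integral_const_mul, integral_id]
  simp only [smul_eq_mul]
  rw [hm]
  field_simp
  ring

theorem tent_integral {z₀ z₁ : ℝ} (h01 : z₀ < z₁) :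
    ∫⁻ z in Icc z₀ z₁, ENNReal.ofReal (tent z₀ z₁ z) = 1 / 2 := by
  have hi' : IntegrableOn (tent z₀ z₁) (Icc z₀ z₁) volume :=
    (continuous_tent z₀ z₁).integrableOn_Icc
  have h1 : ENNReal.ofReal (∫ z in Icc z₀ z₁, tent z₀ z₁ z)
      = ∫⁻ z in Icc z₀ z₁, ENNReal.ofReal (tent z₀ z₁ z) := by
    apply ofReal_integral_eq_lintegral_ofReal hi'
    filter_upwards [ae_restrict_mem measurableSet_Icc] with t ht using tent_nonneg ht
  rw [← h1, integral_Icc_eq_integral_Ioc, ← intervalIntegral.integral_of_le h01.le,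
    integral_tent h01, ENNReal.ofReal_div_of_pos (by norm_num)]
  simp

theorem two_density {a₁ a₂ : ℝ → ℝ} {b₁ b₂ : ℝ → ℝ≥0∞} {z₀ z₁ : ℝ} (h01 : z₀ < z₁)
    (hc₁ : ConcaveOn ℝ (Icc z₀ z₁) a₁) (hc₂ : ConcaveOn ℝ (Icc z₀ z₁) a₂)
    (h₁ : ∀ t ∈ Icc z₀ z₁, 0 ≤ a₁ t) (h₂ : ∀ t ∈ Icc z₀ z₁, 0 ≤ a₂ t)
    (hb₁ : Measurable b₁) (hb₂ : Measurable b₂)
    (hE : ∀ z ∈ Icc z₀ z₁, ENNReal.ofReal (a₁ z) * ENNReal.ofReal (a₂ z)
        ≤ b₁ z * ENNReal.ofReal (a₂ z) + b₂ z * ENNReal.ofReal (a₁ z))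
    (hA₁ : 0 < ∫⁻ t in Icc z₀ z₁, ENNReal.ofReal (a₁ t))
    (hA₂ : 0 < ∫⁻ t in Icc z₀ z₁, ENNReal.ofReal (a₂ t))
    (hA₁' : ∫⁻ t in Icc z₀ z₁, ENNReal.ofReal (a₁ t) ≠ ⊤)
    (hA₂' : ∫⁻ t in Icc z₀ z₁, ENNReal.ofReal (a₂ t) ≠ ⊤) :
    (1 / 2 : ℝ≥0∞) ≤
      (∫⁻ z in Icc z₀ z₁, b₁ z) / (∫⁻ t in Icc z₀ z₁, ENNReal.ofReal (a₁ t))
      + (∫⁻ z in Icc z₀ z₁, b₂ z) / (∫⁻ t in Icc z₀ z₁, ENNReal.ofReal (a₂ t)) := by
  set A₁ := ∫⁻ t in Icc z₀ z₁, ENNReal.ofReal (a₁ t) with hA₁def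
  set A₂ := ∫⁻ t in Icc z₀ z₁, ENNReal.ofReal (a₂ t) with hA₂def
  have key : ∀ z ∈ Icc z₀ z₁, ENNReal.ofReal (tent z₀ z₁ z) ≤ b₁ z / A₁ + b₂ z / A₂ := by
    intro z hz
    have hT₁ := concave_tent h01 hc₁ h₁ hz
    have hT₂ := concave_tent h01 hc₂ h₂ hz
    rw [← hA₁def] at hT₁
    rw [← hA₂def] at hT₂
    rcases (tent_nonneg hz).eq_or_lt with ht0 | htpos
    · rw [← ht0]; simp
    by_cases hb₁top : b₁ z = ⊤
    · rw [hb₁top, ENNReal.top_div_of_ne_top hA₁']; simp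
    by_cases hb₂top : b₂ z = ⊤
    · rw [hb₂top, ENNReal.top_div_of_ne_top hA₂']; simp
    set t := tent z₀ z₁ z with htdef
    set R₁ := A₁.toReal with hR₁def
    set R₂ := A₂.toReal with hR₂def
    set β₁ := (b₁ z).toReal with hβ₁def
    set β₂ := (b₂ z).toReal with hβ₂def
    have hR₁ : 0 < R₁ := ENNReal.toReal_pos hA₁.ne' hA₁'
    have hR₂ : 0 < R₂ := ENNReal.toReal_pos hA₂.ne' hA₂'
    have hβ₁ : 0 ≤ β₁ := ENNReal.toReal_nonneg
    have hβ₂ : 0 ≤ β₂ := ENNReal.toReal_nonneg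
    have hα₁ : 0 ≤ a₁ z := h₁ z hz
    have hα₂ : 0 ≤ a₂ z := h₂ z hz
    have hr₁ : t * R₁ ≤ a₁ z := by
      have := ENNReal.toReal_mono ENNReal.ofReal_ne_top hT₁
      rwa [ENNReal.toReal_mul, ENNReal.toReal_ofReal htpos.le, ENNReal.toReal_ofReal hα₁] at this
    have hr₂ : t * R₂ ≤ a₂ z := by
      have := ENNReal.toReal_mono ENNReal.ofReal_ne_top hT₂
      rwa [ENNReal.toReal_mul, ENNReal.toReal_ofReal htpos.le, ENNReal.toReal_ofReal hα₂] at this
    have hE' : a₁ z * a₂ z ≤ β₁ * a₂ z + β₂ * a₁ z := by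
      have hfin : b₁ z * ENNReal.ofReal (a₂ z) + b₂ z * ENNReal.ofReal (a₁ z) ≠ ⊤ :=
        ENNReal.add_ne_top.2 ⟨ENNReal.mul_ne_top hb₁top ENNReal.ofReal_ne_top,
          ENNReal.mul_ne_top hb₂top ENNReal.ofReal_ne_top⟩
      have := ENNReal.toReal_mono hfin (hE z hz)
      rwa [ENNReal.toReal_mul, ENNReal.toReal_ofReal hα₁, ENNReal.toReal_ofReal hα₂,
        ENNReal.toReal_add (ENNReal.mul_ne_top hb₁top ENNReal.ofReal_ne_top)
          (ENNReal.mul_ne_top hb₂top ENNReal.ofReal_ne_top),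
        ENNReal.toReal_mul, ENNReal.toReal_mul, ENNReal.toReal_ofReal hα₁,
        ENNReal.toReal_ofReal hα₂] at this
    have hα₁pos : 0 < a₁ z := lt_of_lt_of_le (mul_pos htpos hR₁) hr₁
    have hα₂pos : 0 < a₂ z := lt_of_lt_of_le (mul_pos htpos hR₂) hr₂
    have hreal : t ≤ β₁ / R₁ + β₂ / R₂ := by
      rw [div_add_div _ _ hR₁.ne' hR₂.ne', le_div_iff₀ (mul_pos hR₁ hR₂)]
      have hpos : 0 < a₁ z * a₂ z := mul_pos hα₁pos hα₂pos
      have h1 : t * (R₁ * R₂) * (a₁ z * a₂ z) ≤ (β₁ * R₂ + R₁ * β₂) * (a₁ z * a₂ z) := by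
        calc t * (R₁ * R₂) * (a₁ z * a₂ z)
            ≤ t * (R₁ * R₂) * (β₁ * a₂ z + β₂ * a₁ z) :=
              mul_le_mul_of_nonneg_left hE' (by positivity)
          _ = β₁ * (R₂ * a₂ z) * (t * R₁) + β₂ * (R₁ * a₁ z) * (t * R₂) := by ring
          _ ≤ β₁ * (R₂ * a₂ z) * a₁ z + β₂ * (R₁ * a₁ z) * a₂ z := by
              have i1 : β₁ * (R₂ * a₂ z) * (t * R₁) ≤ β₁ * (R₂ * a₂ z) * a₁ z :=
                mul_le_mul_of_nonneg_left hr₁ (by positivity)
              have i2 : β₂ * (R₁ * a₁ z) * (t * R₂) ≤ β₂ * (R₁ * a₁ z) * a₂ z :=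
                mul_le_mul_of_nonneg_left hr₂ (by positivity)
              linarith
          _ = (β₁ * R₂ + R₁ * β₂) * (a₁ z * a₂ z) := by ring
      exact le_of_mul_le_mul_right h1 hpos
    have e₁ : b₁ z / A₁ = ENNReal.ofReal (β₁ / R₁) := by
      rw [ENNReal.ofReal_div_of_pos hR₁, hβ₁def, hR₁def, ENNReal.ofReal_toReal hb₁top,
        ENNReal.ofReal_toReal hA₁']
    have e₂ : b₂ z / A₂ = ENNReal.ofReal (β₂ / R₂) := by
      rw [ENNReal.ofReal_div_of_pos hR₂, hβ₂def, hR₂def, ENNReal.ofReal_toReal hb₂top,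
        ENNReal.ofReal_toReal hA₂']
    rw [e₁, e₂, ← ENNReal.ofReal_add (div_nonneg hβ₁ hR₁.le) (div_nonneg hβ₂ hR₂.le)]
    exact ENNReal.ofReal_le_ofReal hreal
  calc (1 / 2 : ℝ≥0∞) = ∫⁻ z in Icc z₀ z₁, ENNReal.ofReal (tent z₀ z₁ z) :=
        (tent_integral h01).symm
    _ ≤ ∫⁻ z in Icc z₀ z₁, (b₁ z / A₁ + b₂ z / A₂) := setLIntegral_mono' measurableSet_Icc key
    _ = (∫⁻ z in Icc z₀ z₁, b₁ z / A₁) + ∫⁻ z in Icc z₀ z₁, b₂ z / A₂ :=
        lintegral_add_left (hb₁.div_const _) _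
    _ = (∫⁻ z in Icc z₀ z₁, b₁ z) / A₁ + (∫⁻ z in Icc z₀ z₁, b₂ z) / A₂ := by
        simp_rw [div_eq_mul_inv]
        rw [lintegral_mul_const _ hb₁, lintegral_mul_const _ hb₂]

end Vale.Agent.Lib.P243
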