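import Mathlib
import Vale.Agent.Lib.P243.Slices

open MeasureTheory Set
open scoped ENNReal Pointwise

namespace Vale.Agent.Lib.P243

/-- one-dimensional Brunn–Minkowski inequality for bounded convex sets -/
lemma bm_one {U V : Set ℝ} (hU : Convex ℝ U) (hV : Convex ℝ V) (hUne : U.Nonempty)
    (hVne : V.Nonempty) (hUa : BddAbove U) (hUb : BddBelow U) (hVa : BddAbove V)
    (hVb : BddBelow V) {a b : ℝ} (ha : 0 ≤ a) (hb : 0 ≤ b) (hab : a + b = 1)
    {S : Set ℝ} (hS : ∀ u ∈ U, ∀ v ∈ V, a * u + b * v ∈ S) :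
    ENNReal.ofReal a * volume U + ENNReal.ofReal b * volume V ≤ volume S := by
  have hUd : sInf U ≤ sSup U := Real.sInf_le_sSup U hUb hUa
  have hVd : sInf V ≤ sSup V := Real.sInf_le_sSup V hVb hVa
  have vU : volume U ≤ ENNReal.ofReal (sSup U - sInf U) := by
    calc volume U ≤ volume (Icc (sInf U) (sSup U)) :=
          measure_mono (subset_Icc_csInf_csSup hUb hUa)
      _ = ENNReal.ofReal (sSup U - sInf U) := Real.volume_Icc
  have vV : volume V ≤ ENNReal.ofReal (sSup V - sInf V) := by
    calc volume V ≤ volume (Icc (sInf V) (sSup V)) :=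
          measure_mono (subset_Icc_csInf_csSup hVb hVa)
      _ = ENNReal.ofReal (sSup V - sInf V) := Real.volume_Icc
  have hsub : Ioo (a * sInf U + b * sInf V) (a * sSup U + b * sSup V) ⊆ S := by
    rintro w ⟨hw1, hw2⟩
    obtain ⟨u₁, hu₁, hu₁'⟩ := exists_lt_of_csInf_lt hUne
      (by linarith : sInf U < sInf U + (w - (a * sInf U + b * sInf V)) / 2)
    obtain ⟨v₁, hv₁, hv₁'⟩ := exists_lt_of_csInf_lt hVne
      (by linarith : sInf V < sInf V + (w - (a * sInf U + b * sInf V)) / 2)
    obtain ⟨u₂, hu₂, hu₂'⟩ := exists_lt_of_lt_csSup hUne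
      (by linarith : sSup U - ((a * sSup U + b * sSup V) - w) / 2 < sSup U)
    obtain ⟨v₂, hv₂, hv₂'⟩ := exists_lt_of_lt_csSup hVne
      (by linarith : sSup V - ((a * sSup U + b * sSup V) - w) / 2 < sSup V)
    have g0 : a * u₁ + b * v₁ < w := by
      have h1 := mul_le_mul_of_nonneg_left hu₁'.le ha
      have h2 := mul_le_mul_of_nonneg_left hv₁'.le hb
      have h3 : a * (sInf U + (w - (a * sInf U + b * sInf V)) / 2)
          + b * (sInf V + (w - (a * sInf U + b * sInf V)) / 2)
          = a * sInf U + b * sInf V + (a + b) * ((w - (a * sInf U + b * sInf V)) / 2) := by ring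
      rw [hab] at h3
      linarith
    have g1 : w < a * u₂ + b * v₂ := by
      have h1 := mul_le_mul_of_nonneg_left hu₂'.le ha
      have h2 := mul_le_mul_of_nonneg_left hv₂'.le hb
      have h3 : a * (sSup U - ((a * sSup U + b * sSup V) - w) / 2)
          + b * (sSup V - ((a * sSup U + b * sSup V) - w) / 2)
          = a * sSup U + b * sSup V - (a + b) * (((a * sSup U + b * sSup V) - w) / 2) := by ring
      rw [hab] at h3
      linarith
    have hden : 0 < (a * u₂ + b * v₂) - (a * u₁ + b * v₁) := by linarith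
    set τ := (w - (a * u₁ + b * v₁)) / ((a * u₂ + b * v₂) - (a * u₁ + b * v₁)) with hτ
    have hτ0 : 0 ≤ τ := div_nonneg (by linarith) hden.le
    have hτ1 : τ ≤ 1 := by
      rw [hτ, div_le_one hden]
      linarith
    have hu := hU hu₁ hu₂ (sub_nonneg.mpr hτ1) hτ0 (by ring : 1 - τ + τ = 1)
    have hv := hV hv₁ hv₂ (sub_nonneg.mpr hτ1) hτ0 (by ring : 1 - τ + τ = 1)
    have := hS _ hu _ hv
    have e : a * ((1 - τ) • u₁ + τ • u₂) + b * ((1 - τ) • v₁ + τ • v₂) = w := by
      simp only [smul_eq_mul]
      have : τ * ((a * u₂ + b * v₂) - (a * u₁ + b * v₁)) = w - (a * u₁ + b * v₁) := by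
        rw [hτ]
        field_simp
      linear_combination this
    rw [e] at this
    exact this
  calc ENNReal.ofReal a * volume U + ENNReal.ofReal b * volume V
      ≤ ENNReal.ofReal a * ENNReal.ofReal (sSup U - sInf U)
        + ENNReal.ofReal b * ENNReal.ofReal (sSup V - sInf V) :=
        add_le_add (mul_le_mul_right vU _) (mul_le_mul_right vV _)
    _ = ENNReal.ofReal ((a * sSup U + b * sSup V) - (a * sInf U + b * sInf V)) := by
        rw [← ENNReal.ofReal_mul ha, ← ENNReal.ofReal_mul hb,
          ← ENNReal.ofReal_add (mul_nonneg ha (by linarith)) (mul_nonneg hb (by linarith))]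
        congr 1
        ring
    _ = volume (Ioo (a * sInf U + b * sInf V) (a * sSup U + b * sSup V)) := Real.volume_Ioo.symm
    _ ≤ volume S := measure_mono hsub

/-- layer-cake comparison -/
lemma layer_cake_ineq {F G H : ℝ → ℝ} (hF : Measurable F) (hG : Measurable G)
    (hH : Measurable H) (hF0 : ∀ z, 0 ≤ F z) (hG0 : ∀ z, 0 ≤ G z) (hH0 : ∀ z, 0 ≤ H z)
    {a b : ℝ}
    (h : ∀ t, 0 < t → ENNReal.ofReal a * volume {z | t < F z}
      + ENNReal.ofReal b * volume {z | t < G z} ≤ volume {z | t < H z}) :
    ENNReal.ofReal a * (∫⁻ z, ENNReal.ofReal (F z))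
      + ENNReal.ofReal b * (∫⁻ z, ENNReal.ofReal (G z))
      ≤ ∫⁻ z, ENNReal.ofReal (H z) := by
  have e1 := lintegral_eq_lintegral_meas_lt volume (Filter.Eventually.of_forall hF0)
    hF.aemeasurable
  have e2 := lintegral_eq_lintegral_meas_lt volume (Filter.Eventually.of_forall hG0)
    hG.aemeasurable
  have e3 := lintegral_eq_lintegral_meas_lt volume (Filter.Eventually.of_forall hH0)
    hH.aemeasurable
  rw [e1, e2, e3, ← lintegral_const_mul' _ _ ENNReal.ofReal_ne_top,
    ← lintegral_const_mul' _ _ ENNReal.ofReal_ne_top]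
  refine le_trans (le_lintegral_add _ _) ?_
  exact setLIntegral_mono' measurableSet_Ioi (fun t ht => h t ht)

lemma width_eq_zero {Ω : Set (ℝ × ℝ)} {z : ℝ} (hz : z ∉ Prod.fst '' Ω) : width Ω z = 0 := by
  unfold width
  rw [vslice_empty hz, Real.sSup_empty, Real.sInf_empty, sub_self]

lemma width_nonneg' {Ω : Set (ℝ × ℝ)} (hconv : Convex ℝ Ω) (hcomp : IsCompact Ω) (z : ℝ) :
    0 ≤ width Ω z := by
  by_cases hz : z ∈ Prod.fst '' Ω
  · exact width_nonneg hconv hcomp hz
  · rw [width_eq_zero hz]

lemma volume_slice_eq {Ω : Set (ℝ × ℝ)} (hconv : Convex ℝ Ω) (hcomp : IsCompact Ω) (z : ℝ) :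
    volume (Prod.mk z ⁻¹' Ω) = ENNReal.ofReal (width Ω z) := by
  by_cases hz : z ∈ Prod.fst '' Ω
  · exact volume_vslice hconv hcomp hz
  · have h : Prod.mk z ⁻¹' Ω = vslice Ω z := rfl
    rw [h, vslice_empty hz, measure_empty, width_eq_zero hz, ENNReal.ofReal_zero]

lemma measurable_width {Ω : Set (ℝ × ℝ)} (hconv : Convex ℝ Ω) (hcomp : IsCompact Ω) :
    Measurable (width Ω) := by
  have h : width Ω = fun z => (volume (Prod.mk z ⁻¹' Ω)).toReal := by
    funext z
    rw [volume_slice_eq hconv hcomp z, ENNReal.toReal_ofReal (width_nonneg' hconv hcomp z)]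
  rw [h]
  exact (measurable_measure_prodMk_left hcomp.measurableSet).ennreal_toReal

lemma volume_eq_lintegral_width' {Ω : Set (ℝ × ℝ)} (hconv : Convex ℝ Ω) (hcomp : IsCompact Ω) :
    volume Ω = ∫⁻ z, ENNReal.ofReal (width Ω z) := by
  rw [Measure.volume_eq_prod, Measure.prod_apply hcomp.measurableSet]
  exact lintegral_congr (fun z => volume_slice_eq hconv hcomp z)

lemma width_le {Ω : Set (ℝ × ℝ)} (hconv : Convex ℝ Ω) (hcomp : IsCompact Ω) (z : ℝ) :
    width Ω z ≤ (volume (Prod.snd '' Ω)).toReal := by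
  have hfin : volume (Prod.snd '' Ω) ≠ ⊤ := (hcomp.image continuous_snd).measure_lt_top.ne
  have h1 : volume (Prod.mk z ⁻¹' Ω) ≤ volume (Prod.snd '' Ω) := by
    apply measure_mono
    intro x hx
    exact ⟨(z, x), hx, rfl⟩
  rw [volume_slice_eq hconv hcomp z] at h1
  exact (ENNReal.ofReal_le_iff_le_toReal hfin).mp h1

lemma bddAbove_width {Ω : Set (ℝ × ℝ)} (hconv : Convex ℝ Ω) (hcomp : IsCompact Ω) :
    BddAbove (range (width Ω)) := by
  refine ⟨(volume (Prod.snd '' Ω)).toReal, ?_⟩
  rintro _ ⟨z, rfl⟩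
  exact width_le hconv hcomp z

/-- slices of a Minkowski combination -/
lemma width_combination {X Y : Set (ℝ × ℝ)} (hXc : IsCompact X) (hYc : IsCompact Y)
    {a b : ℝ} (ha : 0 ≤ a) (hb : 0 ≤ b) {z₀ z₁ : ℝ} (hz₀ : z₀ ∈ Prod.fst '' X)
    (hz₁ : z₁ ∈ Prod.fst '' Y) :
    a * width X z₀ + b * width Y z₁ ≤ width (a • X + b • Y) (a * z₀ + b * z₁) := by
  have hWc : IsCompact (a • X + b • Y) := (hXc.smul a).add (hYc.smul b)
  have cX := vslice_compact hXc z₀
  have cY := vslice_compact hYc z₁
  have cW := vslice_compact hWc (a * z₀ + b * z₁)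
  have xu : (z₀, sSup (vslice X z₀)) ∈ X := cX.sSup_mem (vslice_nonempty hz₀)
  have xl : (z₀, sInf (vslice X z₀)) ∈ X := cX.sInf_mem (vslice_nonempty hz₀)
  have yu : (z₁, sSup (vslice Y z₁)) ∈ Y := cY.sSup_mem (vslice_nonempty hz₁)
  have yl : (z₁, sInf (vslice Y z₁)) ∈ Y := cY.sInf_mem (vslice_nonempty hz₁)
  have wu : a * sSup (vslice X z₀) + b * sSup (vslice Y z₁)
      ∈ vslice (a • X + b • Y) (a * z₀ + b * z₁) := by
    have := Set.add_mem_add (Set.smul_mem_smul_set (a := a) xu) (Set.smul_mem_smul_set (a := b) yu)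
    simpa [vslice] using this
  have wl : a * sInf (vslice X z₀) + b * sInf (vslice Y z₁)
      ∈ vslice (a • X + b • Y) (a * z₀ + b * z₁) := by
    have := Set.add_mem_add (Set.smul_mem_smul_set (a := a) xl) (Set.smul_mem_smul_set (a := b) yl)
    simpa [vslice] using this
  have h1 := le_csSup cW.bddAbove wu
  have h2 := csInf_le cW.bddBelow wl
  unfold width
  have _ha := ha
  have _hb := hb
  linarith

/-- a translate of a scaled copy sits inside a Minkowski sum -/
lemma scaled_le {P Q : Set (ℝ × ℝ)} (hP : P.Nonempty) (c : ℝ) :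
    ENNReal.ofReal (c ^ 2) * volume Q ≤ volume (P + c • Q) := by
  obtain ⟨p, hp⟩ := hP
  have h1 : p +ᵥ (c • Q) ⊆ P + c • Q := by
    rintro x ⟨q, hq, rfl⟩
    exact Set.add_mem_add hp hq
  have h2 : volume (p +ᵥ (c • Q)) = ENNReal.ofReal (c ^ 2) * volume Q := by
    rw [measure_vadd, Measure.addHaar_smul]
    congr 2
    simp [abs_of_nonneg (sq_nonneg c)]
  rw [← h2]
  exact measure_mono h1

/-- the final real-number inequality -/
lemma bm_arith {a b x y w MX MY : ℝ} (ha : 0 ≤ a) (hb : 0 ≤ b) (hx : 0 ≤ x) (hy : 0 ≤ y)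
    (hMX : 0 < MX) (hMY : 0 < MY)
    (h : a * ((a * MX + b * MY) / MX * x) + b * ((a * MX + b * MY) / MY * y) ≤ w) :
    a * Real.sqrt x + b * Real.sqrt y ≤ Real.sqrt w := by
  obtain ⟨p, hp0, hp⟩ : ∃ p : ℝ, 0 ≤ p ∧ p ^ 2 = x := ⟨Real.sqrt x, Real.sqrt_nonneg x, Real.sq_sqrt hx⟩
  obtain ⟨q, hq0, hq⟩ : ∃ q : ℝ, 0 ≤ q ∧ q ^ 2 = y := ⟨Real.sqrt y, Real.sqrt_nonneg y, Real.sq_sqrt hy⟩
  subst hp hq
  rw [Real.sqrt_sq hp0, Real.sqrt_sq hq0]
  apply Real.le_sqrt_of_sq_le
  have key : a * ((a * MX + b * MY) / MX * p ^ 2) + b * ((a * MX + b * MY) / MY * q ^ 2)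
      - (a * p + b * q) ^ 2 = a * b * (MY * p - MX * q) ^ 2 / (MX * MY) := by
    field_simp
    ring
  have hnn : 0 ≤ a * b * (MY * p - MX * q) ^ 2 / (MX * MY) := by positivity
  linarith

/-- Brunn–Minkowski inequality for compact convex sets in the plane -/
theorem planar_bm {X Y : Set (ℝ × ℝ)} (hX : Convex ℝ X) (hXc : IsCompact X) (hXne : X.Nonempty)
    (hY : Convex ℝ Y) (hYc : IsCompact Y) (hYne : Y.Nonempty) {a b : ℝ} (ha : 0 ≤ a)
    (hb : 0 ≤ b) (hab : a + b = 1) :
    a * Real.sqrt (volume X).toReal + b * Real.sqrt (volume Y).toReal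
      ≤ Real.sqrt (volume (a • X + b • Y)).toReal := by
  have hW : Convex ℝ (a • X + b • Y) := (hX.smul a).add (hY.smul b)
  have hWc : IsCompact (a • X + b • Y) := (hXc.smul a).add (hYc.smul b)
  have fX : volume X ≠ ⊤ := hXc.measure_lt_top.ne
  have fY : volume Y ≠ ⊤ := hYc.measure_lt_top.ne
  have fW : volume (a • X + b • Y) ≠ ⊤ := hWc.measure_lt_top.ne
  have bX := bddAbove_width hX hXc
  have bY := bddAbove_width hY hYc
  have MX0 : 0 ≤ ⨆ z, width X z := le_trans (width_nonneg' hX hXc 0) (le_ciSup bX 0)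
  have MY0 : 0 ≤ ⨆ z, width Y z := le_trans (width_nonneg' hY hYc 0) (le_ciSup bY 0)
  have degX : (⨆ z, width X z) = 0 → volume X = 0 := by
    intro h0
    rw [volume_eq_lintegral_width' hX hXc]
    have hz : ∀ z, width X z = 0 := fun z =>
      le_antisymm (h0 ▸ le_ciSup bX z) (width_nonneg' hX hXc z)
    simp [hz]
  have degY : (⨆ z, width Y z) = 0 → volume Y = 0 := by
    intro h0
    rw [volume_eq_lintegral_width' hY hYc]
    have hz : ∀ z, width Y z = 0 := fun z =>
      le_antisymm (h0 ▸ le_ciSup bY z) (width_nonneg' hY hYc z)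
    simp [hz]
  have sX : a ^ 2 * (volume X).toReal ≤ (volume (a • X + b • Y)).toReal := by
    have h1 := scaled_le (P := b • Y) (Q := X) hYne.smul_set a
    rw [add_comm] at h1
    have h2 := ENNReal.toReal_mono fW h1
    rwa [ENNReal.toReal_mul, ENNReal.toReal_ofReal (sq_nonneg a)] at h2
  have sY : b ^ 2 * (volume Y).toReal ≤ (volume (a • X + b • Y)).toReal := by
    have h1 := scaled_le (P := a • X) (Q := Y) hXne.smul_set b
    have h2 := ENNReal.toReal_mono fW h1
    rwa [ENNReal.toReal_mul, ENNReal.toReal_ofReal (sq_nonneg b)] at h2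
  have x0 : 0 ≤ (volume X).toReal := ENNReal.toReal_nonneg
  have y0 : 0 ≤ (volume Y).toReal := ENNReal.toReal_nonneg
  by_cases hMX : (⨆ z, width X z) = 0
  · rw [degX hMX]
    simp only [ENNReal.toReal_zero, Real.sqrt_zero, mul_zero, zero_add]
    calc b * Real.sqrt (volume Y).toReal
        = Real.sqrt (b ^ 2 * (volume Y).toReal) := by
          rw [Real.sqrt_mul (sq_nonneg b), Real.sqrt_sq hb]
      _ ≤ Real.sqrt (volume (a • X + b • Y)).toReal := Real.sqrt_le_sqrt sY
  by_cases hMY : (⨆ z, width Y z) = 0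
  · rw [degY hMY]
    simp only [ENNReal.toReal_zero, Real.sqrt_zero, mul_zero, add_zero]
    calc a * Real.sqrt (volume X).toReal
        = Real.sqrt (a ^ 2 * (volume X).toReal) := by
          rw [Real.sqrt_mul (sq_nonneg a), Real.sqrt_sq ha]
      _ ≤ Real.sqrt (volume (a • X + b • Y)).toReal := Real.sqrt_le_sqrt sX
  have hMXpos : 0 < ⨆ z, width X z := lt_of_le_of_ne MX0 (Ne.symm hMX)
  have hMYpos : 0 < ⨆ z, width Y z := lt_of_le_of_ne MY0 (Ne.symm hMY)
  generalize hMXdef : (⨆ z, width X z) = MX at *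
  generalize hMYdef : (⨆ z, width Y z) = MY at *
  have leX : ∀ z, width X z ≤ MX := fun z => hMXdef ▸ le_ciSup bX z
  have leY : ∀ z, width Y z ≤ MY := fun z => hMYdef ▸ le_ciSup bY z
  have hM : 0 < a * MX + b * MY := by
    rcases ha.eq_or_lt with h | h
    · have hb1 : b = 1 := by linarith
      rw [← h, hb1]
      linarith
    · have h1 := mul_pos h hMXpos
      have h2 := mul_nonneg hb hMYpos.le
      linarith
  have cX : 0 ≤ (a * MX + b * MY) / MX := div_nonneg hM.le hMXpos.le
  have cY : 0 ≤ (a * MX + b * MY) / MY := div_nonneg hM.le hMYpos.le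
  have main := layer_cake_ineq (F := fun z => (a * MX + b * MY) / MX * width X z)
    (G := fun z => (a * MX + b * MY) / MY * width Y z) (H := width (a • X + b • Y))
    ((measurable_width hX hXc).const_mul _) ((measurable_width hY hYc).const_mul _)
    (measurable_width hW hWc)
    (fun z => mul_nonneg cX (width_nonneg' hX hXc z))
    (fun z => mul_nonneg cY (width_nonneg' hY hYc z))
    (fun z => width_nonneg' hW hWc z) (a := a) (b := b) (by
      intro t ht
      by_cases htM : t < a * MX + b * MY
      · -- both level sets are nonempty bounded intervals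
        have eX : ∀ w : ℝ, (t < (a * MX + b * MY) / MX * w) ↔ (t * MX / (a * MX + b * MY) < w) := by
          intro w
          rw [div_lt_iff₀ hM, div_mul_eq_mul_div, lt_div_iff₀ hMXpos, mul_comm w]
        have eY : ∀ w : ℝ, (t < (a * MX + b * MY) / MY * w) ↔ (t * MY / (a * MX + b * MY) < w) := by
          intro w
          rw [div_lt_iff₀ hM, div_mul_eq_mul_div, lt_div_iff₀ hMYpos, mul_comm w]
        have rX0 : 0 ≤ t * MX / (a * MX + b * MY) := by positivity
        have rY0 : 0 ≤ t * MY / (a * MX + b * MY) := by positivity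
        have rXlt : t * MX / (a * MX + b * MY) < MX := by
          rw [div_lt_iff₀ hM]
          exact mul_lt_mul_of_pos_right htM hMXpos |>.trans_eq (mul_comm _ _)
        have rYlt : t * MY / (a * MX + b * MY) < MY := by
          rw [div_lt_iff₀ hM]
          exact mul_lt_mul_of_pos_right htM hMYpos |>.trans_eq (mul_comm _ _)
        have memX : ∀ z, t * MX / (a * MX + b * MY) < width X z → z ∈ Prod.fst '' X := by
          intro z hz
          by_contra hcon
          rw [width_eq_zero hcon] at hz
          linarith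
        have memY : ∀ z, t * MY / (a * MX + b * MY) < width Y z → z ∈ Prod.fst '' Y := by
          intro z hz
          by_contra hcon
          rw [width_eq_zero hcon] at hz
          linarith
        have setX : {z | t < (a * MX + b * MY) / MX * width X z}
            = {z ∈ Prod.fst '' X | t * MX / (a * MX + b * MY) < width X z} := by
          ext z
          constructor
          · intro h
            exact ⟨memX z ((eX _).mp h), (eX _).mp h⟩
          · intro h
            exact (eX _).mpr h.2
        have setY : {z | t < (a * MX + b * MY) / MY * width Y z}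
            = {z ∈ Prod.fst '' Y | t * MY / (a * MX + b * MY) < width Y z} := by
          ext z
          constructor
          · intro h
            exact ⟨memY z ((eY _).mp h), (eY _).mp h⟩
          · intro h
            exact (eY _).mpr h.2
        have convX := (width_concave hX hXc).convex_gt (t * MX / (a * MX + b * MY))
        have convY := (width_concave hY hYc).convex_gt (t * MY / (a * MX + b * MY))
        have neX : {z ∈ Prod.fst '' X | t * MX / (a * MX + b * MY) < width X z}.Nonempty := by
          have hlt : t * MX / (a * MX + b * MY) < ⨆ z, width X z := by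
            rw [hMXdef]
            exact rXlt
          obtain ⟨z, hz⟩ := exists_lt_of_lt_ciSup hlt
          exact ⟨z, memX z hz, hz⟩
        have neY : {z ∈ Prod.fst '' Y | t * MY / (a * MX + b * MY) < width Y z}.Nonempty := by
          have hlt : t * MY / (a * MX + b * MY) < ⨆ z, width Y z := by
            rw [hMYdef]
            exact rYlt
          obtain ⟨z, hz⟩ := exists_lt_of_lt_ciSup hlt
          exact ⟨z, memY z hz, hz⟩
        have kX := hXc.image continuous_fst
        have kY := hYc.image continuous_fst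
        rw [setX, setY]
        refine bm_one convX convY neX neY (kX.bddAbove.mono (fun z hz => hz.1))
          (kX.bddBelow.mono (fun z hz => hz.1)) (kY.bddAbove.mono (fun z hz => hz.1))
          (kY.bddBelow.mono (fun z hz => hz.1)) ha hb hab ?_
        rintro u ⟨hu, hu'⟩ v ⟨hv, hv'⟩
        have hc := width_combination hXc hYc ha hb hu hv
        have hsum : a * (t * MX / (a * MX + b * MY)) + b * (t * MY / (a * MX + b * MY)) = t := by
          field_simp
        have hstrict : 0 < a * (width X u - t * MX / (a * MX + b * MY))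
            + b * (width Y v - t * MY / (a * MX + b * MY)) := by
          have key : ∀ d₁ d₂ : ℝ, 0 < d₁ → 0 < d₂ → 0 < a * d₁ + b * d₂ := by
            intro d₁ d₂ h1 h2
            rcases ha.eq_or_lt with h | h
            · have hb1 : b = 1 := by linarith
              rw [← h, hb1]
              linarith
            · have h3 := mul_pos h h1
              have h4 := mul_nonneg hb h2.le
              linarith
          exact key _ _ (sub_pos.mpr hu') (sub_pos.mpr hv')
        show t < width (a • X + b • Y) (a * u + b * v)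
        have e : a * (width X u - t * MX / (a * MX + b * MY))
            + b * (width Y v - t * MY / (a * MX + b * MY))
            = a * width X u + b * width Y v
              - (a * (t * MX / (a * MX + b * MY)) + b * (t * MY / (a * MX + b * MY))) := by ring
        rw [e, hsum] at hstrict
        linarith
      · have htM' : a * MX + b * MY ≤ t := not_lt.mp htM
        have emX : {z | t < (a * MX + b * MY) / MX * width X z} = ∅ := by
          rw [Set.eq_empty_iff_forall_notMem]
          intro z hz
          have h1 := mul_le_mul_of_nonneg_left (leX z) cX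
          rw [div_mul_cancel₀ _ hMXpos.ne'] at h1
          have hz' : t < (a * MX + b * MY) / MX * width X z := hz
          linarith
        have emY : {z | t < (a * MX + b * MY) / MY * width Y z} = ∅ := by
          rw [Set.eq_empty_iff_forall_notMem]
          intro z hz
          have h1 := mul_le_mul_of_nonneg_left (leY z) cY
          rw [div_mul_cancel₀ _ hMYpos.ne'] at h1
          have hz' : t < (a * MX + b * MY) / MY * width Y z := hz
          linarith
        rw [emX, emY]
        simp)
  have iX : ∫⁻ z, ENNReal.ofReal ((a * MX + b * MY) / MX * width X z)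
      = ENNReal.ofReal ((a * MX + b * MY) / MX) * volume X := by
    rw [volume_eq_lintegral_width' hX hXc, ← lintegral_const_mul' _ _ ENNReal.ofReal_ne_top]
    exact lintegral_congr (fun z => ENNReal.ofReal_mul cX)
  have iY : ∫⁻ z, ENNReal.ofReal ((a * MX + b * MY) / MY * width Y z)
      = ENNReal.ofReal ((a * MX + b * MY) / MY) * volume Y := by
    rw [volume_eq_lintegral_width' hY hYc, ← lintegral_const_mul' _ _ ENNReal.ofReal_ne_top]
    exact lintegral_congr (fun z => ENNReal.ofReal_mul cY)
  rw [iX, iY, ← volume_eq_lintegral_width' hW hWc] at main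
  have main' := ENNReal.toReal_mono fW main
  rw [ENNReal.toReal_add (ENNReal.mul_ne_top ENNReal.ofReal_ne_top
      (ENNReal.mul_ne_top ENNReal.ofReal_ne_top fX))
    (ENNReal.mul_ne_top ENNReal.ofReal_ne_top (ENNReal.mul_ne_top ENNReal.ofReal_ne_top fY)),
    ENNReal.toReal_mul, ENNReal.toReal_mul, ENNReal.toReal_mul, ENNReal.toReal_mul,
    ENNReal.toReal_ofReal ha, ENNReal.toReal_ofReal hb, ENNReal.toReal_ofReal cX,
    ENNReal.toReal_ofReal cY] at main'
  exact bm_arith ha hb x0 y0 hMXpos hMYpos main'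

end Vale.Agent.Lib.P243
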