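import Mathlib

/-!
# Bang's plank theorem in the plane (coordinate form, measurable strips)

A strip is a set `{p | lin α β p ∈ E}` with the pair α, β a unit vector and `E ⊆ ℝ`.
`bang_finite`: finitely many closed strips of total width less than the minimal width of a
compact convex set do not cover it (Bang 1951; sign-maximisation proof).
`bang_measurable`: if a compact convex planar set all of whose direction-widths are at least `W`
is covered by finitely many strips with arbitrary cross-sections `E i`, then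
`W ≤ ∑ volume (E i)`.
-/

namespace Vale.Agent.Lib.P243

open MeasureTheory Set
open scoped ENNReal

/-- The sign attached to a Boolean. -/
def sgn (b : Bool) : ℝ := if b then 1 else -1

lemma sgn_mul_self (b : Bool) : sgn b * sgn b = 1 := by cases b <;> simp [sgn]

lemma sgn_not (b : Bool) : sgn (!b) = -sgn b := by cases b <;> simp [sgn]

lemma sgn_mul_le_abs (b : Bool) (x : ℝ) : sgn b * x ≤ |x| := by
  cases b
  · simpa [sgn] using neg_le_abs x
  · simpa [sgn] using le_abs_self x

/-- The linear functional `p ↦ α p.1 + β p.2`. -/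
def lin (α β : ℝ) (p : ℝ × ℝ) : ℝ := α * p.1 + β * p.2

/-- The signed sum `∑ ± w j • (α j, β j)`. -/
def spt {ι : Type*} (s : Finset ι) (α β w : ι → ℝ) (ε : ι → Bool) : ℝ × ℝ :=
  (∑ j ∈ s, sgn (ε j) * (w j * α j), ∑ j ∈ s, sgn (ε j) * (w j * β j))

lemma sum_flip {ι : Type*} [Fintype ι] [DecidableEq ι] (f : ι → ℝ) (ε : ι → Bool) (k : ι) :
    ∑ j, sgn (Function.update ε k (!ε k) j) * f j
      = ∑ j, sgn (ε j) * f j - 2 * (sgn (ε k) * f k) := by
  rw [← Finset.add_sum_erase Finset.univ _ (Finset.mem_univ k),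
    ← Finset.add_sum_erase Finset.univ (fun j => sgn (ε j) * f j) (Finset.mem_univ k)]
  have : ∑ j ∈ Finset.univ.erase k, sgn (Function.update ε k (!ε k) j) * f j
      = ∑ j ∈ Finset.univ.erase k, sgn (ε j) * f j :=
    Finset.sum_congr rfl (fun j hj => by
      rw [Function.update_of_ne (Finset.ne_of_mem_erase hj)])
  rw [this, Function.update_self, sgn_not]
  ring

/-- Bang's lemma: some signed sum avoids the interior of every strip. -/
theorem bang_lemma {ι : Type*} [Fintype ι] [DecidableEq ι] (α β m w : ι → ℝ)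
    (hu : ∀ k, α k ^ 2 + β k ^ 2 = 1) (hw : ∀ k, 0 ≤ w k) (c : ℝ × ℝ) :
    ∃ ε : ι → Bool, ∀ k, w k ≤ |lin (α k) (β k) (c + spt Finset.univ α β w ε) - m k| := by
  obtain ⟨ε, -, hmax⟩ := Finset.exists_max_image (Finset.univ : Finset (ι → Bool))
    (fun ε => (∑ j, sgn (ε j) * (w j * α j)) ^ 2 + (∑ j, sgn (ε j) * (w j * β j)) ^ 2
      - 2 * ∑ j, sgn (ε j) * (w j * (m j - lin (α j) (β j) c)))
    ⟨fun _ => true, Finset.mem_univ _⟩
  refine ⟨ε, fun k => ?_⟩
  have h := hmax (Function.update ε k (!ε k)) (Finset.mem_univ _)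
  beta_reduce at h
  rw [sum_flip, sum_flip, sum_flip] at h
  set X := ∑ j, sgn (ε j) * (w j * α j) with hX
  set Y := ∑ j, sgn (ε j) * (w j * β j) with hY
  set T := ∑ j, sgn (ε j) * (w j * (m j - lin (α j) (β j) c)) with hT
  set σ := sgn (ε k) with hσ
  have hσ2 : σ * σ = 1 := sgn_mul_self _
  have hD : lin (α k) (β k) (c + spt Finset.univ α β w ε) - m k
      = α k * X + β k * Y - (m k - lin (α k) (β k) c) := by
    simp only [lin, spt, Prod.fst_add, Prod.snd_add, hX, hY]; ring
  rw [hD]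
  set D := α k * X + β k * Y - (m k - lin (α k) (β k) c) with hDdef
  have key : w k * w k ≤ w k * (σ * D) := by
    have e : w k * (σ * D) - w k * w k * (σ * σ) * (α k ^ 2 + β k ^ 2)
        = -(((X - 2 * (σ * (w k * α k))) ^ 2 + (Y - 2 * (σ * (w k * β k))) ^ 2
            - 2 * (T - 2 * (σ * (w k * (m k - lin (α k) (β k) c)))))
          - (X ^ 2 + Y ^ 2 - 2 * T)) / 4 := by
      rw [hDdef]; ring
    rw [hσ2, hu k] at e
    linarith
  rcases (hw k).eq_or_lt with h0 | hpos
  · rw [← h0]; exact abs_nonneg _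
  · have : w k ≤ σ * D := le_of_mul_le_mul_left key hpos
    exact this.trans (sgn_mul_le_abs _ _)

/-- Every direction-width of `K` is at least `W`. -/
def WidthGE (K : Set (ℝ × ℝ)) (W : ℝ) : Prop :=
  ∀ α β : ℝ, α ^ 2 + β ^ 2 = 1 → ∃ p ∈ K, ∃ q ∈ K, W ≤ lin α β p - lin α β q

lemma clm_apply_coord (f : ℝ × ℝ →L[ℝ] ℝ) (p : ℝ × ℝ) :
    f p = p.1 * f (1, 0) + p.2 * f (0, 1) := by
  have : p = p.1 • ((1 : ℝ), (0 : ℝ)) + p.2 • ((0 : ℝ), (1 : ℝ)) := by
    ext <;> simp
  conv_lhs => rw [this]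
  rw [map_add, map_smul, map_smul]
  simp [smul_eq_mul]

/-- A compact convex set of minimal width at least `W > 0` has a chord of length `W` in
every direction. -/
theorem exists_chord {K : Set (ℝ × ℝ)} (hconv : Convex ℝ K) (hcomp : IsCompact K) {W : ℝ}
    (hW : 0 < W) (hWd : WidthGE K W) {α β : ℝ} (hu : α ^ 2 + β ^ 2 = 1) :
    ∃ q ∈ K, (q.1 + W * α, q.2 + W * β) ∈ K := by
  by_contra hno
  have hno' : ∀ q ∈ K, (q.1 + W * α, q.2 + W * β) ∉ K := fun q hq h => hno ⟨q, hq, h⟩
  set t : ℝ × ℝ := (W * α, W * β) with ht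
  have hconv₂ : Convex ℝ ((fun p : ℝ × ℝ => p + t) ⁻¹' K) := hconv.translate_preimage_left t
  have hclosed₂ : IsClosed ((fun p : ℝ × ℝ => p + t) ⁻¹' K) :=
    hcomp.isClosed.preimage (continuous_id.add continuous_const)
  have hdisj : Disjoint K ((fun p : ℝ × ℝ => p + t) ⁻¹' K) := by
    rw [Set.disjoint_left]
    intro p hp hp2
    exact hno' p hp hp2
  obtain ⟨f, u, v, hfu, huv, hfv⟩ :=
    geometric_hahn_banach_compact_closed hconv hcomp hconv₂ hclosed₂ hdisj
  set a := f (1, 0) with ha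
  set b := f (0, 1) with hb
  have hf : ∀ p : ℝ × ℝ, f p = p.1 * a + p.2 * b := clm_apply_coord f
  have hkk : ∀ k ∈ K, ∀ k' ∈ K, f k - f k' < -(W * (α * a + β * b)) := by
    intro k hk k' hk'
    have h1 := hfu k hk
    have hmem : k' - t ∈ (fun p : ℝ × ℝ => p + t) ⁻¹' K := by
      show k' - t + t ∈ K
      simpa using hk'
    have h2 := hfv (k' - t) hmem
    have : f (k' - t) = f k' - W * (α * a + β * b) := by
      rw [map_sub, hf t]; simp only [ht]; ring
    linarith
  obtain ⟨p0, hp0, -, -, -⟩ := hWd 1 0 (by norm_num)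
  have h6 : W * (α * a + β * b) < 0 := by
    have := hkk p0 hp0 p0 hp0
    linarith [sub_self (f p0)]
  have hneg : α * a + β * b < 0 := by
    by_contra h
    have := mul_nonneg hW.le (not_lt.mp h)
    linarith
  set r := Real.sqrt (a ^ 2 + b ^ 2) with hr
  have hCS : -(α * a + β * b) ≤ r := by
    have h1 : (α * a + β * b) ^ 2 ≤ a ^ 2 + b ^ 2 := by
      have : a ^ 2 + b ^ 2 - (α * a + β * b) ^ 2 = (α * b - β * a) ^ 2 := by
        linear_combination (-(a ^ 2 + b ^ 2)) * hu
      nlinarith [sq_nonneg (α * b - β * a)]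
    exact (neg_le_abs _).trans (Real.abs_le_sqrt h1)
  have hrpos : 0 < r := by linarith
  have hdir : (a / r) ^ 2 + (b / r) ^ 2 = 1 := by
    have hr2 : r ^ 2 = a ^ 2 + b ^ 2 := Real.sq_sqrt (by positivity)
    field_simp
    linarith
  obtain ⟨p, hp, q, hq, hpq⟩ := hWd (a / r) (b / r) hdir
  have h3 := hkk p hp q hq
  have h4 : lin (a / r) (b / r) p - lin (a / r) (b / r) q = (f p - f q) / r := by
    rw [hf p, hf q]; simp only [lin]; field_simp
  rw [h4, le_div_iff₀ hrpos] at hpq
  have h5 : -(W * (α * a + β * b)) ≤ W * r := by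
    have := mul_le_mul_of_nonneg_left hCS hW.le
    linarith
  linarith

/-- The set of points `p` with `p ± w (α, β) ∈ K`. -/
def shrink (K : Set (ℝ × ℝ)) (α β w : ℝ) : Set (ℝ × ℝ) :=
  {p | (p.1 + w * α, p.2 + w * β) ∈ K ∧ (p.1 - w * α, p.2 - w * β) ∈ K}

lemma shrink_convex {K : Set (ℝ × ℝ)} (hconv : Convex ℝ K) (α β w : ℝ) :
    Convex ℝ (shrink K α β w) := by
  intro x hx y hy a b ha hb hab
  constructor
  · have := hconv hx.1 hy.1 ha hb hab
    have e : ((a • x + b • y).1 + w * α, (a • x + b • y).2 + w * β)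
        = a • (x.1 + w * α, x.2 + w * β) + b • (y.1 + w * α, y.2 + w * β) :=
      Prod.ext
        (by simp only [Prod.fst_add, Prod.smul_fst, smul_eq_mul]
            linear_combination (-(w * α)) * hab)
        (by simp only [Prod.snd_add, Prod.smul_snd, smul_eq_mul]
            linear_combination (-(w * β)) * hab)
    rw [e]; exact this
  · have := hconv hx.2 hy.2 ha hb hab
    have e : ((a • x + b • y).1 - w * α, (a • x + b • y).2 - w * β)
        = a • (x.1 - w * α, x.2 - w * β) + b • (y.1 - w * α, y.2 - w * β) :=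
      Prod.ext
        (by simp only [Prod.fst_add, Prod.smul_fst, smul_eq_mul]
            linear_combination (w * α) * hab)
        (by simp only [Prod.snd_add, Prod.smul_snd, smul_eq_mul]
            linear_combination (w * β) * hab)
    rw [e]; exact this

lemma shrink_compact {K : Set (ℝ × ℝ)} (hcomp : IsCompact K) (α β w : ℝ) :
    IsCompact (shrink K α β w) := by
  have hcl : IsClosed (shrink K α β w) := by
    have h1 : IsClosed ((fun p : ℝ × ℝ => (p.1 + w * α, p.2 + w * β)) ⁻¹' K) :=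
      hcomp.isClosed.preimage (by fun_prop)
    have h2 : IsClosed ((fun p : ℝ × ℝ => (p.1 - w * α, p.2 - w * β)) ⁻¹' K) :=
      hcomp.isClosed.preimage (by fun_prop)
    exact h1.inter h2
  have hsub : shrink K α β w ⊆ (fun p : ℝ × ℝ => (p.1 - w * α, p.2 - w * β)) '' K := by
    intro p hp
    exact ⟨_, hp.1, by ext <;> simp⟩
  exact IsCompact.of_isClosed_subset (hcomp.image (by fun_prop)) hcl hsub

lemma shrink_widthGE {K : Set (ℝ × ℝ)} (hconv : Convex ℝ K) (hcomp : IsCompact K) {W : ℝ}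
    (hWd : WidthGE K W) {α β w : ℝ} (hu : α ^ 2 + β ^ 2 = 1) (hw : 0 ≤ w) (hlt : 2 * w < W) :
    WidthGE (shrink K α β w) (W - 2 * w) := by
  have hW : 0 < W := by linarith
  obtain ⟨q, hq, hqW⟩ := exists_chord hconv hcomp hW hWd hu
  intro α' β' hu'
  obtain ⟨p, hp, p', hp', hpp⟩ := hWd α' β' hu'
  set lam := 2 * w / W with hlam
  have hl0 : 0 ≤ lam := by positivity
  have hl1 : lam < 1 := by rw [hlam, div_lt_one hW]; exact hlt
  have hlw : lam * W = 2 * w := by rw [hlam]; field_simp
  have hφ : ∀ k ∈ K, ((1 - lam) * k.1 + lam * (q.1 + W / 2 * α),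
      (1 - lam) * k.2 + lam * (q.2 + W / 2 * β)) ∈ shrink K α β w := by
    intro k hk
    constructor
    · have := hconv hk hqW (by linarith : (0 : ℝ) ≤ 1 - lam) hl0 (by ring)
      have e : (((1 - lam) * k.1 + lam * (q.1 + W / 2 * α)) + w * α,
          ((1 - lam) * k.2 + lam * (q.2 + W / 2 * β)) + w * β)
          = (1 - lam) • k + lam • (q.1 + W * α, q.2 + W * β) :=
        Prod.ext
          (by simp only [Prod.fst_add, Prod.smul_fst, smul_eq_mul]
              linear_combination (-(α / 2)) * hlw)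
          (by simp only [Prod.snd_add, Prod.smul_snd, smul_eq_mul]
              linear_combination (-(β / 2)) * hlw)
      rw [e]; exact this
    · have := hconv hk hq (by linarith : (0 : ℝ) ≤ 1 - lam) hl0 (by ring)
      have e : (((1 - lam) * k.1 + lam * (q.1 + W / 2 * α)) - w * α,
          ((1 - lam) * k.2 + lam * (q.2 + W / 2 * β)) - w * β)
          = (1 - lam) • k + lam • q :=
        Prod.ext
          (by simp only [Prod.fst_add, Prod.smul_fst, smul_eq_mul]
              linear_combination (α / 2) * hlw)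
          (by simp only [Prod.snd_add, Prod.smul_snd, smul_eq_mul]
              linear_combination (β / 2) * hlw)
      rw [e]; exact this
  refine ⟨_, hφ p hp, _, hφ p' hp', ?_⟩
  have h2 := mul_le_mul_of_nonneg_left hpp (by linarith : (0 : ℝ) ≤ 1 - lam)
  simp only [lin] at h2 ⊢
  have e1 : (1 - lam) * W = W - 2 * w := by linear_combination (-1 : ℝ) * hlw
  have e2 : α' * ((1 - lam) * p.1 + lam * (q.1 + W / 2 * α))
      + β' * ((1 - lam) * p.2 + lam * (q.2 + W / 2 * β))
      - (α' * ((1 - lam) * p'.1 + lam * (q.1 + W / 2 * α))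
      + β' * ((1 - lam) * p'.2 + lam * (q.2 + W / 2 * β)))
      = (1 - lam) * (α' * p.1 + β' * p.2 - (α' * p'.1 + β' * p'.2)) := by ring
  rw [e2, ← e1]
  exact h2

/-- If the total width of the strips is less than the minimal width, some translate of the
set of signed sums lies in `K`. -/
theorem exists_center {ι : Type*} [DecidableEq ι] (s : Finset ι) (α β w : ι → ℝ)
    (hu : ∀ k, α k ^ 2 + β k ^ 2 = 1) (hw : ∀ k, 0 ≤ w k) :
    ∀ (K : Set (ℝ × ℝ)) (W : ℝ), Convex ℝ K → IsCompact K → WidthGE K W →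
      ∑ k ∈ s, 2 * w k < W → ∃ c : ℝ × ℝ, ∀ ε : ι → Bool, c + spt s α β w ε ∈ K := by
  induction s using Finset.induction_on with
  | empty =>
    intro K W hconv hcomp hWd hsum
    obtain ⟨p, hp, -, -, -⟩ := hWd 1 0 (by norm_num)
    refine ⟨p, fun ε => ?_⟩
    have e : p + spt (∅ : Finset ι) α β w ε = p := by ext <;> simp [spt]
    rw [e]; exact hp
  | insert a s ha ih =>
    intro K W hconv hcomp hWd hsum
    rw [Finset.sum_insert ha] at hsum
    have hlt : 2 * w a < W := by
      have : 0 ≤ ∑ k ∈ s, 2 * w k := Finset.sum_nonneg (fun k _ => by linarith [hw k])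
      linarith
    obtain ⟨c, hc⟩ := ih (shrink K (α a) (β a) (w a)) (W - 2 * w a) (shrink_convex hconv _ _ _)
      (shrink_compact hcomp _ _ _) (shrink_widthGE hconv hcomp hWd (hu a) (hw a) hlt)
      (by linarith)
    refine ⟨c, fun ε => ?_⟩
    have h := hc ε
    have e : spt (insert a s) α β w ε
        = spt s α β w ε + (sgn (ε a) * (w a * α a), sgn (ε a) * (w a * β a)) := by
      simp only [spt, Finset.sum_insert ha]
      ext <;> simp <;> ring
    rw [e]
    cases hεa : ε a
    · have h2 := h.2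
      have e2 : c + (spt s α β w ε + (sgn false * (w a * α a), sgn false * (w a * β a)))
          = ((c + spt s α β w ε).1 - w a * α a, (c + spt s α β w ε).2 - w a * β a) := by
        ext <;> simp [sgn] <;> ring
      rw [e2]; exact h2
    · have h1 := h.1
      have e1 : c + (spt s α β w ε + (sgn true * (w a * α a), sgn true * (w a * β a)))
          = ((c + spt s α β w ε).1 + w a * α a, (c + spt s α β w ε).2 + w a * β a) := by
        ext <;> simp [sgn] <;> ring
      rw [e1]; exact h1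

/-- Bang's plank theorem for finitely many closed strips in the plane. -/
theorem bang_finite {ι : Type*} [Fintype ι] [DecidableEq ι] {K : Set (ℝ × ℝ)}
    (hconv : Convex ℝ K) (hcomp : IsCompact K) {W : ℝ} (hWd : WidthGE K W)
    (α β m w : ι → ℝ) (hu : ∀ k, α k ^ 2 + β k ^ 2 = 1) (hw : ∀ k, 0 ≤ w k)
    (hsum : ∑ k, 2 * w k < W) :
    ∃ p ∈ K, ∀ k, w k < |lin (α k) (β k) p - m k| := by
  set N : ℝ := (Fintype.card ι : ℝ) with hN
  have hN0 : 0 ≤ N := Nat.cast_nonneg _
  set δ : ℝ := (W - ∑ k, 2 * w k) / (2 * (N + 1)) with hδ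
  have hδpos : 0 < δ := by rw [hδ]; apply div_pos <;> linarith
  have hsum' : ∑ k, 2 * (w k + δ) < W := by
    have e : ∑ k, 2 * (w k + δ) = ∑ k, 2 * w k + 2 * N * δ := by
      simp only [mul_add, Finset.sum_add_distrib, Finset.sum_const, Finset.card_univ,
        nsmul_eq_mul]
      ring
    rw [e]
    have e2 : 2 * N * δ = (W - ∑ k, 2 * w k) * (N / (N + 1)) := by rw [hδ]; field_simp
    rw [e2]
    have h1 : N / (N + 1) < 1 := by rw [div_lt_one (by linarith)]; linarith
    have := mul_lt_mul_of_pos_left h1 (by linarith : 0 < W - ∑ k, 2 * w k)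
    linarith
  obtain ⟨c, hc⟩ := exists_center Finset.univ α β (fun k => w k + δ) hu
    (fun k => by linarith [hw k]) K W hconv hcomp hWd hsum'
  obtain ⟨ε, hε⟩ := bang_lemma α β m (fun k => w k + δ) hu (fun k => by linarith [hw k]) c
  exact ⟨_, hc ε, fun k => by linarith [hε k]⟩

/-- Half-open grid cell of mesh `h`. -/
def cell (h : ℝ) (k : ℤ) : Set ℝ := Ico (k * h) ((k + 1) * h)

lemma cell_disjoint {h : ℝ} (hh : 0 < h) {k l : ℤ} (hkl : k ≠ l) :
    Disjoint (cell h k) (cell h l) := by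
  rw [Set.disjoint_left]
  intro t ht1 ht2
  apply hkl
  have h1 : (k : ℝ) * h < ((l : ℝ) + 1) * h := lt_of_le_of_lt ht1.1 ht2.2
  have h2 : (l : ℝ) * h < ((k : ℝ) + 1) * h := lt_of_le_of_lt ht2.1 ht1.2
  have h1' : (k : ℝ) < (l : ℝ) + 1 := lt_of_mul_lt_mul_right h1 hh.le
  have h2' : (l : ℝ) < (k : ℝ) + 1 := lt_of_mul_lt_mul_right h2 hh.le
  have h1'' : k < l + 1 := by exact_mod_cast h1'
  have h2'' : l < k + 1 := by exact_mod_cast h2'
  omega

lemma volume_cell {h : ℝ} (k : ℤ) : volume (cell h k) = ENNReal.ofReal h := by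
  unfold cell
  rw [Real.volume_Ico]
  congr 1
  ring

lemma abs_le_one_of_unit {α β : ℝ} (hu : α ^ 2 + β ^ 2 = 1) : |α| ≤ 1 ∧ |β| ≤ 1 :=
  ⟨(sq_le_one_iff_abs_le_one α).1 (by nlinarith [sq_nonneg β]),
    (sq_le_one_iff_abs_le_one β).1 (by nlinarith [sq_nonneg α])⟩

/-- Bang's plank theorem in the plane for strips with arbitrary cross-sections: if a compact
convex set `K` all of whose direction-widths are at least `W` is covered by the strips
`{p | lin (α i) (β i) p ∈ E i}`, then `W ≤ ∑ i, volume (E i)`. -/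
theorem bang_measurable {n : ℕ} {K : Set (ℝ × ℝ)} (hconv : Convex ℝ K) (hcomp : IsCompact K)
    {W : ℝ} (hWd : WidthGE K W) (α β : Fin n → ℝ) (hu : ∀ i, α i ^ 2 + β i ^ 2 = 1)
    (E : Fin n → Set ℝ) (hcov : ∀ p ∈ K, ∃ i, lin (α i) (β i) p ∈ E i) :
    ENNReal.ofReal W ≤ ∑ i, volume (E i) := by
  classical
  by_contra hlt
  rw [not_le] at hlt
  have hfin : ∀ i, volume (E i) ≠ ⊤ := by
    intro i htop
    have h1 : (⊤ : ℝ≥0∞) ≤ ∑ j, volume (E j) := by
      rw [← htop]
      exact Finset.single_le_sum (f := fun j => volume (E j)) (fun _ _ => bot_le)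
        (Finset.mem_univ i)
    exact absurd (lt_of_le_of_lt h1 hlt) (by simp)
  have hWpos : 0 < W := by
    by_contra h
    rw [ENNReal.ofReal_of_nonpos (not_lt.mp h)] at hlt
    exact absurd hlt (by simp)
  set V : Fin n → ℝ := fun i => (volume (E i)).toReal with hV
  have hVsum : ∑ i, V i < W := by
    have e : ∑ i, volume (E i) = ENNReal.ofReal (∑ i, V i) := by
      rw [ENNReal.ofReal_sum_of_nonneg (fun i _ => ENNReal.toReal_nonneg)]
      exact Finset.sum_congr rfl (fun i _ => (ENNReal.ofReal_toReal (hfin i)).symm)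
    rw [e] at hlt
    exact (ENNReal.ofReal_lt_ofReal_iff hWpos).1 hlt
  have hn0 : (0 : ℝ) ≤ n := Nat.cast_nonneg _
  set η : ℝ := (W - ∑ i, V i) / (2 * ((n : ℝ) + 1)) with hη
  have hηpos : 0 < η := by rw [hη]; apply div_pos <;> linarith
  have hU : ∀ i, ∃ U : Set ℝ, E i ⊆ U ∧ IsOpen U
      ∧ volume U < volume (E i) + ENNReal.ofReal η := fun i =>
    (E i).exists_isOpen_lt_add (hfin i) (ENNReal.ofReal_pos.2 hηpos).ne'
  choose U hEU hUo hUlt using hU
  have hUreal : ∀ i, (volume (U i)).toReal ≤ V i + η := by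
    intro i
    have h2 := ENNReal.toReal_mono (ENNReal.add_ne_top.2 ⟨hfin i, ENNReal.ofReal_ne_top⟩)
      (hUlt i).le
    rwa [ENNReal.toReal_add (hfin i) ENNReal.ofReal_ne_top,
      ENNReal.toReal_ofReal hηpos.le] at h2
  have hUfin : ∀ i, volume (U i) ≠ ⊤ := fun i => ((hUlt i).trans_le le_top).ne
  obtain ⟨δ, hδpos, hδ⟩ := lebesgue_number_lemma_of_metric hcomp
    (c := fun i => (fun p => lin (α i) (β i) p) ⁻¹' (U i))
    (fun i => (hUo i).preimage (by unfold lin; fun_prop))
    (fun p hp => by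
      obtain ⟨i, hi⟩ := hcov p hp
      exact mem_iUnion.2 ⟨i, hEU i hi⟩)
  obtain ⟨R, hR⟩ := hcomp.isBounded.subset_closedBall (0 : ℝ × ℝ)
  have hRb : ∀ p ∈ K, ∀ i, |lin (α i) (β i) p| ≤ 2 * R := by
    intro p hp i
    have hpR := hR hp
    rw [mem_closedBall_zero_iff, Prod.norm_def] at hpR
    have h1 : |p.1| ≤ R := (le_max_left _ _).trans hpR
    have h2 : |p.2| ≤ R := (le_max_right _ _).trans hpR
    have hR0 : 0 ≤ R := (abs_nonneg _).trans h1
    obtain ⟨ha, hb⟩ := abs_le_one_of_unit (hu i)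
    unfold lin
    calc |α i * p.1 + β i * p.2| ≤ |α i * p.1| + |β i * p.2| := abs_add_le _ _
      _ = |α i| * |p.1| + |β i| * |p.2| := by rw [abs_mul, abs_mul]
      _ ≤ 1 * R + 1 * R := by
          have i1 := mul_le_mul ha h1 (abs_nonneg _) zero_le_one
          have i2 := mul_le_mul hb h2 (abs_nonneg _) zero_le_one
          linarith
      _ = 2 * R := by ring
  set M : ℤ := ⌈2 * R / δ⌉ + 1 with hM
  set A : Fin n → Finset ℤ := fun i => (Finset.Icc (-M) M).filter (fun k => cell δ k ⊆ U i)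
    with hA
  have hAcard : ∀ i, ((A i).card : ℝ) * δ ≤ (volume (U i)).toReal := by
    intro i
    have hdisj : Set.PairwiseDisjoint (↑(A i)) (fun k : ℤ => cell δ k) := by
      intro k _ l _ hkl
      exact cell_disjoint hδpos hkl
    have hmeas : ∀ k ∈ A i, MeasurableSet (cell δ k) := fun k _ => measurableSet_Ico
    have h1 := measure_biUnion_finset (μ := volume) hdisj hmeas
    have hsub : (⋃ k ∈ A i, cell δ k) ⊆ U i := by
      intro t ht
      simp only [mem_iUnion] at ht
      obtain ⟨k, hk, htk⟩ := ht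
      exact (Finset.mem_filter.1 hk).2 htk
    have h2 := measure_mono (μ := volume) hsub
    rw [h1] at h2
    simp only [volume_cell, Finset.sum_const, nsmul_eq_mul] at h2
    have h3 := ENNReal.toReal_mono (hUfin i) h2
    rwa [ENNReal.toReal_mul, ENNReal.toReal_natCast, ENNReal.toReal_ofReal hδpos.le] at h3
  have hsum : ∑ x : (Σ i : Fin n, {k : ℤ // k ∈ A i}), 2 * (δ / 2) < W := by
    rw [Fintype.sum_sigma]
    have e : ∀ i : Fin n, ∑ y : {k : ℤ // k ∈ A i}, 2 * (δ / 2) = ((A i).card : ℝ) * δ := by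
      intro i
      simp only [Finset.sum_const, Finset.card_univ, Fintype.card_coe, nsmul_eq_mul]
      ring
    simp_rw [e]
    have h1 : ∑ i, ((A i).card : ℝ) * δ ≤ ∑ i, (V i + η) :=
      Finset.sum_le_sum (fun i _ => (hAcard i).trans (hUreal i))
    have h2 : ∑ i : Fin n, (V i + η) = ∑ i, V i + n * η := by
      simp [Finset.sum_add_distrib]
    have h3 : (n : ℝ) * η = (W - ∑ i, V i) * ((n : ℝ) / (2 * ((n : ℝ) + 1))) := by
      rw [hη]; field_simp
    have h4 : (n : ℝ) / (2 * ((n : ℝ) + 1)) < 1 := by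
      rw [div_lt_one (by linarith)]; linarith
    have h5 := mul_lt_mul_of_pos_left h4 (by linarith : 0 < W - ∑ i, V i)
    linarith
  obtain ⟨p, hpK, hp⟩ := bang_finite hconv hcomp hWd
    (fun x : (Σ i : Fin n, {k : ℤ // k ∈ A i}) => α x.1)
    (fun x => β x.1) (fun x => ((x.2 : ℤ) + 1 / 2) * δ) (fun _ => δ / 2)
    (fun x => hu x.1) (fun _ => by linarith) hsum
  obtain ⟨i, hi⟩ := hδ p hpK
  set t := lin (α i) (β i) p with ht
  set k : ℤ := ⌊t / δ⌋ with hk
  have hk1 : (k : ℝ) * δ ≤ t := by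
    have := Int.floor_le (t / δ)
    rwa [le_div_iff₀ hδpos] at this
  have hk2 : t < ((k : ℝ) + 1) * δ := by
    have := Int.lt_floor_add_one (t / δ)
    rwa [div_lt_iff₀ hδpos] at this
  have hcell : cell δ k ⊆ U i := by
    intro t' ht'
    obtain ⟨ha, hb⟩ := abs_le_one_of_unit (hu i)
    have hdist : |t' - t| < δ := by
      rw [abs_lt]
      constructor
      · have := ht'.1; linarith
      · have := ht'.2; linarith
    have hq : ((p.1 + (t' - t) * α i, p.2 + (t' - t) * β i) : ℝ × ℝ) ∈ Metric.ball p δ := by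
      rw [Metric.mem_ball, Prod.dist_eq, Real.dist_eq, Real.dist_eq]
      simp only [add_sub_cancel_left]
      rw [max_lt_iff, abs_mul, abs_mul]
      constructor
      · calc |t' - t| * |α i| ≤ |t' - t| * 1 := mul_le_mul_of_nonneg_left ha (abs_nonneg _)
          _ < δ := by linarith
      · calc |t' - t| * |β i| ≤ |t' - t| * 1 := mul_le_mul_of_nonneg_left hb (abs_nonneg _)
          _ < δ := by linarith
    have := hi hq
    simp only [mem_preimage, lin] at this
    have e : α i * (p.1 + (t' - t) * α i) + β i * (p.2 + (t' - t) * β i) = t' := by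
      have : α i * p.1 + β i * p.2 = t := rfl
      linear_combination (t' - t) * hu i + this
    rwa [e] at this
  have hkM : k ∈ Finset.Icc (-M) M := by
    have habs := hRb p hpK i
    rw [← ht, abs_le] at habs
    have hc := Int.le_ceil (2 * R / δ)
    have h2R : 2 * R / δ * δ = 2 * R := by field_simp
    rw [Finset.mem_Icc]
    constructor
    · have : (-(M : ℝ)) < (k : ℝ) := by
        have h1 : -(2 * R) < ((k : ℝ) + 1) * δ := by linarith
        have h3 : -(2 * R / δ) < (k : ℝ) + 1 := by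
          rw [← h2R] at h1
          have : -(2 * R / δ) * δ < ((k : ℝ) + 1) * δ := by linarith
          exact lt_of_mul_lt_mul_right this hδpos.le
        rw [hM]; push_cast; linarith
      have : -M < k := by exact_mod_cast this
      omega
    · have : (k : ℝ) < (M : ℝ) := by
        have h1 : (k : ℝ) * δ ≤ 2 * R := by linarith
        have h3 : (k : ℝ) ≤ 2 * R / δ := by rwa [le_div_iff₀ hδpos]
        rw [hM]; push_cast; linarith
      have : k < M := by exact_mod_cast this
      omega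
  have hkA : k ∈ A i := Finset.mem_filter.2 ⟨hkM, hcell⟩
  have hbad := hp ⟨i, ⟨k, hkA⟩⟩
  simp only at hbad
  rw [← ht] at hbad
  have : |t - ((k : ℝ) + 1 / 2) * δ| ≤ δ / 2 := by
    rw [abs_le]; constructor <;> linarith
  linarith

end Vale.Agent.Lib.P243
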