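import Mathlib

open MeasureTheory Set
open scoped ENNReal Pointwise

namespace Vale.Agent.Lib.P243

/-- chord from the left endpoint: lower bound before `s` -/
theorem chord_lower {g : ℝ → ℝ} {M : ℝ} (hc : ConcaveOn ℝ (Icc 0 M) g) (hg0 : g 0 = 1)
    {s t : ℝ} (hs0 : 0 < s) (hsM : s ≤ M) (ht0 : 0 ≤ t) (hts : t ≤ s) :
    1 - (1 - g s) * t / s ≤ g t := by
  have hM : 0 ≤ M := hs0.le.trans hsM
  have h0mem : (0 : ℝ) ∈ Icc 0 M := ⟨le_rfl, hM⟩
  have hsmem : s ∈ Icc 0 M := ⟨hs0.le, hsM⟩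
  have ha : 0 ≤ 1 - t / s := by rw [sub_nonneg, div_le_one hs0]; exact hts
  have hb : 0 ≤ t / s := div_nonneg ht0 hs0.le
  have h := hc.2 h0mem hsmem ha hb (by ring)
  have hpt : (1 - t / s) • (0 : ℝ) + (t / s) • s = t := by
    simp only [smul_eq_mul, mul_zero, zero_add]
    exact div_mul_cancel₀ t hs0.ne'
  rw [hpt, hg0] at h
  simp only [smul_eq_mul] at h
  have e : 1 - (1 - g s) * t / s = (1 - t / s) * 1 + t / s * g s := by field_simp; ring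
  rw [e]; exact h

/-- chord from the left endpoint: upper bound after `c` -/
theorem chord_upper {g : ℝ → ℝ} {M : ℝ} (hc : ConcaveOn ℝ (Icc 0 M) g) (hg0 : g 0 = 1)
    {c t : ℝ} (hc0 : 0 < c) (hct : c ≤ t) (htM : t ≤ M) :
    g t ≤ 1 - (1 - g c) * t / c := by
  have ht0 : 0 < t := hc0.trans_le hct
  have h0mem : (0 : ℝ) ∈ Icc 0 M := ⟨le_rfl, ht0.le.trans htM⟩
  have htmem : t ∈ Icc 0 M := ⟨ht0.le, htM⟩
  have ha : 0 ≤ 1 - c / t := by rw [sub_nonneg, div_le_one ht0]; exact hct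
  have hb : 0 ≤ c / t := div_nonneg hc0.le ht0.le
  have h := hc.2 h0mem htmem ha hb (by ring)
  have hpt : (1 - c / t) • (0 : ℝ) + (c / t) • t = c := by
    simp only [smul_eq_mul, mul_zero, zero_add]
    exact div_mul_cancel₀ c ht0.ne'
  rw [hpt, hg0] at h
  simp only [smul_eq_mul] at h
  have h2 : c / t * g t ≤ g c - 1 + c / t := by linarith
  have hpos : 0 < t / c := div_pos ht0 hc0
  have h3 := mul_le_mul_of_nonneg_right h2 hpos.le
  have e : c / t * g t * (t / c) = g t := by field_simp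
  have e2 : (g c - 1 + c / t) * (t / c) = 1 - (1 - g c) * t / c := by field_simp; ring
  rw [e, e2] at h3
  exact h3

theorem lintegral_lin_sq (σ : ℝ) {a b : ℝ} (hab : a ≤ b) :
    ∫⁻ t in Ioc a b, ENNReal.ofReal ((1 - σ * t) ^ 2)
      = ENNReal.ofReal ((b - a) - σ * (b ^ 2 - a ^ 2) + σ ^ 2 * (b ^ 3 - a ^ 3) / 3) := by
  have hcont : Continuous (fun t : ℝ => (1 - σ * t) ^ 2) := by fun_prop
  have hint : IntegrableOn (fun t : ℝ => (1 - σ * t) ^ 2) (Ioc a b) :=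
    (hcont.integrableOn_Icc).mono_set Ioc_subset_Icc_self
  have h1 := ofReal_integral_eq_lintegral_ofReal hint
    (Filter.Eventually.of_forall (fun t => sq_nonneg _))
  rw [← h1, ← intervalIntegral.integral_of_le hab]
  congr 1
  have hd : ∀ x ∈ Set.uIcc a b,
      HasDerivAt (fun t : ℝ => t - σ * t ^ 2 + σ ^ 2 * t ^ 3 / 3) ((1 - σ * x) ^ 2) x := by
    intro x _
    have h1 : HasDerivAt (fun t : ℝ => t) 1 x := hasDerivAt_id x
    have h2 : HasDerivAt (fun t : ℝ => t ^ 2) (2 * x) x := by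
      simpa using hasDerivAt_pow 2 x
    have h3 : HasDerivAt (fun t : ℝ => t ^ 3) (3 * x ^ 2) x := by
      simpa using hasDerivAt_pow 3 x
    have h4 : HasDerivAt (fun t : ℝ => t - σ * t ^ 2 + σ ^ 2 * t ^ 3 / 3)
        (1 - σ * (2 * x) + σ ^ 2 * (3 * x ^ 2) / 3) x :=
      (h1.sub (h2.const_mul σ)).add ((h3.const_mul (σ ^ 2)).div_const 3)
    exact h4.congr_deriv (by ring)
  rw [intervalIntegral.integral_eq_sub_of_hasDerivAt hd (hcont.intervalIntegrable _ _)]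
  ring

theorem phi_bounds {ρ : ℝ} (hρ0 : 0 ≤ ρ) (hρ1 : ρ ≤ 1) :
    0 ≤ 3 * ρ ^ 2 - 2 * ρ ^ 3 ∧ 3 * ρ ^ 2 - 2 * ρ ^ 3 ≤ 1 := by
  constructor
  · have h : 3 * ρ ^ 2 - 2 * ρ ^ 3 = ρ ^ 2 * (3 - 2 * ρ) := by ring
    rw [h]
    exact mul_nonneg (sq_nonneg ρ) (by linarith)
  · have h : 1 - (3 * ρ ^ 2 - 2 * ρ ^ 3) = (1 - ρ) ^ 2 * (1 + 2 * ρ) := by ring
    have h2 : 0 ≤ (1 - ρ) ^ 2 * (1 + 2 * ρ) := mul_nonneg (sq_nonneg _) (by linarith)
    linarith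

theorem conc_profile_cross {g : ℝ → ℝ} {M ρ c : ℝ} (hc : ConcaveOn ℝ (Icc 0 M) g)
    (h0 : ∀ t ∈ Icc 0 M, 0 ≤ g t) (hg0 : g 0 = 1) (hρ0 : 0 < ρ) (hρ1 : ρ < 1)
    (hc0 : 0 < c) (hcM : c ≤ M) (hgc : g c = ρ) :
    ∫⁻ t in Icc 0 M, ENNReal.ofReal (min (ρ ^ 2) ((g t) ^ 2))
      ≤ ENNReal.ofReal (3 * ρ ^ 2 - 2 * ρ ^ 3)
        * ∫⁻ t in Icc 0 M, ENNReal.ofReal ((g t) ^ 2) := by
  have h1ρ : 0 < 1 - ρ := sub_pos.2 hρ1
  set σ : ℝ := (1 - ρ) / c with hσ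
  have hσpos : 0 < σ := div_pos h1ρ hc0
  have hσc : σ * c = 1 - ρ := by rw [hσ]; field_simp
  have hlow : ∀ t ∈ Icc 0 c, 1 - σ * t ≤ g t := by
    intro t ht
    have h := chord_lower hc hg0 hc0 hcM ht.1 ht.2
    rw [hgc] at h
    have e : 1 - (1 - ρ) * t / c = 1 - σ * t := by rw [hσ]; ring
    rw [e] at h; exact h
  have hlow0 : ∀ t ∈ Icc 0 c, 0 ≤ 1 - σ * t := by
    intro t ht
    have h : σ * t ≤ σ * c := mul_le_mul_of_nonneg_left ht.2 hσpos.le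
    linarith
  have hupp : ∀ t ∈ Ioc c M, g t ≤ 1 - σ * t := by
    intro t ht
    have h := chord_upper hc hg0 hc0 ht.1.le ht.2
    rw [hgc] at h
    have e : 1 - (1 - ρ) * t / c = 1 - σ * t := by rw [hσ]; ring
    rw [e] at h; exact h
  have hg_nonneg : ∀ t ∈ Ioc c M, 0 ≤ g t := fun t ht => h0 t ⟨hc0.le.trans ht.1.le, ht.2⟩
  have hMσ : σ * M ≤ 1 := by
    by_cases hcM' : c = M
    · rw [← hcM']; linarith
    · have hlt : c < M := lt_of_le_of_ne hcM hcM'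
      have h1 := hupp M ⟨hlt, le_rfl⟩
      have h2 := h0 M ⟨hc0.le.trans hcM, le_rfl⟩
      linarith
  have hsplit : Icc (0 : ℝ) M = Icc 0 c ∪ Ioc c M := (Icc_union_Ioc_eq_Icc hc0.le hcM).symm
  have hdisj : Disjoint (Icc (0 : ℝ) c) (Ioc c M) := by
    rw [Set.disjoint_left]; intro x hx hx'; exact absurd hx.2 (not_le.2 hx'.1)
  rw [hsplit, lintegral_union measurableSet_Ioc hdisj, lintegral_union measurableSet_Ioc hdisj]
  have ha : ∫⁻ t in Icc 0 c, ENNReal.ofReal (min (ρ ^ 2) ((g t) ^ 2))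
      ≤ ENNReal.ofReal (ρ ^ 2 * c) := by
    calc ∫⁻ t in Icc 0 c, ENNReal.ofReal (min (ρ ^ 2) ((g t) ^ 2))
        ≤ ∫⁻ _t in Icc 0 c, ENNReal.ofReal (ρ ^ 2) :=
          lintegral_mono (fun t => ENNReal.ofReal_le_ofReal (min_le_left _ _))
      _ = ENNReal.ofReal (ρ ^ 2 * c) := by
          rw [lintegral_const, Measure.restrict_apply MeasurableSet.univ, univ_inter,
            Real.volume_Icc, sub_zero, ← ENNReal.ofReal_mul (sq_nonneg ρ)]
  have hb : ∫⁻ t in Ioc c M, ENNReal.ofReal (min (ρ ^ 2) ((g t) ^ 2))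
      ≤ ∫⁻ t in Ioc c M, ENNReal.ofReal ((g t) ^ 2) :=
    lintegral_mono (fun t => ENNReal.ofReal_le_ofReal (min_le_right _ _))
  set Tmax : ℝ := c * ρ ^ 3 / (3 * (1 - ρ)) with hT
  have hT0 : 0 ≤ Tmax := by
    rw [hT]
    exact div_nonneg (mul_nonneg hc0.le (pow_nonneg hρ0.le 3)) (by linarith)
  have hcM' : c ≤ c / (1 - ρ) := by
    rw [le_div_iff₀ h1ρ]; nlinarith
  have hM' : M ≤ c / (1 - ρ) := by
    rw [le_div_iff₀ h1ρ]
    have h : σ * M * c ≤ 1 * c := mul_le_mul_of_nonneg_right hMσ hc0.le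
    have e : σ * M * c = M * (1 - ρ) := by rw [hσ]; field_simp
    linarith
  have hc' : ∫⁻ t in Ioc c M, ENNReal.ofReal ((g t) ^ 2) ≤ ENNReal.ofReal Tmax := by
    calc ∫⁻ t in Ioc c M, ENNReal.ofReal ((g t) ^ 2)
        ≤ ∫⁻ t in Ioc c M, ENNReal.ofReal ((1 - σ * t) ^ 2) := by
          apply setLIntegral_mono' measurableSet_Ioc
          intro t ht
          apply ENNReal.ofReal_le_ofReal
          exact pow_le_pow_left₀ (hg_nonneg t ht) (hupp t ht) 2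
      _ ≤ ∫⁻ t in Ioc c (c / (1 - ρ)), ENNReal.ofReal ((1 - σ * t) ^ 2) :=
          lintegral_mono_set (Ioc_subset_Ioc_right hM')
      _ = ENNReal.ofReal Tmax := by
          rw [lintegral_lin_sq σ hcM']
          congr 1
          rw [hσ, hT]
          have h1 : (1 - ρ) ≠ 0 := h1ρ.ne'
          have h2 : c ≠ 0 := hc0.ne'
          field_simp
          ring
  set H : ℝ := c * (1 + ρ + ρ ^ 2) / 3 with hH
  have hH0 : 0 ≤ H := by rw [hH]; positivity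
  have hd : ENNReal.ofReal H ≤ ∫⁻ t in Icc 0 c, ENNReal.ofReal ((g t) ^ 2) := by
    calc ENNReal.ofReal H = ∫⁻ t in Ioc 0 c, ENNReal.ofReal ((1 - σ * t) ^ 2) := by
          rw [lintegral_lin_sq σ hc0.le]
          congr 1
          rw [hσ, hH]
          have h2 : c ≠ 0 := hc0.ne'
          field_simp
          ring
      _ = ∫⁻ t in Icc 0 c, ENNReal.ofReal ((1 - σ * t) ^ 2) :=
          setLIntegral_congr Ioc_ae_eq_Icc
      _ ≤ ∫⁻ t in Icc 0 c, ENNReal.ofReal ((g t) ^ 2) := by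
          apply setLIntegral_mono' measurableSet_Icc
          intro t ht
          apply ENNReal.ofReal_le_ofReal
          exact pow_le_pow_left₀ (hlow0 t ht) (hlow t ht) 2
  obtain ⟨hφ0, hφ1⟩ := phi_bounds hρ0.le hρ1.le
  set φ : ℝ := 3 * ρ ^ 2 - 2 * ρ ^ 3 with hφ
  set G₂ := ∫⁻ t in Ioc c M, ENNReal.ofReal ((g t) ^ 2) with hG₂
  have hG₂fin : G₂ ≠ ⊤ := ne_top_of_le_ne_top ENNReal.ofReal_ne_top hc'
  set x : ℝ := G₂.toReal with hx
  have hx0 : 0 ≤ x := ENNReal.toReal_nonneg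
  have hG₂x : G₂ = ENNReal.ofReal x := (ENNReal.ofReal_toReal hG₂fin).symm
  have hxT : x ≤ Tmax := ENNReal.toReal_le_of_le_ofReal hT0 hc'
  have hid : (1 - φ) * Tmax = φ * H - ρ ^ 2 * c := by
    rw [hφ, hT, hH]
    have h1 : (1 - ρ) ≠ 0 := h1ρ.ne'
    field_simp
    ring
  have hreal : ρ ^ 2 * c + x ≤ φ * (H + x) := by
    have h := mul_le_mul_of_nonneg_left hxT (sub_nonneg.2 hφ1)
    nlinarith
  have hρc : 0 ≤ ρ ^ 2 * c := mul_nonneg (sq_nonneg ρ) hc0.le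
  calc (∫⁻ t in Icc 0 c, ENNReal.ofReal (min (ρ ^ 2) ((g t) ^ 2)))
        + (∫⁻ t in Ioc c M, ENNReal.ofReal (min (ρ ^ 2) ((g t) ^ 2)))
      ≤ ENNReal.ofReal (ρ ^ 2 * c) + ENNReal.ofReal x :=
        add_le_add ha (hb.trans hG₂x.le)
    _ = ENNReal.ofReal (ρ ^ 2 * c + x) := (ENNReal.ofReal_add hρc hx0).symm
    _ ≤ ENNReal.ofReal (φ * (H + x)) := ENNReal.ofReal_le_ofReal hreal
    _ = ENNReal.ofReal φ * (ENNReal.ofReal H + ENNReal.ofReal x) := by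
        rw [ENNReal.ofReal_mul hφ0, ENNReal.ofReal_add hH0 hx0]
    _ ≤ ENNReal.ofReal φ * ((∫⁻ t in Icc 0 c, ENNReal.ofReal ((g t) ^ 2)) + G₂) :=
        mul_le_mul' le_rfl (add_le_add hd hG₂x.ge)

theorem conc_profile_above {g : ℝ → ℝ} {M ρ : ℝ} (hc : ConcaveOn ℝ (Icc 0 M) g)
    (hg0 : g 0 = 1) (hρ0 : 0 < ρ) (hρ1 : ρ < 1)
    (habove : ∀ t ∈ Ioo 0 M, ρ ≤ g t) :
    ∫⁻ t in Icc 0 M, ENNReal.ofReal (min (ρ ^ 2) ((g t) ^ 2))
      ≤ ENNReal.ofReal (3 * ρ ^ 2 - 2 * ρ ^ 3)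
        * ∫⁻ t in Icc 0 M, ENNReal.ofReal ((g t) ^ 2) := by
  have h1ρ : 0 < 1 - ρ := sub_pos.2 hρ1
  obtain ⟨hφ0, hφ1⟩ := phi_bounds hρ0.le hρ1.le
  set φ : ℝ := 3 * ρ ^ 2 - 2 * ρ ^ 3 with hφ
  set G := ∫⁻ t in Icc 0 M, ENNReal.ofReal ((g t) ^ 2) with hG
  have hL : ∫⁻ t in Icc 0 M, ENNReal.ofReal (min (ρ ^ 2) ((g t) ^ 2))
      ≤ ENNReal.ofReal (ρ ^ 2 * M) := by
    calc ∫⁻ t in Icc 0 M, ENNReal.ofReal (min (ρ ^ 2) ((g t) ^ 2))
        ≤ ∫⁻ _t in Icc 0 M, ENNReal.ofReal (ρ ^ 2) :=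
          lintegral_mono (fun t => ENNReal.ofReal_le_ofReal (min_le_left _ _))
      _ = ENNReal.ofReal (ρ ^ 2 * M) := by
          rw [lintegral_const, Measure.restrict_apply MeasurableSet.univ, univ_inter,
            Real.volume_Icc, sub_zero, ← ENNReal.ofReal_mul (sq_nonneg ρ)]
  have hkey : ∀ s ∈ Ioo 0 M, ENNReal.ofReal (ρ ^ 2 * s) ≤ ENNReal.ofReal φ * G := by
    intro s hs
    set σ : ℝ := (1 - ρ) / s with hσ
    have hσpos : 0 < σ := div_pos h1ρ hs.1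
    have hσs : σ * s = 1 - ρ := by
      rw [hσ]
      have h2 : s ≠ 0 := hs.1.ne'
      field_simp
    have hlow : ∀ t ∈ Icc 0 s, 1 - σ * t ≤ g t := by
      intro t ht
      have h1 := chord_lower hc hg0 hs.1 hs.2.le ht.1 ht.2
      have h2 := habove s hs
      have h3 : (1 - g s) * t / s ≤ (1 - ρ) * t / s := by
        apply div_le_div_of_nonneg_right _ hs.1.le
        apply mul_le_mul_of_nonneg_right _ ht.1
        linarith
      have e : 1 - σ * t = 1 - (1 - ρ) * t / s := by rw [hσ]; ring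
      rw [e]; linarith
    have hlow0 : ∀ t ∈ Icc 0 s, 0 ≤ 1 - σ * t := by
      intro t ht
      have h : σ * t ≤ σ * s := mul_le_mul_of_nonneg_left ht.2 hσpos.le
      linarith
    set H : ℝ := s * (1 + ρ + ρ ^ 2) / 3 with hH
    have hd : ENNReal.ofReal H ≤ G := by
      calc ENNReal.ofReal H = ∫⁻ t in Ioc 0 s, ENNReal.ofReal ((1 - σ * t) ^ 2) := by
            rw [lintegral_lin_sq σ hs.1.le]
            congr 1
            rw [hσ, hH]
            have h2 : s ≠ 0 := hs.1.ne'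
            field_simp
            ring
        _ = ∫⁻ t in Icc 0 s, ENNReal.ofReal ((1 - σ * t) ^ 2) :=
            setLIntegral_congr Ioc_ae_eq_Icc
        _ ≤ ∫⁻ t in Icc 0 s, ENNReal.ofReal ((g t) ^ 2) := by
            apply setLIntegral_mono' measurableSet_Icc
            intro t ht
            apply ENNReal.ofReal_le_ofReal
            exact pow_le_pow_left₀ (hlow0 t ht) (hlow t ht) 2
        _ ≤ G := lintegral_mono_set (Icc_subset_Icc_right hs.2.le)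
    have hreal : ρ ^ 2 * s ≤ φ * H := by
      rw [hφ, hH]
      have e : (3 * ρ ^ 2 - 2 * ρ ^ 3) * (s * (1 + ρ + ρ ^ 2) / 3) - ρ ^ 2 * s
          = s * ρ ^ 3 * (1 - ρ) * (1 + 2 * ρ) / 3 := by ring
      have hpos : 0 ≤ s * ρ ^ 3 * (1 - ρ) * (1 + 2 * ρ) / 3 := by
        apply div_nonneg _ (by norm_num)
        exact mul_nonneg (mul_nonneg (mul_nonneg hs.1.le (pow_nonneg hρ0.le 3)) h1ρ.le)
          (by linarith)
      linarith
    calc ENNReal.ofReal (ρ ^ 2 * s) ≤ ENNReal.ofReal (φ * H) := ENNReal.ofReal_le_ofReal hreal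
      _ = ENNReal.ofReal φ * ENNReal.ofReal H := ENNReal.ofReal_mul hφ0
      _ ≤ ENNReal.ofReal φ * G := mul_le_mul' le_rfl hd
  refine hL.trans ?_
  by_cases htop : ENNReal.ofReal φ * G = ⊤
  · rw [htop]; exact le_top
  rw [ENNReal.ofReal_le_iff_le_toReal htop]
  by_contra hlt
  rw [not_le] at hlt
  set X : ℝ := (ENNReal.ofReal φ * G).toReal with hX
  have hX0 : 0 ≤ X := ENNReal.toReal_nonneg
  have hρ2 : 0 < ρ ^ 2 := by positivity
  have hXM : X / ρ ^ 2 < M := by rw [div_lt_iff₀ hρ2]; linarith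
  have hXpos : 0 ≤ X / ρ ^ 2 := div_nonneg hX0 hρ2.le
  have hs0 : 0 < (X / ρ ^ 2 + M) / 2 := by linarith
  have hsM : (X / ρ ^ 2 + M) / 2 < M := by linarith
  have h1 := hkey ((X / ρ ^ 2 + M) / 2) ⟨hs0, hsM⟩
  rw [ENNReal.ofReal_le_iff_le_toReal htop] at h1
  have h2 : X / ρ ^ 2 < (X / ρ ^ 2 + M) / 2 := by linarith
  rw [div_lt_iff₀ hρ2] at h2
  linarith

/-- Concentration inequality for concave profiles: if `g` is concave and nonnegative on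
`[0, M]` with `g 0 = 1` and `0 ≤ ρ ≤ 1`, then
`∫ min(ρ², g²) ≤ (3ρ² - 2ρ³) ∫ g²` over `[0, M]`. -/
theorem conc_profile {g : ℝ → ℝ} {M ρ : ℝ} (hM : 0 < M) (hc : ConcaveOn ℝ (Icc 0 M) g)
    (h0 : ∀ t ∈ Icc 0 M, 0 ≤ g t) (hg0 : g 0 = 1) (hρ0 : 0 ≤ ρ) (hρ1 : ρ ≤ 1) :
    ∫⁻ t in Icc 0 M, ENNReal.ofReal (min (ρ ^ 2) ((g t) ^ 2))
      ≤ ENNReal.ofReal (3 * ρ ^ 2 - 2 * ρ ^ 3)
        * ∫⁻ t in Icc 0 M, ENNReal.ofReal ((g t) ^ 2) := by
  rcases eq_or_lt_of_le hρ0 with hρ | hρpos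
  · have hz : ∀ t, ENNReal.ofReal (min (ρ ^ 2) ((g t) ^ 2)) = 0 := by
      intro t
      have hm : min (ρ ^ 2) ((g t) ^ 2) = 0 := by
        rw [← hρ]
        have h2 : (0 : ℝ) ^ 2 = 0 := by norm_num
        rw [h2]
        exact min_eq_left (sq_nonneg _)
      rw [hm, ENNReal.ofReal_zero]
    simp only [hz, lintegral_zero]
    exact bot_le
  rcases eq_or_lt_of_le hρ1 with hρ | hρlt
  · rw [hρ]
    have e : (3 * (1 : ℝ) ^ 2 - 2 * 1 ^ 3) = 1 := by norm_num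
    rw [e, ENNReal.ofReal_one, one_mul]
    exact lintegral_mono (fun t => ENNReal.ofReal_le_ofReal (min_le_right _ _))
  by_cases hex : ∃ t₁ ∈ Ioo 0 M, g t₁ < ρ
  · obtain ⟨t₁, ht₁, hgt₁⟩ := hex
    have hMρ : 0 < M * (1 - ρ) := mul_pos hM (sub_pos.2 hρlt)
    have hmin_pos : 0 < min t₁ (M * (1 - ρ)) := lt_min ht₁.1 hMρ
    have hmin1 : min t₁ (M * (1 - ρ)) ≤ t₁ := min_le_left _ _
    have hmin2 : min t₁ (M * (1 - ρ)) ≤ M * (1 - ρ) := min_le_right _ _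
    set t₀ : ℝ := min t₁ (M * (1 - ρ)) / 2 with ht₀
    have ht₀pos : 0 < t₀ := by rw [ht₀]; linarith
    have ht₀lt : t₀ < t₁ := by rw [ht₀]; linarith
    have ht₀lt' : t₀ < M * (1 - ρ) := by rw [ht₀]; linarith
    have hgt₀ : ρ < g t₀ := by
      have h1 := chord_lower hc hg0 hM le_rfl ht₀pos.le (ht₀lt.le.trans ht₁.2.le)
      have h2 := h0 M ⟨hM.le, le_rfl⟩
      have h3 : (1 - g M) * t₀ / M ≤ t₀ / M := by
        apply div_le_div_of_nonneg_right _ hM.le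
        nlinarith
      have h4 : t₀ / M < 1 - ρ := by rw [div_lt_iff₀ hM]; linarith
      linarith
    have hcont : ContinuousOn g (Icc t₀ t₁) := by
      have h := hc.continuousOn_interior
      rw [interior_Icc] at h
      exact h.mono (fun x hx => ⟨ht₀pos.trans_le hx.1, hx.2.trans_lt ht₁.2⟩)
    have hivt := intermediate_value_Icc' ht₀lt.le hcont
    obtain ⟨c, hcmem, hgc⟩ := hivt ⟨hgt₁.le, hgt₀.le⟩
    exact conc_profile_cross hc h0 hg0 hρpos hρlt (ht₀pos.trans_le hcmem.1)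
      (hcmem.2.trans ht₁.2.le) hgc
  · have habove : ∀ t ∈ Ioo 0 M, ρ ≤ g t := by
      intro t ht
      by_contra hlt
      exact hex ⟨t, ht, not_le.1 hlt⟩
    exact conc_profile_above hc hg0 hρpos hρlt habove

end Vale.Agent.Lib.P243
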