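import Mathlib
import Vale.Agent.Lib.P243.Profile
import Vale.Agent.Lib.P243.PlanarBM

open MeasureTheory Set
open scoped ENNReal Pointwise

namespace Vale.Agent.Lib.P243.Cyl


/-- chord length of `K` over the point `y`: length of the fibre of `K` in the last coordinate -/
noncomputable def chord (K : Set ((ℝ × ℝ) × ℝ)) (y : ℝ × ℝ) : ℝ :=
  (volume (Prod.mk y ⁻¹' K)).toReal

/-- the points `y` over which `K` contains a chord of length at least `t` -/
def lev (K : Set ((ℝ × ℝ) × ℝ)) (t : ℝ) : Set (ℝ × ℝ) :=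
  {y | ∃ h₁ h₂ : ℝ, (y, h₁) ∈ K ∧ (y, h₂) ∈ K ∧ t ≤ h₂ - h₁}


variable {K : Set ((ℝ × ℝ) × ℝ)}

theorem fibre_compact (hKc : IsCompact K) (y : ℝ × ℝ) : IsCompact (Prod.mk y ⁻¹' K) := by
  refine IsCompact.of_isClosed_subset (hKc.image continuous_snd) ?_ ?_
  · exact hKc.isClosed.preimage (by fun_prop)
  · intro h hh
    exact ⟨(y, h), hh, rfl⟩

theorem fibre_convex (hK : Convex ℝ K) (y : ℝ × ℝ) : Convex ℝ (Prod.mk y ⁻¹' K) := by
  intro h₁ hh₁ h₂ hh₂ a b ha hb hab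
  have h := hK hh₁ hh₂ ha hb hab
  have e : a • ((y, h₁) : (ℝ × ℝ) × ℝ) + b • ((y, h₂) : (ℝ × ℝ) × ℝ) = (y, a • h₁ + b • h₂) :=
    Prod.ext (Convex.combo_self hab y) rfl
  rw [e] at h
  exact h

theorem chord_nonneg (K : Set ((ℝ × ℝ) × ℝ)) (y : ℝ × ℝ) : 0 ≤ chord K y := ENNReal.toReal_nonneg

theorem chord_ge_of_mem (hK : Convex ℝ K) (hKc : IsCompact K) {y : ℝ × ℝ} {h₁ h₂ : ℝ}
    (m₁ : (y, h₁) ∈ K) (m₂ : (y, h₂) ∈ K) : h₂ - h₁ ≤ chord K y := by
  by_cases hle : h₁ ≤ h₂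
  · have hsub : Icc h₁ h₂ ⊆ Prod.mk y ⁻¹' K := (fibre_convex hK y).ordConnected.out m₁ m₂
    have hfin : volume (Prod.mk y ⁻¹' K) ≠ ⊤ := (fibre_compact hKc y).measure_lt_top.ne
    have h := ENNReal.toReal_mono hfin (measure_mono (μ := volume) hsub)
    rw [Real.volume_Icc, ENNReal.toReal_ofReal (sub_nonneg.mpr hle)] at h
    exact h
  · have h : h₂ - h₁ ≤ 0 := by linarith
    exact h.trans (chord_nonneg K y)

theorem exists_chord_ends (hK : Convex ℝ K) (hKc : IsCompact K) {y : ℝ × ℝ}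
    (hne : (Prod.mk y ⁻¹' K).Nonempty) :
    ∃ h₁ h₂ : ℝ, (y, h₁) ∈ K ∧ (y, h₂) ∈ K ∧ chord K y = h₂ - h₁ := by
  have hc := fibre_compact hKc y
  have hconn : IsConnected (Prod.mk y ⁻¹' K) := ⟨hne, (fibre_convex hK y).isPreconnected⟩
  have hEq := eq_Icc_of_connected_compact hconn hc
  have hle : sInf (Prod.mk y ⁻¹' K) ≤ sSup (Prod.mk y ⁻¹' K) :=
    Real.sInf_le_sSup _ hc.bddBelow hc.bddAbove
  refine ⟨sInf (Prod.mk y ⁻¹' K), sSup (Prod.mk y ⁻¹' K), hc.sInf_mem hne, hc.sSup_mem hne, ?_⟩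
  have hv : volume (Prod.mk y ⁻¹' K)
      = ENNReal.ofReal (sSup (Prod.mk y ⁻¹' K) - sInf (Prod.mk y ⁻¹' K)) := by
    conv_lhs => rw [hEq]
    exact Real.volume_Icc
  rw [chord, hv, ENNReal.toReal_ofReal (sub_nonneg.mpr hle)]

theorem mem_lev_iff_of_pos (hK : Convex ℝ K) (hKc : IsCompact K) {t : ℝ} (ht : 0 < t)
    (y : ℝ × ℝ) : y ∈ lev K t ↔ t ≤ chord K y := by
  constructor
  · rintro ⟨h₁, h₂, m₁, m₂, hle⟩
    exact hle.trans (chord_ge_of_mem hK hKc m₁ m₂)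
  · intro hle
    have hne : (Prod.mk y ⁻¹' K).Nonempty := by
      by_contra hcon
      rw [not_nonempty_iff_eq_empty] at hcon
      have h0 : chord K y = 0 := by simp [chord, hcon]
      linarith
    obtain ⟨h₁, h₂, m₁, m₂, he⟩ := exists_chord_ends hK hKc hne
    exact ⟨h₁, h₂, m₁, m₂, he ▸ hle⟩

theorem lev_zero (K : Set ((ℝ × ℝ) × ℝ)) : lev K 0 = Prod.fst '' K := by
  ext y
  constructor
  · rintro ⟨h₁, h₂, m₁, -, -⟩
    exact ⟨(y, h₁), m₁, rfl⟩
  · rintro ⟨⟨y', h⟩, m, rfl⟩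
    exact ⟨h, h, m, m, by simp⟩

theorem lev_anti (K : Set ((ℝ × ℝ) × ℝ)) {s t : ℝ} (hst : s ≤ t) : lev K t ⊆ lev K s := by
  rintro y ⟨h₁, h₂, m₁, m₂, hle⟩
  exact ⟨h₁, h₂, m₁, m₂, hst.trans hle⟩

theorem lev_subset_shadow (K : Set ((ℝ × ℝ) × ℝ)) (t : ℝ) : lev K t ⊆ Prod.fst '' K := by
  rintro y ⟨h₁, h₂, m₁, -, -⟩
  exact ⟨(y, h₁), m₁, rfl⟩

theorem lev_convex (hK : Convex ℝ K) (t : ℝ) : Convex ℝ (lev K t) := by
  rintro y ⟨h₁, h₂, m₁, m₂, hle⟩ y' ⟨h₁', h₂', m₁', m₂', hle'⟩ a b ha hb hab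
  refine ⟨a * h₁ + b * h₁', a * h₂ + b * h₂', ?_, ?_, ?_⟩
  · have h := hK m₁ m₁' ha hb hab
    simpa using h
  · have h := hK m₂ m₂' ha hb hab
    simpa using h
  · have e : t = a * t + b * t := by rw [← add_mul, hab, one_mul]
    nlinarith [mul_le_mul_of_nonneg_left hle ha, mul_le_mul_of_nonneg_left hle' hb]

theorem lev_combo (hK : Convex ℝ K) {a b : ℝ} (ha : 0 ≤ a) (hb : 0 ≤ b) (hab : a + b = 1)
    (s t : ℝ) : a • lev K s + b • lev K t ⊆ lev K (a * s + b * t) := by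
  rintro _ ⟨_, ⟨y, ⟨h₁, h₂, m₁, m₂, hle⟩, rfl⟩, _, ⟨y', ⟨h₁', h₂', m₁', m₂', hle'⟩, rfl⟩, rfl⟩
  refine ⟨a * h₁ + b * h₁', a * h₂ + b * h₂', ?_, ?_, ?_⟩
  · have h := hK m₁ m₁' ha hb hab
    simpa using h
  · have h := hK m₂ m₂' ha hb hab
    simpa using h
  · nlinarith [mul_le_mul_of_nonneg_left hle ha, mul_le_mul_of_nonneg_left hle' hb]

theorem lev_compact (hKc : IsCompact K) (t : ℝ) : IsCompact (lev K t) := by
  have hQ : IsCompact {q : ((ℝ × ℝ) × ℝ) × ℝ | q.1 ∈ K ∧ (q.1.1, q.2) ∈ K ∧ t ≤ q.2 - q.1.2} := by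
    refine IsCompact.of_isClosed_subset (hKc.prod (hKc.image continuous_snd)) ?_ ?_
    · have c1 : IsClosed {q : ((ℝ × ℝ) × ℝ) × ℝ | q.1 ∈ K} :=
        hKc.isClosed.preimage continuous_fst
      have c2 : IsClosed {q : ((ℝ × ℝ) × ℝ) × ℝ | (q.1.1, q.2) ∈ K} :=
        hKc.isClosed.preimage (by fun_prop)
      have c3 : IsClosed {q : ((ℝ × ℝ) × ℝ) × ℝ | t ≤ q.2 - q.1.2} :=
        isClosed_le continuous_const (by fun_prop)
      exact c1.inter (c2.inter c3)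
    · rintro q ⟨h1, h2, -⟩
      exact ⟨h1, (q.1.1, q.2), h2, rfl⟩
  have hEq : lev K t = (fun q : ((ℝ × ℝ) × ℝ) × ℝ => q.1.1) ''
      {q : ((ℝ × ℝ) × ℝ) × ℝ | q.1 ∈ K ∧ (q.1.1, q.2) ∈ K ∧ t ≤ q.2 - q.1.2} := by
    ext y
    constructor
    · rintro ⟨h₁, h₂, m₁, m₂, hle⟩
      exact ⟨((y, h₁), h₂), ⟨m₁, m₂, hle⟩, rfl⟩
    · rintro ⟨⟨⟨y', h₁⟩, h₂⟩, ⟨m₁, m₂, hle⟩, rfl⟩
      exact ⟨h₁, h₂, m₁, m₂, hle⟩
  rw [hEq]
  exact hQ.image (by fun_prop)

theorem exists_max_chord (hKc : IsCompact K) (hne : K.Nonempty) :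
    ∃ M : ℝ, 0 ≤ M ∧ (lev K M).Nonempty ∧ ∀ t, M < t → lev K t = ∅ := by
  have hQ : IsCompact {q : ((ℝ × ℝ) × ℝ) × ℝ | q.1 ∈ K ∧ (q.1.1, q.2) ∈ K} := by
    refine IsCompact.of_isClosed_subset (hKc.prod (hKc.image continuous_snd)) ?_ ?_
    · have c1 : IsClosed {q : ((ℝ × ℝ) × ℝ) × ℝ | q.1 ∈ K} :=
        hKc.isClosed.preimage continuous_fst
      have c2 : IsClosed {q : ((ℝ × ℝ) × ℝ) × ℝ | (q.1.1, q.2) ∈ K} :=
        hKc.isClosed.preimage (by fun_prop)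
      exact c1.inter c2
    · rintro q ⟨h1, h2⟩
      exact ⟨h1, (q.1.1, q.2), h2, rfl⟩
  obtain ⟨p, hp⟩ := hne
  have hQne : {q : ((ℝ × ℝ) × ℝ) × ℝ | q.1 ∈ K ∧ (q.1.1, q.2) ∈ K}.Nonempty :=
    ⟨(p, p.2), hp, hp⟩
  have hcont : ContinuousOn (fun q : ((ℝ × ℝ) × ℝ) × ℝ => q.2 - q.1.2)
      {q : ((ℝ × ℝ) × ℝ) × ℝ | q.1 ∈ K ∧ (q.1.1, q.2) ∈ K} :=
    Continuous.continuousOn (by fun_prop)
  obtain ⟨q₀, hq₀, hmax⟩ := hQ.exists_isMaxOn hQne hcont
  refine ⟨q₀.2 - q₀.1.2, ?_, ⟨q₀.1.1, q₀.1.2, q₀.2, hq₀.1, hq₀.2, le_rfl⟩, ?_⟩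
  · have h := hmax (show ((p, p.2) : ((ℝ × ℝ) × ℝ) × ℝ) ∈ _ from ⟨hp, hp⟩)
    simpa using h
  · intro t ht
    ext y
    simp only [mem_empty_iff_false, iff_false]
    rintro ⟨h₁, h₂, m₁, m₂, hle⟩
    have h := hmax (show (((y, h₁), h₂) : ((ℝ × ℝ) × ℝ) × ℝ) ∈ _ from ⟨m₁, m₂⟩)
    have h' : h₂ - h₁ ≤ q₀.2 - q₀.1.2 := h
    linarith

theorem chord_measurable (hKc : IsCompact K) : Measurable (chord K) :=
  (measurable_measure_prodMk_left hKc.measurableSet).ennreal_toReal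

theorem volume_inter_cyl (hK : Convex ℝ K) (hKc : IsCompact K) {B : Set (ℝ × ℝ)}
    (hB : MeasurableSet B) :
    volume (K ∩ Prod.fst ⁻¹' B) = ∫⁻ t in Ioi (0 : ℝ), volume (B ∩ lev K t) := by
  have hms : MeasurableSet (K ∩ Prod.fst ⁻¹' B) := hKc.measurableSet.inter (measurable_fst hB)
  rw [Measure.volume_eq_prod, Measure.prod_apply hms]
  have h1 : ∀ y, volume (Prod.mk y ⁻¹' (K ∩ Prod.fst ⁻¹' B))
      = B.indicator (fun y => ENNReal.ofReal (chord K y)) y := by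
    intro y
    by_cases hy : y ∈ B
    · have e : Prod.mk y ⁻¹' (K ∩ Prod.fst ⁻¹' B) = Prod.mk y ⁻¹' K := by
        ext h
        simp [hy]
      rw [e, indicator_of_mem hy, chord,
        ENNReal.ofReal_toReal (fibre_compact hKc y).measure_lt_top.ne]
    · have e : Prod.mk y ⁻¹' (K ∩ Prod.fst ⁻¹' B) = ∅ := by
        ext h
        simp [hy]
      rw [e, indicator_of_notMem hy, measure_empty]
  simp_rw [h1]
  rw [lintegral_indicator hB,
    lintegral_eq_lintegral_meas_le (volume.restrict B)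
      (Filter.Eventually.of_forall (fun y => chord_nonneg K y)) (chord_measurable hKc).aemeasurable]
  refine setLIntegral_congr_fun measurableSet_Ioi (fun t ht => ?_)
  have e : {y | t ≤ chord K y} = lev K t := by
    ext y
    exact (mem_lev_iff_of_pos hK hKc ht y).symm
  rw [Measure.restrict_apply' hB, e, inter_comm]

theorem volume_eq_lintegral_lev (hK : Convex ℝ K) (hKc : IsCompact K) :
    volume K = ∫⁻ t in Ioi (0 : ℝ), volume (lev K t) := by
  have h := volume_inter_cyl hK hKc (B := univ) MeasurableSet.univ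
  simpa using h

/-- the normalised root profile of the level sets -/
noncomputable def prof (K : Set ((ℝ × ℝ) × ℝ)) (t : ℝ) : ℝ :=
  Real.sqrt ((volume (lev K t)).toReal / (volume (Prod.fst '' K)).toReal)

theorem lev_volume_ne_top (hKc : IsCompact K) (t : ℝ) : volume (lev K t) ≠ ⊤ :=
  (lev_compact hKc t).measure_lt_top.ne

theorem prof_concave (hK : Convex ℝ K) (hKc : IsCompact K) {M : ℝ} (hMne : (lev K M).Nonempty) :
    ConcaveOn ℝ (Icc 0 M) (prof K) := by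
  refine ⟨convex_Icc 0 M, ?_⟩
  intro s hs t ht a b ha hb hab
  have hs' : (lev K s).Nonempty := hMne.mono (lev_anti K hs.2)
  have ht' : (lev K t).Nonempty := hMne.mono (lev_anti K ht.2)
  have hbm := planar_bm (lev_convex hK s) (lev_compact hKc s) hs' (lev_convex hK t)
    (lev_compact hKc t) ht' ha hb hab
  have hmono : (volume (a • lev K s + b • lev K t)).toReal
      ≤ (volume (lev K (a * s + b * t))).toReal :=
    ENNReal.toReal_mono (lev_volume_ne_top hKc _) (measure_mono (lev_combo hK ha hb hab s t))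
  have key := hbm.trans (Real.sqrt_le_sqrt hmono)
  simp only [smul_eq_mul, prof]
  rw [Real.sqrt_div' _ ENNReal.toReal_nonneg, Real.sqrt_div' _ ENNReal.toReal_nonneg,
    Real.sqrt_div' _ ENNReal.toReal_nonneg]
  calc a * (Real.sqrt (volume (lev K s)).toReal / Real.sqrt (volume (Prod.fst '' K)).toReal)
        + b * (Real.sqrt (volume (lev K t)).toReal / Real.sqrt (volume (Prod.fst '' K)).toReal)
      = (a * Real.sqrt (volume (lev K s)).toReal + b * Real.sqrt (volume (lev K t)).toReal)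
          / Real.sqrt (volume (Prod.fst '' K)).toReal := by ring
    _ ≤ _ := div_le_div_of_nonneg_right key (Real.sqrt_nonneg _)

/-- Concentration of the volume of a convex body in a cylinder: the cylinder over `B` contains at
most the fraction `3 ρ ^ 2 - 2 ρ ^ 3` of the volume, where `ρ ^ 2` is the relative area of `B` in
the shadow of `K`. -/
theorem cylinder_mass_le (hK : Convex ℝ K) (hKc : IsCompact K) {B : Set (ℝ × ℝ)}
    (hB : MeasurableSet B) (hpos : 0 < volume (Prod.fst '' K)) :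
    volume (K ∩ Prod.fst ⁻¹' B)
      ≤ ENNReal.ofReal (3 * Real.sqrt ((volume (B ∩ Prod.fst '' K)).toReal
            / (volume (Prod.fst '' K)).toReal) ^ 2
          - 2 * Real.sqrt ((volume (B ∩ Prod.fst '' K)).toReal
            / (volume (Prod.fst '' K)).toReal) ^ 3) * volume K := by
  have hDc : IsCompact (Prod.fst '' K) := hKc.image continuous_fst
  have hDfin : volume (Prod.fst '' K) ≠ ⊤ := hDc.measure_lt_top.ne
  have hne : K.Nonempty := by
    by_contra hcon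
    rw [not_nonempty_iff_eq_empty] at hcon
    rw [hcon, image_empty, measure_empty] at hpos
    exact lt_irrefl _ hpos
  obtain ⟨M, hM0, hMne, hMtop⟩ := exists_max_chord hKc hne
  set A : ℝ := (volume (Prod.fst '' K)).toReal with hA
  set b : ℝ := (volume (B ∩ Prod.fst '' K)).toReal with hb
  have hApos : 0 < A := ENNReal.toReal_pos hpos.ne' hDfin
  have hbfin : volume (B ∩ Prod.fst '' K) ≠ ⊤ :=
    (lt_of_le_of_lt (measure_mono inter_subset_right) hDc.measure_lt_top).ne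
  have hb0 : 0 ≤ b := ENNReal.toReal_nonneg
  have hbA : b ≤ A := ENNReal.toReal_mono hDfin (measure_mono inter_subset_right)
  set ρ : ℝ := Real.sqrt (b / A) with hρ
  have hρ0 : 0 ≤ ρ := Real.sqrt_nonneg _
  have hρ2 : ρ ^ 2 = b / A := Real.sq_sqrt (div_nonneg hb0 hApos.le)
  have hρ1 : ρ ≤ 1 := by
    have h1 : ρ ^ 2 ≤ 1 := by
      rw [hρ2]
      exact (div_le_one hApos).mpr hbA
    nlinarith
  rw [volume_inter_cyl hK hKc hB]
  rcases hM0.eq_or_lt with hM | hM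
  · -- all chords have length zero
    have hz : ∀ t ∈ Ioi (0 : ℝ), volume (B ∩ lev K t) = 0 := by
      intro t ht
      rw [hMtop t (hM ▸ ht), inter_empty, measure_empty]
    rw [setLIntegral_congr_fun measurableSet_Ioi hz]
    simp
  · have hprof2 : ∀ t, ENNReal.ofReal A * ENNReal.ofReal (prof K t ^ 2) = volume (lev K t) := by
      intro t
      rw [← ENNReal.ofReal_mul hApos.le, prof, Real.sq_sqrt (div_nonneg ENNReal.toReal_nonneg hApos.le),
        mul_div_cancel₀ _ hApos.ne', ENNReal.ofReal_toReal (lev_volume_ne_top hKc t)]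
    have hmin : ∀ t, volume (B ∩ lev K t)
        ≤ ENNReal.ofReal A * ENNReal.ofReal (min (ρ ^ 2) (prof K t ^ 2)) := by
      intro t
      rw [← ENNReal.ofReal_mul hApos.le, mul_min_of_nonneg _ _ hApos.le, hρ2,
        mul_div_cancel₀ _ hApos.ne', prof,
        Real.sq_sqrt (div_nonneg ENNReal.toReal_nonneg hApos.le), mul_div_cancel₀ _ hApos.ne',
        ENNReal.ofReal_mono.map_min, hb, ENNReal.ofReal_toReal hbfin,
        ENNReal.ofReal_toReal (lev_volume_ne_top hKc t)]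
      exact le_min (measure_mono (inter_subset_inter_right B (lev_subset_shadow K t)))
        (measure_mono inter_subset_right)
    have hstep1 : ∫⁻ t in Ioi (0 : ℝ), volume (B ∩ lev K t)
        ≤ ∫⁻ t in Icc 0 M, ENNReal.ofReal A * ENNReal.ofReal (min (ρ ^ 2) (prof K t ^ 2)) := by
      rw [← lintegral_indicator measurableSet_Ioi, ← lintegral_indicator measurableSet_Icc]
      refine lintegral_mono (fun t => ?_)
      by_cases ht0 : t ∈ Ioi (0 : ℝ)
      · rw [indicator_of_mem ht0]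
        by_cases htM : t ≤ M
        · rw [indicator_of_mem (show t ∈ Icc 0 M from ⟨(mem_Ioi.mp ht0).le, htM⟩)]
          exact hmin t
        · rw [hMtop t (not_le.mp htM), inter_empty, measure_empty]
          exact zero_le
      · rw [indicator_of_notMem ht0]
        exact zero_le
    have hconc := conc_profile hM (prof_concave hK hKc hMne) (fun t _ => Real.sqrt_nonneg _)
      (by
        rw [prof, lev_zero, div_self hApos.ne', Real.sqrt_one]) hρ0 hρ1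
    have hstep3 : ∫⁻ t in Icc 0 M, volume (lev K t) ≤ volume K := by
      rw [volume_eq_lintegral_lev hK hKc,
        setLIntegral_congr (Ioc_ae_eq_Icc (a := (0 : ℝ)) (b := M) (μ := volume)).symm]
      exact lintegral_mono_set Ioc_subset_Ioi_self
    calc ∫⁻ t in Ioi (0 : ℝ), volume (B ∩ lev K t)
        ≤ ∫⁻ t in Icc 0 M, ENNReal.ofReal A * ENNReal.ofReal (min (ρ ^ 2) (prof K t ^ 2)) := hstep1
      _ = ENNReal.ofReal A * ∫⁻ t in Icc 0 M, ENNReal.ofReal (min (ρ ^ 2) (prof K t ^ 2)) :=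
          lintegral_const_mul' _ _ ENNReal.ofReal_ne_top
      _ ≤ ENNReal.ofReal A * (ENNReal.ofReal (3 * ρ ^ 2 - 2 * ρ ^ 3)
            * ∫⁻ t in Icc 0 M, ENNReal.ofReal (prof K t ^ 2)) := by gcongr
      _ = ENNReal.ofReal (3 * ρ ^ 2 - 2 * ρ ^ 3)
            * ∫⁻ t in Icc 0 M, ENNReal.ofReal A * ENNReal.ofReal (prof K t ^ 2) := by
          rw [lintegral_const_mul' _ _ ENNReal.ofReal_ne_top]
          ring
      _ = ENNReal.ofReal (3 * ρ ^ 2 - 2 * ρ ^ 3) * ∫⁻ t in Icc 0 M, volume (lev K t) := by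
          simp_rw [hprof2]
      _ ≤ ENNReal.ofReal (3 * ρ ^ 2 - 2 * ρ ^ 3) * volume K := by gcongr




end Vale.Agent.Lib.P243.Cyl
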