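import Mathlib
import Vale.Agent.Lib.P243.Slices
import Vale.Agent.Lib.P243.Tent
import Vale.Agent.Lib.P243.Bang

/-!
# Cylinder coverings with axes parallel to one plane (coordinate core)

Coordinates z, x, y on `ℝ × ℝ × ℝ`; all cylinder axes are horizontal (orthogonal to the
`z`-direction).  The `i`-th cylinder has horizontal unit normal with components `c i`, `s i` and
base `B i` in the coordinates z, `c i * x + s i * y` of the plane orthogonal to its axis.
-/

namespace Vale.Agent.Lib.P243

open MeasureTheory Set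
open scoped ENNReal

/-- Projection of the point z, x, y to the coordinates z, `α x + β y`. -/
def proj (α β : ℝ) (p : ℝ × ℝ × ℝ) : ℝ × ℝ := (p.1, α * p.2.1 + β * p.2.2)

/-- Horizontal slice of a set in `ℝ × ℝ × ℝ` at height `z`. -/
def hslice (K : Set (ℝ × ℝ × ℝ)) (z : ℝ) : Set (ℝ × ℝ) := {q | (z, q) ∈ K}

theorem proj_image_convex {K : Set (ℝ × ℝ × ℝ)} (hconv : Convex ℝ K) (α β : ℝ) :
    Convex ℝ (proj α β '' K) := by
  rintro x ⟨p, hp, rfl⟩ y ⟨q, hq, rfl⟩ a b ha hb hab
  refine ⟨a • p + b • q, hconv hp hq ha hb hab, ?_⟩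
  refine Prod.ext ?_ ?_
  · simp [proj]
  · simp only [proj, Prod.fst_add, Prod.snd_add, Prod.smul_fst, Prod.smul_snd, smul_eq_mul]
    ring

theorem proj_image_compact {K : Set (ℝ × ℝ × ℝ)} (hcomp : IsCompact K) (α β : ℝ) :
    IsCompact (proj α β '' K) :=
  hcomp.image (by unfold proj; fun_prop)

theorem fst_proj_image (K : Set (ℝ × ℝ × ℝ)) (α β : ℝ) :
    Prod.fst '' (proj α β '' K) = Prod.fst '' K := by
  rw [Set.image_image]
  rfl

theorem hslice_convex {K : Set (ℝ × ℝ × ℝ)} (hconv : Convex ℝ K) (z : ℝ) :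
    Convex ℝ (hslice K z) := by
  intro x hx y hy a b ha hb hab
  have h := hconv hx hy ha hb hab
  have e : a • ((z, x) : ℝ × ℝ × ℝ) + b • ((z, y) : ℝ × ℝ × ℝ) = (z, a • x + b • y) := by
    refine Prod.ext ?_ rfl
    simp only [Prod.fst_add, Prod.smul_fst, smul_eq_mul]
    rw [← add_mul, hab, one_mul]
  rw [e] at h
  exact h

theorem hslice_compact {K : Set (ℝ × ℝ × ℝ)} (hcomp : IsCompact K) (z : ℝ) :
    IsCompact (hslice K z) := by
  have hcl : IsClosed (hslice K z) :=
    hcomp.isClosed.preimage (by fun_prop : Continuous fun q : ℝ × ℝ => ((z, q) : ℝ × ℝ × ℝ))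
  exact IsCompact.of_isClosed_subset (hcomp.image continuous_snd) hcl
    (fun q hq => ⟨(z, q), hq, rfl⟩)

/-- The width of the slice of the projected body is attained by two points of the slice of `K`. -/
theorem exists_width_attained {K : Set (ℝ × ℝ × ℝ)} (hcomp : IsCompact K) (α β : ℝ) {z : ℝ}
    (hz : z ∈ Prod.fst '' K) :
    ∃ p ∈ hslice K z, ∃ q ∈ hslice K z, width (proj α β '' K) z = lin α β p - lin α β q := by
  have hz' : z ∈ Prod.fst '' (proj α β '' K) := by rw [fst_proj_image]; exact hz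
  have hcs := vslice_compact (proj_image_compact hcomp α β) z
  have hne := vslice_nonempty hz'
  have h1 : (z, sSup (vslice (proj α β '' K) z)) ∈ proj α β '' K := hcs.sSup_mem hne
  have h2 : (z, sInf (vslice (proj α β '' K) z)) ∈ proj α β '' K := hcs.sInf_mem hne
  obtain ⟨x, hx, hxe⟩ := h1
  obtain ⟨y, hy, hye⟩ := h2
  have hx1 : x.1 = z := congrArg Prod.fst hxe
  have hx2 : α * x.2.1 + β * x.2.2 = sSup (vslice (proj α β '' K) z) := congrArg Prod.snd hxe
  have hy1 : y.1 = z := congrArg Prod.fst hye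
  have hy2 : α * y.2.1 + β * y.2.2 = sInf (vslice (proj α β '' K) z) := congrArg Prod.snd hye
  refine ⟨x.2, ?_, y.2, ?_, ?_⟩
  · show (z, x.2) ∈ K
    rw [← hx1]; exact hx
  · show (z, y.2) ∈ K
    rw [← hy1]; exact hy
  · unfold width lin
    rw [hx2, hy2]

/-- Coordinate core: if the convex compact set `K` is covered by cylinders with horizontal
axes, then the total base area is at least half of any common lower bound `A` for the areas of
the projections of `K` along horizontal directions. -/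
theorem coplanar_core (K : Set (ℝ × ℝ × ℝ)) (hconv : Convex ℝ K) (hcomp : IsCompact K)
    {n : ℕ} (c s : Fin n → ℝ) (hcs : ∀ i, c i ^ 2 + s i ^ 2 = 1)
    (B : Fin n → Set (ℝ × ℝ)) (hB : ∀ i, MeasurableSet (B i))
    (hcover : ∀ p ∈ K, ∃ i, (p.1, c i * p.2.1 + s i * p.2.2) ∈ B i)
    (A : ℝ≥0∞)
    (hA : ∀ α β : ℝ, α ^ 2 + β ^ 2 = 1 →
      A ≤ volume ((fun p : ℝ × ℝ × ℝ => (p.1, α * p.2.1 + β * p.2.2)) '' K)) :
    A / 2 ≤ ∑ i, volume (B i) := by
  have hA' : ∀ α β : ℝ, α ^ 2 + β ^ 2 = 1 → A ≤ volume (proj α β '' K) := hA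
  rcases K.eq_empty_or_nonempty with hK | hne
  · have h0 := hA' 1 0 (by norm_num)
    rw [hK, image_empty, measure_empty] at h0
    have hA0 : A = 0 := le_antisymm h0 bot_le
    simp [hA0]
  set z₀ := sInf (Prod.fst '' K) with hz₀
  set z₁ := sSup (Prod.fst '' K) with hz₁
  have hZ : Prod.fst '' K = Icc z₀ z₁ := by
    have h := fst_image_eq_Icc (proj_image_convex hconv 1 0) (proj_image_compact hcomp 1 0)
      (hne.image _)
    rwa [fst_proj_image] at h
  have hvol : ∀ α β : ℝ, volume (proj α β '' K)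
      = ∫⁻ z in Icc z₀ z₁, ENNReal.ofReal (width (proj α β '' K) z) := by
    intro α β
    have h := volume_eq_lintegral_width (proj_image_convex hconv α β)
      (proj_image_compact hcomp α β) (hne.image _)
    rwa [fst_proj_image] at h
  have hle : z₀ ≤ z₁ := by
    obtain ⟨p, hp⟩ := hne
    have h : p.1 ∈ Icc z₀ z₁ := by rw [← hZ]; exact ⟨p, hp, rfl⟩
    exact h.1.trans h.2
  rcases hle.eq_or_lt with heq | h01
  · have h0 := hA' 1 0 (by norm_num)
    rw [hvol, ← heq, Icc_self, setLIntegral_measure_zero _ _ Real.volume_singleton] at h0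
    have hA0 : A = 0 := le_antisymm h0 bot_le
    simp [hA0]
  have hAfin : A ≠ ⊤ :=
    ((hA' 1 0 (by norm_num)).trans_lt (proj_image_compact hcomp 1 0).measure_lt_top).ne
  have key : ∀ z ∈ Icc z₀ z₁,
      ENNReal.ofReal (tent z₀ z₁ z) * A ≤ ∑ i, volume (vslice (B i) z) := by
    intro z hz
    have hzK : z ∈ Prod.fst '' K := by rw [hZ]; exact hz
    have hWd : WidthGE (hslice K z) (tent z₀ z₁ z * A.toReal) := by
      intro α β hu
      have hconc : ConcaveOn ℝ (Icc z₀ z₁) (width (proj α β '' K)) := by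
        have h := width_concave (proj_image_convex hconv α β) (proj_image_compact hcomp α β)
        rwa [fst_proj_image, hZ] at h
      have hnn : ∀ t ∈ Icc z₀ z₁, 0 ≤ width (proj α β '' K) t := by
        intro t ht
        apply width_nonneg (proj_image_convex hconv α β) (proj_image_compact hcomp α β)
        rw [fst_proj_image, hZ]; exact ht
      have h1 := concave_tent h01 hconc hnn hz
      rw [← hvol α β] at h1
      have h2 : ENNReal.ofReal (tent z₀ z₁ z) * A
          ≤ ENNReal.ofReal (width (proj α β '' K) z) := by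
        refine le_trans ?_ h1
        gcongr
        exact hA' α β hu
      have h3 : tent z₀ z₁ z * A.toReal ≤ width (proj α β '' K) z := by
        have h := ENNReal.toReal_mono ENNReal.ofReal_ne_top h2
        rwa [ENNReal.toReal_mul, ENNReal.toReal_ofReal (tent_nonneg hz),
          ENNReal.toReal_ofReal (hnn z hz)] at h
      obtain ⟨p, hp, q, hq, hpq⟩ := exists_width_attained hcomp α β hzK
      exact ⟨p, hp, q, hq, by rw [← hpq]; exact h3⟩
    have hb := bang_measurable (hslice_convex hconv z) (hslice_compact hcomp z) hWd c s hcs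
      (fun i => vslice (B i) z) (fun p hp => by
        obtain ⟨i, hi⟩ := hcover (z, p) hp
        exact ⟨i, hi⟩)
    rw [ENNReal.ofReal_mul (tent_nonneg hz), ENNReal.ofReal_toReal hAfin] at hb
    exact hb
  have hTon : ∀ i, volume (B i) = ∫⁻ z, volume (vslice (B i) z) := by
    intro i
    rw [Measure.volume_eq_prod, Measure.prod_apply (hB i)]
    rfl
  have hmeas : ∀ i, Measurable fun z => volume (vslice (B i) z) := fun i =>
    measurable_measure_prodMk_left (hB i)
  calc A / 2 = (∫⁻ z in Icc z₀ z₁, ENNReal.ofReal (tent z₀ z₁ z)) * A := by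
        rw [tent_integral h01, one_div, mul_comm, ← div_eq_mul_inv]
    _ = ∫⁻ z in Icc z₀ z₁, ENNReal.ofReal (tent z₀ z₁ z) * A :=
        (lintegral_mul_const _ (continuous_tent z₀ z₁).measurable.ennreal_ofReal).symm
    _ ≤ ∫⁻ z in Icc z₀ z₁, ∑ i, volume (vslice (B i) z) :=
        setLIntegral_mono' measurableSet_Icc key
    _ = ∑ i, ∫⁻ z in Icc z₀ z₁, volume (vslice (B i) z) :=
        lintegral_finsetSum _ (fun i _ => hmeas i)
    _ ≤ ∑ i, ∫⁻ z, volume (vslice (B i) z) :=
        Finset.sum_le_sum (fun i _ => setLIntegral_le_lintegral _ _)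
    _ = ∑ i, volume (B i) := by simp_rw [← hTon]

end Vale.Agent.Lib.P243
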