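import Mathlib
import Vale.Agent.Lib.P243.Coplanar
import Vale.Agent.Lib.Helper4.Bang.Defs

/-!
# Cylinder coverings with axes orthogonal to a common unit vector (frame form)

Transfers `coplanar_core` from the fixed coordinates to an arbitrary unit vector `v`:
all base planes contain `v`, the `i`-th base plane is spanned by the orthonormal pair
`v`, `n i`, and bases are written in the coordinates `dot v x`, `dot (n i) x`.
-/

namespace Vale.Agent.Lib.P243

open MeasureTheory Set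
open scoped ENNReal
open Vale.Agent.Lib.Helper4.Bang (dot coords)

/-- A unit vector of three-space can be completed to an orthonormal triple. -/
theorem exists_frame (v : ℝ × ℝ × ℝ) (hv : dot v v = 1) :
    ∃ e₁ e₂ : ℝ × ℝ × ℝ, dot e₁ e₁ = 1 ∧ dot e₂ e₂ = 1 ∧ dot e₁ e₂ = 0 ∧ dot v e₁ = 0
      ∧ dot v e₂ = 0 := by
  obtain ⟨a, b, c⟩ := v
  simp only [dot] at hv ⊢
  by_cases h : a ^ 2 + b ^ 2 = 0
  · have ha : a = 0 := by nlinarith [sq_nonneg a, sq_nonneg b]
    have hb : b = 0 := by nlinarith [sq_nonneg a, sq_nonneg b]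
    refine ⟨(1, 0, 0), (0, 1, 0), ?_, ?_, ?_, ?_, ?_⟩ <;> simp [ha, hb]
  · set r := Real.sqrt (a ^ 2 + b ^ 2) with hr
    have hr2 : r * r = a * a + b * b := by
      have := Real.mul_self_sqrt (by positivity : (0 : ℝ) ≤ a ^ 2 + b ^ 2)
      rw [← hr] at this
      linarith
    have hrpos : 0 < r := Real.sqrt_pos.2 (lt_of_le_of_ne (by positivity) (Ne.symm h))
    set t := r⁻¹ with ht
    have htr : t * r = 1 := inv_mul_cancel₀ hrpos.ne'
    refine ⟨(-b * t, a * t, 0), (-(a * c) * t, -(b * c) * t, r), ?_, ?_, ?_, ?_, ?_⟩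
    · simp only
      linear_combination (-(t * t)) * hr2 + (t * r + 1) * htr
    · simp only
      linear_combination (c * c) * ((-(t * t)) * hr2 + (t * r + 1) * htr) + hr2 + hv
    · simp only
      ring
    · simp only
      ring
    · simp only
      linear_combination (c * t) * hr2 - (c * r) * htr

/-- Resolution of the identity for an orthonormal triple of three-space. -/
theorem resolution {v e₁ e₂ : ℝ × ℝ × ℝ} (hv : dot v v = 1) (h1 : dot e₁ e₁ = 1)
    (h2 : dot e₂ e₂ = 1) (h12 : dot e₁ e₂ = 0) (hv1 : dot v e₁ = 0) (hv2 : dot v e₂ = 0)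
    (x y : ℝ × ℝ × ℝ) :
    dot x y = dot v x * dot v y + dot e₁ x * dot e₁ y + dot e₂ x * dot e₂ y := by
  obtain ⟨v1, v2, v3⟩ := v
  obtain ⟨a1, a2, a3⟩ := e₁
  obtain ⟨b1, b2, b3⟩ := e₂
  obtain ⟨x1, x2, x3⟩ := x
  obtain ⟨y1, y2, y3⟩ := y
  simp only [dot] at *
  have hQ : (!![v1, v2, v3; a1, a2, a3; b1, b2, b3] : Matrix (Fin 3) (Fin 3) ℝ)
      * (!![v1, v2, v3; a1, a2, a3; b1, b2, b3] : Matrix (Fin 3) (Fin 3) ℝ).transpose = 1 := by
    ext i j
    fin_cases i <;> fin_cases j <;>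
      simp [Matrix.mul_apply, Fin.sum_univ_three] <;> linarith
  have hQ' := mul_eq_one_comm.mp hQ
  have e00 := congrFun (congrFun hQ' 0) 0
  have e01 := congrFun (congrFun hQ' 0) 1
  have e02 := congrFun (congrFun hQ' 0) 2
  have e11 := congrFun (congrFun hQ' 1) 1
  have e12 := congrFun (congrFun hQ' 1) 2
  have e22 := congrFun (congrFun hQ' 2) 2
  simp [Matrix.mul_apply, Fin.sum_univ_three] at e00 e01 e02 e11 e12 e22
  linear_combination (-(x1 * y1)) * e00 - (x1 * y2 + x2 * y1) * e01 - (x1 * y3 + x3 * y1) * e02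
    - (x2 * y2) * e11 - (x2 * y3 + x3 * y2) * e12 - (x3 * y3) * e22

/-- The linear map to the coordinates with respect to a triple of vectors. -/
def frameMap (v e₁ e₂ x : ℝ × ℝ × ℝ) : ℝ × ℝ × ℝ := (dot v x, dot e₁ x, dot e₂ x)

theorem frameMap_comb (v e₁ e₂ : ℝ × ℝ × ℝ) (a b : ℝ) (x y : ℝ × ℝ × ℝ) :
    frameMap v e₁ e₂ (a • x + b • y) = a • frameMap v e₁ e₂ x + b • frameMap v e₁ e₂ y := by
  simp only [frameMap, dot, Prod.fst_add, Prod.snd_add, Prod.smul_fst, Prod.smul_snd,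
    smul_eq_mul, Prod.smul_mk, Prod.mk_add_mk]
  refine Prod.ext ?_ (Prod.ext ?_ ?_) <;> simp only <;> ring

theorem continuous_frameMap (v e₁ e₂ : ℝ × ℝ × ℝ) : Continuous (frameMap v e₁ e₂) := by
  unfold frameMap dot
  fun_prop

/-- Frame form of `coplanar_core`: `v` is a unit vector, every `n i` is a unit vector
orthogonal to `v`, the `i`-th cylinder is the set of `x` with `coords v (n i) x ∈ B i`
(its axis is orthogonal to `v` and to `n i`), and `A` is a common lower bound for the areas of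
the projections `coords v w '' K` of `K` to the planes spanned by `v` and a unit vector `w`
orthogonal to `v`. -/
theorem coplanar_frame (K : Set (ℝ × ℝ × ℝ)) (hconv : Convex ℝ K) (hcomp : IsCompact K)
    {m : ℕ} (v : ℝ × ℝ × ℝ) (hv : dot v v = 1)
    (n : Fin m → ℝ × ℝ × ℝ) (hn : ∀ i, dot (n i) (n i) = 1 ∧ dot v (n i) = 0)
    (B : Fin m → Set (ℝ × ℝ))
    (hcover : ∀ x ∈ K, ∃ i, coords v (n i) x ∈ B i)
    (A : ℝ≥0∞)
    (hA : ∀ w : ℝ × ℝ × ℝ, dot w w = 1 → dot v w = 0 → A ≤ volume (coords v w '' K)) :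
    A / 2 ≤ ∑ i, volume (B i) := by
  obtain ⟨e₁, e₂, h1, h2, h12, hv1, hv2⟩ := exists_frame v hv
  have hres := resolution hv h1 h2 h12 hv1 hv2
  have hconv' : Convex ℝ (frameMap v e₁ e₂ '' K) := by
    rintro _ ⟨x, hx, rfl⟩ _ ⟨y, hy, rfl⟩ a b ha hb hab
    exact ⟨a • x + b • y, hconv hx hy ha hb hab, frameMap_comb v e₁ e₂ a b x y⟩
  have hcomp' : IsCompact (frameMap v e₁ e₂ '' K) :=
    hcomp.image (continuous_frameMap v e₁ e₂)
  have hcs : ∀ i, dot e₁ (n i) ^ 2 + dot e₂ (n i) ^ 2 = 1 := by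
    intro i
    have h := hres (n i) (n i)
    rw [(hn i).1, (hn i).2] at h
    linarith
  have hdot : ∀ i x, dot (n i) x = dot e₁ (n i) * dot e₁ x + dot e₂ (n i) * dot e₂ x := by
    intro i x
    have h := hres (n i) x
    rw [(hn i).2] at h
    linarith
  have hcover' : ∀ p ∈ frameMap v e₁ e₂ '' K, ∃ i,
      (p.1, dot e₁ (n i) * p.2.1 + dot e₂ (n i) * p.2.2) ∈ toMeasurable volume (B i) := by
    rintro _ ⟨x, hx, rfl⟩
    obtain ⟨i, hi⟩ := hcover x hx
    refine ⟨i, subset_toMeasurable _ _ ?_⟩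
    simp only [frameMap]
    rw [← hdot i x]
    exact hi
  have hA' : ∀ α β : ℝ, α ^ 2 + β ^ 2 = 1 →
      A ≤ volume ((fun p : ℝ × ℝ × ℝ => (p.1, α * p.2.1 + β * p.2.2))
        '' (frameMap v e₁ e₂ '' K)) := by
    intro α β hαβ
    have hwx : ∀ x, dot (α • e₁ + β • e₂) x = α * dot e₁ x + β * dot e₂ x := by
      intro x
      simp only [dot, Prod.fst_add, Prod.snd_add, Prod.smul_fst, Prod.smul_snd, smul_eq_mul]
      ring
    have hww : dot (α • e₁ + β • e₂) (α • e₁ + β • e₂) = 1 := by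
      have e : dot (α • e₁ + β • e₂) (α • e₁ + β • e₂)
          = α ^ 2 * dot e₁ e₁ + 2 * α * β * dot e₁ e₂ + β ^ 2 * dot e₂ e₂ := by
        simp only [dot, Prod.fst_add, Prod.snd_add, Prod.smul_fst, Prod.smul_snd, smul_eq_mul]
        ring
      rw [e, h1, h12, h2]
      linarith
    have hvw : dot v (α • e₁ + β • e₂) = 0 := by
      have e : dot v (α • e₁ + β • e₂) = α * dot v e₁ + β * dot v e₂ := by
        simp only [dot, Prod.fst_add, Prod.snd_add, Prod.smul_fst, Prod.smul_snd, smul_eq_mul]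
        ring
      rw [e, hv1, hv2]
      ring
    have hfun : (fun x => (fun p : ℝ × ℝ × ℝ => (p.1, α * p.2.1 + β * p.2.2))
        (frameMap v e₁ e₂ x)) = coords v (α • e₁ + β • e₂) := by
      funext x
      simp only [frameMap, coords, hwx]
    rw [Set.image_image, hfun]
    exact hA _ hww hvw
  have h := coplanar_core (frameMap v e₁ e₂ '' K) hconv' hcomp' (fun i => dot e₁ (n i))
    (fun i => dot e₂ (n i)) hcs (fun i => toMeasurable volume (B i))
    (fun i => measurableSet_toMeasurable _ _) hcover' A hA'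
  simpa only [measure_toMeasurable] using h

end Vale.Agent.Lib.P243
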