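import Mathlib
import Vale.Agent.Lib.P243.Chord
import Vale.Agent.Lib.Helper4.Bang.Defs

open MeasureTheory Set
open scoped ENNReal Pointwise
open Vale.Agent.Lib.Helper4.Bang (dot coords)

namespace Vale.Agent.Lib.P243.Cyl

/-- cross product of two vectors of three-space -/
def cross (u v : ℝ × ℝ × ℝ) : ℝ × ℝ × ℝ :=
  (u.2.1 * v.2.2 - u.2.2 * v.2.1, u.2.2 * v.1 - u.1 * v.2.2, u.1 * v.2.1 - u.2.1 * v.1)

/-- the coordinate change of three-space attached to a pair of vectors, as a linear map -/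
def frameL (e f : ℝ × ℝ × ℝ) : (ℝ × ℝ × ℝ) →ₗ[ℝ] (ℝ × ℝ × ℝ) where
  toFun x := (dot e x, dot f x, dot (cross e f) x)
  map_add' x y := by
    simp only [dot, Prod.fst_add, Prod.snd_add, Prod.mk_add_mk, Prod.mk.injEq]
    refine ⟨by ring, by ring, by ring⟩
  map_smul' c x := by
    simp only [dot, Prod.smul_fst, Prod.smul_snd, smul_eq_mul, RingHom.id_apply, Prod.smul_mk,
      Prod.mk.injEq]
    refine ⟨by ring, by ring, by ring⟩

theorem frameL_apply (e f x : ℝ × ℝ × ℝ) :
    frameL e f x = (dot e x, dot f x, dot (cross e f) x) := rfl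

theorem norm_frame {e f : ℝ × ℝ × ℝ} (h : dot e e = 1 ∧ dot f f = 1 ∧ dot e f = 0)
    (x : ℝ × ℝ × ℝ) :
    dot x x = dot e x ^ 2 + dot f x ^ 2 + dot (cross e f) x ^ 2 := by
  obtain ⟨h1, h2, h3⟩ := h
  simp only [dot, cross] at *
  linear_combination (-(f.1 * f.1 + f.2.1 * f.2.1 + f.2.2 * f.2.2) * (x.1 * x.1 + x.2.1 * x.2.1 + x.2.2 * x.2.2)
      + (f.1 * x.1 + f.2.1 * x.2.1 + f.2.2 * x.2.2) ^ 2) * h1
    + (-(x.1 * x.1 + x.2.1 * x.2.1 + x.2.2 * x.2.2) + (e.1 * x.1 + e.2.1 * x.2.1 + e.2.2 * x.2.2) ^ 2) * h2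
    + (-2 * (f.1 * x.1 + f.2.1 * x.2.1 + f.2.2 * x.2.2) * (e.1 * x.1 + e.2.1 * x.2.1 + e.2.2 * x.2.2)
      + (x.1 * x.1 + x.2.1 * x.2.1 + x.2.2 * x.2.2) * (e.1 * f.1 + e.2.1 * f.2.1 + e.2.2 * f.2.2)) * h3

theorem eq_zero_of_dot_self {x : ℝ × ℝ × ℝ} (h : dot x x = 0) : x = 0 := by
  simp only [dot] at h
  have h1 : x.1 = 0 := by nlinarith [mul_self_nonneg x.1, mul_self_nonneg x.2.1, mul_self_nonneg x.2.2]
  have h2 : x.2.1 = 0 := by nlinarith [mul_self_nonneg x.1, mul_self_nonneg x.2.1, mul_self_nonneg x.2.2]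
  have h3 : x.2.2 = 0 := by nlinarith [mul_self_nonneg x.1, mul_self_nonneg x.2.1, mul_self_nonneg x.2.2]
  exact Prod.ext h1 (Prod.ext h2 h3)

theorem frameL_det_ne_zero {e f : ℝ × ℝ × ℝ} (h : dot e e = 1 ∧ dot f f = 1 ∧ dot e f = 0) :
    LinearMap.det (frameL e f) ≠ 0 := by
  intro hdet
  rw [LinearMap.det_eq_zero_iff_ker_ne_bot] at hdet
  apply hdet
  rw [LinearMap.ker_eq_bot']
  intro x hx
  rw [frameL_apply] at hx
  have h1 : dot e x = 0 := congrArg Prod.fst hx
  have h2 : dot f x = 0 := congrArg (fun p : ℝ × ℝ × ℝ => p.2.1) hx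
  have h3 : dot (cross e f) x = 0 := congrArg (fun p : ℝ × ℝ × ℝ => p.2.2) hx
  apply eq_zero_of_dot_self
  rw [norm_frame h x, h1, h2, h3]
  ring


/-- the coordinate change `x ↦ ((e · x, f · x), (e × f) · x)` as a linear map -/
def frameM (e f : ℝ × ℝ × ℝ) : (ℝ × ℝ × ℝ) →ₗ[ℝ] ((ℝ × ℝ) × ℝ) where
  toFun x := (coords e f x, dot (cross e f) x)
  map_add' x y := by
    simp only [coords, dot, Prod.fst_add, Prod.snd_add, Prod.mk_add_mk, Prod.mk.injEq]
    refine ⟨⟨by ring, by ring⟩, by ring⟩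
  map_smul' c x := by
    simp only [coords, dot, Prod.smul_fst, Prod.smul_snd, smul_eq_mul, RingHom.id_apply,
      Prod.smul_mk, Prod.mk.injEq]
    refine ⟨⟨by ring, by ring⟩, by ring⟩

theorem frameM_apply (e f x : ℝ × ℝ × ℝ) :
    frameM e f x = (coords e f x, dot (cross e f) x) := rfl

theorem volume_frameM_image (e f : ℝ × ℝ × ℝ) (S : Set (ℝ × ℝ × ℝ)) :
    volume (frameM e f '' S) = ENNReal.ofReal |LinearMap.det (frameL e f)| * volume S := by
  have hcomp : (frameM e f : (ℝ × ℝ × ℝ) → (ℝ × ℝ) × ℝ)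
      = (MeasurableEquiv.prodAssoc (α := ℝ) (β := ℝ) (γ := ℝ)).symm ∘ frameL e f := by
    funext x
    rfl
  have hmp : MeasurePreserving (MeasurableEquiv.prodAssoc (α := ℝ) (β := ℝ) (γ := ℝ))
      volume volume :=
    ⟨MeasurableEquiv.prodAssoc.measurable, Measure.prodAssoc_prod⟩
  have hhaar : (volume : Measure (ℝ × ℝ × ℝ)).IsAddHaarMeasure :=
    Measure.prod.instIsAddHaarMeasure (volume : Measure ℝ) (volume : Measure (ℝ × ℝ))
  rw [hcomp, image_comp, MeasurableEquiv.image_eq_preimage_symm, MeasurableEquiv.symm_symm,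
    hmp.measure_preimage_equiv, Measure.addHaar_image_linearMap]

/-- Concentration lemma in a frame: the cylinder with base `B` (in the coordinates of the
orthonormal pair `e`, `f`) meets `K` in at most the fraction `3 ρ ^ 2 - 2 ρ ^ 3` of its volume,
where `ρ ^ 2` is the relative area of `B` in the projection of `K`. -/
theorem cyl_mass_frame {K : Set (ℝ × ℝ × ℝ)} (hconv : Convex ℝ K) (hcomp : IsCompact K)
    (hvol : 0 < volume K) {e f : ℝ × ℝ × ℝ} (h : dot e e = 1 ∧ dot f f = 1 ∧ dot e f = 0)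
    {B : Set (ℝ × ℝ)} (hB : MeasurableSet B) :
    volume (K ∩ coords e f ⁻¹' B)
      ≤ ENNReal.ofReal (3 * Real.sqrt ((volume (B ∩ coords e f '' K)).toReal
            / (volume (coords e f '' K)).toReal) ^ 2
          - 2 * Real.sqrt ((volume (B ∩ coords e f '' K)).toReal
            / (volume (coords e f '' K)).toReal) ^ 3) * volume K := by
  have hc0 : ENNReal.ofReal |LinearMap.det (frameL e f)| ≠ 0 := by
    rw [Ne, ENNReal.ofReal_eq_zero, not_le]
    exact abs_pos.mpr (frameL_det_ne_zero h)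
  have hc1 : ENNReal.ofReal |LinearMap.det (frameL e f)| ≠ ⊤ := ENNReal.ofReal_ne_top
  have hK'conv : Convex ℝ (frameM e f '' K) := hconv.linear_image (frameM e f)
  have hK'comp : IsCompact (frameM e f '' K) :=
    hcomp.image (LinearMap.continuous_of_finiteDimensional (frameM e f))
  have hfst : Prod.fst '' (frameM e f '' K) = coords e f '' K := by
    rw [image_image]
    rfl
  have hpos : 0 < volume (Prod.fst '' (frameM e f '' K)) := by
    by_contra hcon
    have hz : volume (Prod.fst '' (frameM e f '' K)) = 0 := le_antisymm (not_lt.mp hcon) zero_le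
    have hsub : frameM e f '' K ⊆ (Prod.fst '' (frameM e f '' K)) ×ˢ (Prod.snd '' (frameM e f '' K)) :=
      fun p hp => ⟨⟨p, hp, rfl⟩, ⟨p, hp, rfl⟩⟩
    have hle := measure_mono (μ := volume) hsub
    rw [Measure.volume_eq_prod, Measure.prod_prod, hz, zero_mul] at hle
    have hz' : volume (frameM e f '' K) = 0 := le_antisymm hle zero_le
    rw [volume_frameM_image] at hz'
    rcases mul_eq_zero.mp hz' with h0 | h0
    · exact hc0 h0
    · exact hvol.ne' h0
  have hmain := cylinder_mass_le hK'conv hK'comp hB hpos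
  have himg : frameM e f '' (K ∩ coords e f ⁻¹' B) = frameM e f '' K ∩ Prod.fst ⁻¹' B := by
    have : coords e f ⁻¹' B = frameM e f ⁻¹' (Prod.fst ⁻¹' B) := rfl
    rw [this, image_inter_preimage]
  rw [← himg, hfst, volume_frameM_image, volume_frameM_image] at hmain
  have hmain' : ENNReal.ofReal |LinearMap.det (frameL e f)| * volume (K ∩ coords e f ⁻¹' B)
      ≤ ENNReal.ofReal |LinearMap.det (frameL e f)| *
        (ENNReal.ofReal (3 * Real.sqrt ((volume (B ∩ coords e f '' K)).toReal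
            / (volume (coords e f '' K)).toReal) ^ 2
          - 2 * Real.sqrt ((volume (B ∩ coords e f '' K)).toReal
            / (volume (coords e f '' K)).toReal) ^ 3) * volume K) := by
    calc _ ≤ _ := hmain
      _ = _ := by ring
  exact (ENNReal.mul_le_mul_iff_right hc0 hc1).mp hmain'


/-- the tangent-line bound for the concentration function -/
theorem phi_tangent {r ρ : ℝ} (hr : 0 ≤ r) (hρ : 0 ≤ ρ) :
    3 * r ^ 2 - 2 * r ^ 3 ≤ ρ ^ 3 + 3 * (1 - ρ) * r ^ 2 := by
  nlinarith [mul_nonneg (sq_nonneg (ρ - r)) (add_nonneg hρ (mul_nonneg zero_le_two hr))]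

/-- Theorem A: counting bounds for coverings of a convex body by finitely many cylinders. -/
theorem cylinder_count (K : Set (ℝ × ℝ × ℝ)) (hconv : Convex ℝ K) (hcomp : IsCompact K)
    (hint : (interior K).Nonempty) (m : ℕ) (e f : Fin m → ℝ × ℝ × ℝ)
    (horth : ∀ i, dot (e i) (e i) = 1 ∧ dot (f i) (f i) = 1 ∧ dot (e i) (f i) = 0)
    (B : Fin m → Set (ℝ × ℝ))
    (hcover : ∀ x ∈ K, ∃ i, coords (e i) (f i) x ∈ B i) :
    (1 ≤ ∑ i, (3 * ((volume (B i ∩ coords (e i) (f i) '' K)).toReal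
            / (volume (coords (e i) (f i) '' K)).toReal)
        - 2 * ((volume (B i ∩ coords (e i) (f i) '' K)).toReal
            / (volume (coords (e i) (f i) '' K)).toReal)
          * Real.sqrt ((volume (B i ∩ coords (e i) (f i) '' K)).toReal
            / (volume (coords (e i) (f i) '' K)).toReal))) ∧
    (∀ ρ : ℝ, 0 ≤ ρ → ρ < 1 → ENNReal.ofReal ((1 - m * ρ ^ 3) / (3 * (1 - ρ)))
      ≤ ∑ i, volume (B i) / volume (coords (e i) (f i) '' K)) ∧
    ENNReal.ofReal (1 / 3 + 2 / (9 * Real.sqrt (3 * m)))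
      ≤ ∑ i, volume (B i) / volume (coords (e i) (f i) '' K) := by
  have hhaar : (volume : Measure (ℝ × ℝ × ℝ)).IsAddHaarMeasure :=
    Measure.prod.instIsAddHaarMeasure (volume : Measure ℝ) (volume : Measure (ℝ × ℝ))
  have hvol : 0 < volume K :=
    lt_of_lt_of_le (isOpen_interior.measure_pos volume hint) (measure_mono interior_subset)
  have hfin : volume K ≠ ⊤ := hcomp.measure_lt_top.ne
  have hDc : ∀ i, IsCompact (coords (e i) (f i) '' K) := by
    intro i
    have hcont : Continuous (coords (e i) (f i)) := by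
      unfold coords dot
      fun_prop
    exact hcomp.image hcont
  have hDfin : ∀ i, volume (coords (e i) (f i) '' K) ≠ ⊤ := fun i => (hDc i).measure_lt_top.ne
  -- measurable hulls of the bases with the same trace on the projection
  set B' : Fin m → Set (ℝ × ℝ) := fun i =>
    toMeasurable volume (B i ∩ coords (e i) (f i) '' K) ∪ (coords (e i) (f i) '' K)ᶜ with hB'
  have hB'm : ∀ i, MeasurableSet (B' i) := fun i =>
    (measurableSet_toMeasurable _ _).union (hDc i).measurableSet.compl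
  have hB'sub : ∀ i, B i ⊆ B' i := by
    intro i y hy
    by_cases hyD : y ∈ coords (e i) (f i) '' K
    · exact Or.inl (subset_toMeasurable _ _ ⟨hy, hyD⟩)
    · exact Or.inr hyD
  have hB'v : ∀ i, volume (B' i ∩ coords (e i) (f i) '' K)
      = volume (B i ∩ coords (e i) (f i) '' K) := by
    intro i
    apply le_antisymm
    · calc volume (B' i ∩ coords (e i) (f i) '' K)
          ≤ volume (toMeasurable volume (B i ∩ coords (e i) (f i) '' K)) := by
            apply measure_mono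
            rintro y ⟨hy1 | hy1, hy2⟩
            · exact hy1
            · exact absurd hy2 hy1
        _ = volume (B i ∩ coords (e i) (f i) '' K) := measure_toMeasurable _
    · exact measure_mono (inter_subset_inter_left _ (hB'sub i))
  -- relative areas
  set β : Fin m → ℝ := fun i => (volume (B i ∩ coords (e i) (f i) '' K)).toReal
      / (volume (coords (e i) (f i) '' K)).toReal with hβ
  have hβ0 : ∀ i, 0 ≤ β i := fun i => div_nonneg ENNReal.toReal_nonneg ENNReal.toReal_nonneg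
  have hβ1 : ∀ i, β i ≤ 1 := by
    intro i
    apply div_le_one_of_le₀ _ ENNReal.toReal_nonneg
    exact ENNReal.toReal_mono (hDfin i) (measure_mono inter_subset_right)
  have hφ0 : ∀ i, 0 ≤ 3 * β i - 2 * β i * Real.sqrt (β i) := by
    intro i
    have h1 : Real.sqrt (β i) ≤ 1 := Real.sqrt_le_one.mpr (hβ1 i)
    nlinarith [hβ0 i, Real.sqrt_nonneg (β i), mul_nonneg (hβ0 i) (sub_nonneg.mpr h1)]
  have hmass : ∀ i, volume (K ∩ coords (e i) (f i) ⁻¹' B' i)
      ≤ ENNReal.ofReal (3 * β i - 2 * β i * Real.sqrt (β i)) * volume K := by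
    intro i
    have h := cyl_mass_frame hconv hcomp hvol (horth i) (hB'm i)
    rw [hB'v i] at h
    have e1 : 3 * Real.sqrt (β i) ^ 2 - 2 * Real.sqrt (β i) ^ 3
        = 3 * β i - 2 * β i * Real.sqrt (β i) := by
      have hs : Real.sqrt (β i) ^ 2 = β i := Real.sq_sqrt (hβ0 i)
      have hc : Real.sqrt (β i) ^ 3 = Real.sqrt (β i) ^ 2 * Real.sqrt (β i) := by ring
      rw [hc, hs]
      ring
    rw [← e1]
    exact h
  have hsub : K ⊆ ⋃ i ∈ (Finset.univ : Finset (Fin m)), (K ∩ coords (e i) (f i) ⁻¹' B' i) := by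
    intro x hx
    obtain ⟨i, hi⟩ := hcover x hx
    exact mem_biUnion (Finset.mem_univ i) ⟨hx, hB'sub i hi⟩
  have h1 : volume K ≤ (∑ i, ENNReal.ofReal (3 * β i - 2 * β i * Real.sqrt (β i))) * volume K := by
    rw [Finset.sum_mul]
    calc volume K ≤ volume (⋃ i ∈ (Finset.univ : Finset (Fin m)),
            (K ∩ coords (e i) (f i) ⁻¹' B' i)) := measure_mono hsub
      _ ≤ ∑ i, volume (K ∩ coords (e i) (f i) ⁻¹' B' i) := measure_biUnion_finset_le _ _
      _ ≤ ∑ i, ENNReal.ofReal (3 * β i - 2 * β i * Real.sqrt (β i)) * volume K :=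
          Finset.sum_le_sum (fun i _ => hmass i)
  have h2 : (1 : ℝ≥0∞) ≤ ∑ i, ENNReal.ofReal (3 * β i - 2 * β i * Real.sqrt (β i)) := by
    by_contra hcon
    have hlt : (∑ i, ENNReal.ofReal (3 * β i - 2 * β i * Real.sqrt (β i))) * volume K
        < 1 * volume K :=
      (ENNReal.mul_lt_mul_iff_left hvol.ne' hfin).mpr (not_le.mp hcon)
    rw [one_mul] at hlt
    exact absurd h1 (not_le.mpr hlt)
  rw [← ENNReal.ofReal_sum_of_nonneg (fun i _ => hφ0 i), ← ENNReal.ofReal_one,
    ENNReal.ofReal_le_ofReal_iff (Finset.sum_nonneg (fun i _ => hφ0 i))] at h2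
  -- the ratio sum dominates the sum of the relative areas
  have hR : ENNReal.ofReal (∑ i, β i) ≤ ∑ i, volume (B i) / volume (coords (e i) (f i) '' K) := by
    rw [ENNReal.ofReal_sum_of_nonneg (fun i _ => hβ0 i)]
    refine Finset.sum_le_sum (fun i _ => ?_)
    have hnfin : volume (B i ∩ coords (e i) (f i) '' K) ≠ ⊤ :=
      (lt_of_le_of_lt (measure_mono inter_subset_right) (hDfin i).lt_top).ne
    rcases (ENNReal.toReal_nonneg (a := volume (coords (e i) (f i) '' K))).eq_or_lt with h0 | h0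
    · have hz : β i = 0 := by
        simp only [hβ]
        rw [← h0, div_zero]
      rw [hz, ENNReal.ofReal_zero]
      exact zero_le
    · simp only [hβ]
      rw [ENNReal.ofReal_div_of_pos h0, ENNReal.ofReal_toReal hnfin, ENNReal.ofReal_toReal (hDfin i)]
      exact ENNReal.div_le_div_right (measure_mono inter_subset_left) _
  -- the tangent-line bounds
  have htan : ∀ ρ : ℝ, 0 ≤ ρ → ρ < 1 → (1 - m * ρ ^ 3) / (3 * (1 - ρ)) ≤ ∑ i, β i := by
    intro ρ hρ0 hρ1
    rw [div_le_iff₀ (by linarith)]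
    have hi : ∀ i, 3 * β i - 2 * β i * Real.sqrt (β i) ≤ ρ ^ 3 + 3 * (1 - ρ) * β i := by
      intro i
      have h := phi_tangent (Real.sqrt_nonneg (β i)) hρ0
      have hs : Real.sqrt (β i) ^ 2 = β i := Real.sq_sqrt (hβ0 i)
      have hc : Real.sqrt (β i) ^ 3 = β i * Real.sqrt (β i) := by
        have : Real.sqrt (β i) ^ 3 = Real.sqrt (β i) ^ 2 * Real.sqrt (β i) := by ring
        rw [this, hs]
      rw [hs, hc] at h
      linarith
    have hs : ∑ i : Fin m, (ρ ^ 3 + 3 * (1 - ρ) * β i) = m * ρ ^ 3 + 3 * (1 - ρ) * ∑ i, β i := by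
      rw [Finset.sum_add_distrib, Finset.sum_const, Finset.card_univ, Fintype.card_fin,
        nsmul_eq_mul, ← Finset.mul_sum]
    have := h2.trans (Finset.sum_le_sum (fun i _ => hi i))
    rw [hs] at this
    linarith
  refine ⟨h2, fun ρ hρ0 hρ1 => (ENNReal.ofReal_le_ofReal (htan ρ hρ0 hρ1)).trans hR, ?_⟩
  -- explicit choice ρ = 1 / sqrt (3 m)
  have hm : 0 < m := by
    obtain ⟨x, hx⟩ := hint
    obtain ⟨i, -⟩ := hcover x (interior_subset hx)
    exact lt_of_le_of_lt (Nat.zero_le _) i.2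
  have hm' : (1 : ℝ) ≤ m := by exact_mod_cast hm
  set q : ℝ := Real.sqrt (3 * m) with hq
  have hq2 : q ^ 2 = 3 * m := Real.sq_sqrt (by positivity)
  have hq1 : 1 < q := by
    have : (1 : ℝ) < q ^ 2 := by rw [hq2]; linarith
    nlinarith [Real.sqrt_nonneg (3 * (m : ℝ))]
  have hqpos : 0 < q := by linarith
  have hρ : (1 : ℝ) / q < 1 := by rw [div_lt_one hqpos]; exact hq1
  have hkey : 1 / 3 + 2 / (9 * q) ≤ (1 - m * (1 / q) ^ 3) / (3 * (1 - 1 / q)) := by
    have hmq : (m : ℝ) = q ^ 2 / 3 := by rw [hq2]; ring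
    rw [hmq, le_div_iff₀ (by
      have : 1 / q < 1 := hρ
      linarith)]
    have hq0 : q ≠ 0 := hqpos.ne'
    field_simp
    nlinarith [sq_nonneg (q - 1), hq1]
  exact (ENNReal.ofReal_le_ofReal (hkey.trans (htan (1 / q) (by positivity) hρ))).trans hR


end Vale.Agent.Lib.P243.Cyl
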