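import Mathlib

open Set

namespace Vale.Agent.Lib.P243

section Abstract

variable {V : Type*} [AddCommGroup V] [Module ℝ V]

/-- the points `x` such that both `x - u` and `x + u` lie in `K` -/
def shrink (K : Set V) (u : V) : Set V := {x | x - u ∈ K ∧ x + u ∈ K}

theorem shrink_convex {K : Set V} (hK : Convex ℝ K) (u : V) : Convex ℝ (shrink K u) := by
  intro x hx y hy a b ha hb hab
  refine ⟨?_, ?_⟩
  · have h := hK hx.1 hy.1 ha hb hab
    have e : a • x + b • y - u = a • (x - u) + b • (y - u) := by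
      have hu : u = (a + b) • u := by rw [hab, one_smul]
      rw [smul_sub, smul_sub]
      nth_rewrite 1 [hu]
      rw [add_smul]
      abel
    rw [e]
    exact h
  · have h := hK hx.2 hy.2 ha hb hab
    have e : a • x + b • y + u = a • (x + u) + b • (y + u) := by
      have hu : u = (a + b) • u := by rw [hab, one_smul]
      rw [smul_add, smul_add]
      nth_rewrite 1 [hu]
      rw [add_smul]
      abel
    rw [e]
    exact h

/-- a chord of `K` in the direction `n₀` and a chord in the direction `v` give a chord of the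
shrunk set in the direction `v` -/
theorem shrink_chord {K : Set V} (hK : Convex ℝ K) (n₀ v c₀ c : V) (h h' θ : ℝ)
    (hθ0 : 0 ≤ θ) (hθ1 : θ ≤ 1)
    (h₀m : c₀ - h • n₀ ∈ K) (h₀p : c₀ + h • n₀ ∈ K) (hm : c - h' • v ∈ K) (hp : c + h' • v ∈ K) :
    ∃ c', c' - ((1 - θ) * h') • v ∈ shrink K ((θ * h) • n₀) ∧
      c' + ((1 - θ) * h') • v ∈ shrink K ((θ * h) • n₀) := by
  have h1 : (0 : ℝ) ≤ 1 - θ := by linarith
  have h2 : (1 - θ) + θ = 1 := by ring
  refine ⟨(1 - θ) • c + θ • c₀, ⟨?_, ?_⟩, ⟨?_, ?_⟩⟩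
  · have := hK hm h₀m h1 hθ0 h2
    have e : (1 - θ) • c + θ • c₀ - ((1 - θ) * h') • v - (θ * h) • n₀
        = (1 - θ) • (c - h' • v) + θ • (c₀ - h • n₀) := by
      simp only [smul_sub, mul_smul]
      abel
    rw [e]
    exact this
  · have := hK hm h₀p h1 hθ0 h2
    have e : (1 - θ) • c + θ • c₀ - ((1 - θ) * h') • v + (θ * h) • n₀
        = (1 - θ) • (c - h' • v) + θ • (c₀ + h • n₀) := by
      simp only [smul_sub, smul_add, mul_smul]
      abel
    rw [e]
    exact this
  · have := hK hp h₀m h1 hθ0 h2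
    have e : (1 - θ) • c + θ • c₀ + ((1 - θ) * h') • v - (θ * h) • n₀
        = (1 - θ) • (c + h' • v) + θ • (c₀ - h • n₀) := by
      simp only [smul_sub, smul_add, mul_smul]
      abel
    rw [e]
    exact this
  · have := hK hp h₀p h1 hθ0 h2
    have e : (1 - θ) • c + θ • c₀ + ((1 - θ) * h') • v + (θ * h) • n₀
        = (1 - θ) • (c + h' • v) + θ • (c₀ + h • n₀) := by
      simp only [smul_add, mul_smul]
      abel
    rw [e]
    exact this

/-- the sign attached to a Boolean -/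
def sg (b : Bool) : ℝ := if b then 1 else -1

theorem sg_true : sg true = 1 := rfl

theorem sg_false : sg false = -1 := rfl

theorem sg_not (b : Bool) : sg (!b) = -sg b := by
  cases b <;> simp [sg]

theorem sg_cases (b : Bool) : sg b = 1 ∨ sg b = -1 := by
  cases b <;> simp [sg]

/-- if `K` has chords of length `w` in the directions `n i` and the `r i` add up to at most
`w`, then a translate of all the sign combinations of the vectors `(r i / 2) • n i` lies
in `K` -/
theorem exists_center {ι : Type*} [DecidableEq ι] (n : ι → V) (r : ι → ℝ) (hr : ∀ i, 0 < r i)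
    (S : Finset ι) :
    ∀ (K : Set V), Convex ℝ K → K.Nonempty → ∀ w : ℝ, ∑ i ∈ S, r i ≤ w →
      (∀ i ∈ S, ∃ c, c - (w / 2) • n i ∈ K ∧ c + (w / 2) • n i ∈ K) →
      ∃ x₀, ∀ σ : ι → Bool, x₀ + ∑ i ∈ S, sg (σ i) • ((r i / 2) • n i) ∈ K := by
  induction S using Finset.induction_on with
  | empty =>
    intro K _ hne w _ _
    obtain ⟨x₀, hx₀⟩ := hne
    exact ⟨x₀, fun σ => by simpa using hx₀⟩
  | insert i₀ S hi₀ ih =>
    intro K hK _ w hw hch
    rw [Finset.sum_insert hi₀] at hw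
    have hS : 0 ≤ ∑ i ∈ S, r i := Finset.sum_nonneg (fun i _ => (hr i).le)
    have hr₀ := hr i₀
    have hwpos : 0 < w := by linarith
    obtain ⟨c₀, h₀m, h₀p⟩ := hch i₀ (Finset.mem_insert_self _ _)
    have hθ0 : 0 ≤ r i₀ / w := div_nonneg hr₀.le hwpos.le
    have hθ1 : r i₀ / w ≤ 1 := by
      rw [div_le_one hwpos]
      linarith
    have e1 : r i₀ / w * (w / 2) = r i₀ / 2 := by
      field_simp
    have e2 : (1 - r i₀ / w) * (w / 2) = (w - r i₀) / 2 := by
      field_simp
    have key : ∀ j ∈ insert i₀ S, ∃ c, c - ((w - r i₀) / 2) • n j ∈ shrink K ((r i₀ / 2) • n i₀) ∧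
        c + ((w - r i₀) / 2) • n j ∈ shrink K ((r i₀ / 2) • n i₀) := by
      intro j hj
      obtain ⟨c, hm, hp⟩ := hch j hj
      have := shrink_chord hK (n i₀) (n j) c₀ c (w / 2) (w / 2) (r i₀ / w) hθ0 hθ1 h₀m h₀p hm hp
      rw [e1, e2] at this
      exact this
    have hne' : (shrink K ((r i₀ / 2) • n i₀)).Nonempty := by
      obtain ⟨c, hc, _⟩ := key i₀ (Finset.mem_insert_self _ _)
      exact ⟨_, hc⟩
    obtain ⟨x₀, hx₀⟩ := ih (shrink K ((r i₀ / 2) • n i₀)) (shrink_convex hK _) hne' (w - r i₀)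
      (by linarith) (fun j hj => key j (Finset.mem_insert_of_mem hj))
    refine ⟨x₀, fun σ => ?_⟩
    rw [Finset.sum_insert hi₀]
    have h := hx₀ σ
    rcases hb : σ i₀ with _ | _
    · rw [sg_false]
      have e : x₀ + ((-1 : ℝ) • ((r i₀ / 2) • n i₀) + ∑ i ∈ S, sg (σ i) • ((r i / 2) • n i))
          = x₀ + ∑ i ∈ S, sg (σ i) • ((r i / 2) • n i) - (r i₀ / 2) • n i₀ := by
        rw [neg_one_smul]
        abel
      rw [e]
      exact h.1
    · rw [sg_true]
      have e : x₀ + ((1 : ℝ) • ((r i₀ / 2) • n i₀) + ∑ i ∈ S, sg (σ i) • ((r i / 2) • n i))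
          = x₀ + ∑ i ∈ S, sg (σ i) • ((r i / 2) • n i) + (r i₀ / 2) • n i₀ := by
        rw [one_smul]
        abel
      rw [e]
      exact h.2

/-- the sign lemma: some sign combination of the vectors `(r i / 2) • n i`, translated by
`x₀`, avoids all the open planks -/
theorem exists_signs {ι : Type*} [Fintype ι] [DecidableEq ι]
    (B : V →ₗ[ℝ] V →ₗ[ℝ] ℝ) (hB : ∀ x y, B x y = B y x)
    (n : ι → V) (hn : ∀ i, B (n i) (n i) = 1) (m r : ι → ℝ) (hr : ∀ i, 0 < r i) (x₀ : V) :
    ∃ σ : ι → Bool, ∀ j,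
      r j / 2 ≤ |B (x₀ + ∑ i, sg (σ i) • ((r i / 2) • n i)) (n j) - m j| := by
  let Φ : (ι → Bool) → ℝ := fun σ =>
    B (∑ i, sg (σ i) • ((r i / 2) • n i)) (∑ i, sg (σ i) • ((r i / 2) • n i))
      + ∑ i, sg (σ i) * (r i * (B x₀ (n i) - m i))
  obtain ⟨σ, -, hσ⟩ := Finset.exists_max_image (Finset.univ : Finset (ι → Bool)) Φ
    ⟨fun _ => true, Finset.mem_univ _⟩
  refine ⟨σ, fun j => ?_⟩
  have hmax : Φ (Function.update σ j (!σ j)) ≤ Φ σ := hσ _ (Finset.mem_univ _)
  have hy : ∑ i, sg (σ i) • ((r i / 2) • n i)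
      = sg (σ j) • ((r j / 2) • n j) + ∑ i ∈ Finset.univ.erase j, sg (σ i) • ((r i / 2) • n i) :=
    (Finset.add_sum_erase _ _ (Finset.mem_univ j)).symm
  have hy' : ∑ i, sg (Function.update σ j (!σ j) i) • ((r i / 2) • n i)
      = (-sg (σ j)) • ((r j / 2) • n j)
        + ∑ i ∈ Finset.univ.erase j, sg (σ i) • ((r i / 2) • n i) := by
    rw [← Finset.add_sum_erase _ _ (Finset.mem_univ j)]
    congr 1
    · rw [Function.update_self, sg_not]
    · apply Finset.sum_congr rfl
      intro i hi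
      rw [Function.update_of_ne (Finset.ne_of_mem_erase hi)]
  have hL : ∑ i, sg (σ i) * (r i * (B x₀ (n i) - m i))
      = sg (σ j) * (r j * (B x₀ (n j) - m j))
        + ∑ i ∈ Finset.univ.erase j, sg (σ i) * (r i * (B x₀ (n i) - m i)) :=
    (Finset.add_sum_erase _ _ (Finset.mem_univ j)).symm
  have hL' : ∑ i, sg (Function.update σ j (!σ j) i) * (r i * (B x₀ (n i) - m i))
      = (-sg (σ j)) * (r j * (B x₀ (n j) - m j))
        + ∑ i ∈ Finset.univ.erase j, sg (σ i) * (r i * (B x₀ (n i) - m i)) := by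
    rw [← Finset.add_sum_erase _ _ (Finset.mem_univ j)]
    congr 1
    · rw [Function.update_self, sg_not]
    · apply Finset.sum_congr rfl
      intro i hi
      rw [Function.update_of_ne (Finset.ne_of_mem_erase hi)]
  simp only [Φ] at hmax
  rw [hy, hy', hL, hL'] at hmax
  rw [hy]
  generalize (∑ i ∈ Finset.univ.erase j, sg (σ i) • ((r i / 2) • n i)) = R at hmax ⊢
  generalize (∑ i ∈ Finset.univ.erase j, sg (σ i) * (r i * (B x₀ (n i) - m i))) = Lr at hmax
  have hsym : B (n j) R = B R (n j) := hB _ _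
  have hnn := hn j
  have hrj := hr j
  simp only [map_add, map_smul, LinearMap.add_apply, LinearMap.smul_apply,
    smul_eq_mul, hsym, hnn] at hmax ⊢
  rcases sg_cases (σ j) with hs | hs
  · rw [hs] at hmax ⊢
    have ht : 0 ≤ B x₀ (n j) + B R (n j) - m j := by
      by_contra hneg
      have hneg' : B x₀ (n j) + B R (n j) - m j < 0 := lt_of_not_ge hneg
      nlinarith
    have e : B x₀ (n j) + (1 * (r j / 2 * 1) + B R (n j)) - m j
        = (B x₀ (n j) + B R (n j) - m j) + r j / 2 := by ring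
    rw [e, abs_of_nonneg (by linarith)]
    linarith
  · rw [hs] at hmax ⊢
    have ht : B x₀ (n j) + B R (n j) - m j ≤ 0 := by
      by_contra hneg
      have hneg' : 0 < B x₀ (n j) + B R (n j) - m j := lt_of_not_ge hneg
      nlinarith
    have e : B x₀ (n j) + (-1 * (r j / 2 * 1) + B R (n j)) - m j
        = (B x₀ (n j) + B R (n j) - m j) - r j / 2 := by ring
    rw [e, abs_of_nonpos (by linarith)]
    linarith

/-- the plank theorem of Bang for finitely many open planks, in chord form: a convex set with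
chords of length `w` in the directions of the planks is not covered by open planks of total
width at most `w` -/
theorem bang_abstract {ι : Type*} [Fintype ι] [DecidableEq ι]
    (B : V →ₗ[ℝ] V →ₗ[ℝ] ℝ) (hB : ∀ x y, B x y = B y x)
    (K : Set V) (hK : Convex ℝ K) (hne : K.Nonempty)
    (n : ι → V) (hn : ∀ i, B (n i) (n i) = 1) (m r : ι → ℝ) (hr : ∀ i, 0 < r i) (w : ℝ)
    (hchord : ∀ i, ∃ c, c - (w / 2) • n i ∈ K ∧ c + (w / 2) • n i ∈ K)
    (hcov : ∀ x ∈ K, ∃ i, |B x (n i) - m i| < r i / 2) : w < ∑ i, r i := by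
  by_contra hw
  have hw' : ∑ i, r i ≤ w := le_of_not_gt hw
  obtain ⟨x₀, hx₀⟩ := exists_center n r hr Finset.univ K hK hne w hw' (fun i _ => hchord i)
  obtain ⟨σ, hσ⟩ := exists_signs B hB n hn m r hr x₀
  obtain ⟨i, hi⟩ := hcov _ (hx₀ σ)
  exact absurd hi (not_lt.mpr (hσ i))

end Abstract

section Plane

/-- the Euclidean inner product of the coordinate plane -/
def dot (p q : ℝ × ℝ) : ℝ := p.1 * q.1 + p.2 * q.2

/-- the Euclidean inner product of the coordinate plane, as a bilinear map -/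
def dotB : (ℝ × ℝ) →ₗ[ℝ] (ℝ × ℝ) →ₗ[ℝ] ℝ :=
  LinearMap.mk₂ ℝ dot
    (fun p q x => by simp only [dot, Prod.fst_add, Prod.snd_add]; ring)
    (fun c p x => by simp only [dot, Prod.smul_fst, Prod.smul_snd, smul_eq_mul]; ring)
    (fun p x y => by simp only [dot, Prod.fst_add, Prod.snd_add]; ring)
    (fun c p x => by simp only [dot, Prod.smul_fst, Prod.smul_snd, smul_eq_mul]; ring)

theorem dotB_apply (p q : ℝ × ℝ) : dotB p q = dot p q := rfl

theorem dot_comm (p q : ℝ × ℝ) : dot p q = dot q p := by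
  simp only [dot]
  ring

/-- the plank theorem of Bang in the coordinate plane, chord form -/
theorem bang_plank {ι : Type*} [Fintype ι] [DecidableEq ι]
    (K : Set (ℝ × ℝ)) (hK : Convex ℝ K) (hne : K.Nonempty)
    (n : ι → ℝ × ℝ) (hn : ∀ i, dot (n i) (n i) = 1) (m r : ι → ℝ) (hr : ∀ i, 0 < r i) (w : ℝ)
    (hchord : ∀ i, ∃ c, c - (w / 2) • n i ∈ K ∧ c + (w / 2) • n i ∈ K)
    (hcov : ∀ x ∈ K, ∃ i, |dot x (n i) - m i| < r i / 2) : w < ∑ i, r i :=
  bang_abstract dotB (fun x y => dot_comm x y) K hK hne n hn m r hr w hchord hcov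

/-- a compact convex planar set whose width in every direction is at least `w` has a chord
of length `w` in every direction -/
theorem chords_of_widths (K : Set (ℝ × ℝ)) (hK : Convex ℝ K) (hc : IsCompact K)
    (hne : K.Nonempty) (w : ℝ) (hw : 0 ≤ w)
    (hwidth : ∀ n : ℝ × ℝ, dot n n = 1 → ∃ a ∈ K, ∃ b ∈ K, w ≤ dot (b - a) n)
    (v : ℝ × ℝ) (hv : dot v v = 1) :
    ∃ c, c - (w / 2) • v ∈ K ∧ c + (w / 2) • v ∈ K := by
  by_contra hno
  have hdisj : Disjoint K ((fun x => w • v + x) '' K) := by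
    rw [Set.disjoint_left]
    rintro a ha ⟨b, hb, rfl⟩
    apply hno
    refine ⟨b + (w / 2) • v, ?_, ?_⟩
    · have e : b + (w / 2) • v - (w / 2) • v = b := by abel
      rw [e]
      exact hb
    · have e : b + (w / 2) • v + (w / 2) • v = w • v + b := by
        rw [add_assoc, ← add_smul, add_halves, add_comm]
      rw [e]
      exact ha
  have hc' : IsCompact ((fun x => w • v + x) '' K) :=
    hc.image (continuous_const.add continuous_id)
  obtain ⟨f, s, t, hs, hst, ht⟩ :=
    geometric_hahn_banach_compact_closed hK hc (hK.translate (w • v)) hc'.isClosed hdisj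
  have hf : ∀ p : ℝ × ℝ, f p = dot p (f (1, 0), f (0, 1)) := by
    intro p
    have e : p = p.1 • ((1, 0) : ℝ × ℝ) + p.2 • ((0, 1) : ℝ × ℝ) := by
      ext <;> simp
    conv_lhs => rw [e]
    rw [map_add, map_smul, map_smul]
    simp only [dot, smul_eq_mul]
  obtain ⟨a₀, ha₀⟩ := hne
  have hpos : 0 < f (1, 0) * f (1, 0) + f (0, 1) * f (0, 1) := by
    by_contra hneg
    have h1 : f (1, 0) = 0 := by nlinarith [mul_self_nonneg (f (1, 0)), mul_self_nonneg (f (0, 1))]
    have h2 : f (0, 1) = 0 := by nlinarith [mul_self_nonneg (f (1, 0)), mul_self_nonneg (f (0, 1))]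
    have hz : ∀ p : ℝ × ℝ, f p = 0 := by
      intro p
      rw [hf p, h1, h2]
      simp [dot]
    have h3 := hs a₀ ha₀
    have h4 := ht (w • v + a₀) ⟨a₀, ha₀, rfl⟩
    rw [hz] at h3 h4
    linarith
  set ρ : ℝ := Real.sqrt (f (1, 0) * f (1, 0) + f (0, 1) * f (0, 1)) with hρ
  have hρpos : 0 < ρ := Real.sqrt_pos.mpr hpos
  have hρsq : ρ * ρ = f (1, 0) * f (1, 0) + f (0, 1) * f (0, 1) := Real.mul_self_sqrt hpos.le
  have hunit : dot (f (1, 0) / ρ, f (0, 1) / ρ) (f (1, 0) / ρ, f (0, 1) / ρ) = 1 := by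
    simp only [dot]
    field_simp
    linarith
  obtain ⟨a, ha, b, hb, hab⟩ := hwidth _ hunit
  have h1 : dot (b - a) (f (1, 0) / ρ, f (0, 1) / ρ) = (f b - f a) / ρ := by
    rw [hf b, hf a]
    simp only [dot, Prod.fst_sub, Prod.snd_sub]
    field_simp
    ring
  rw [h1, le_div_iff₀ hρpos] at hab
  have h2 := hs b hb
  have h3 := ht (w • v + a) ⟨a, ha, rfl⟩
  rw [map_add, map_smul, smul_eq_mul] at h3
  have hfv : f v ≤ ρ := by
    have hv' : v.1 * v.1 + v.2 * v.2 = 1 := hv
    have hsq : f v * f v ≤ ρ * ρ := by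
      rw [hρsq, hf v]
      simp only [dot]
      nlinarith [mul_self_nonneg (v.1 * f (0, 1) - v.2 * f (1, 0))]
    nlinarith [abs_le_abs_of_nonneg hρpos.le (le_refl ρ), mul_self_le_mul_self_iff (abs_nonneg (f v)) hρpos.le,
      abs_mul_abs_self (f v), le_abs_self (f v)]
  nlinarith

/-- the plank theorem of Bang in the coordinate plane: a compact convex set all of whose
directional widths are at least `w` is not covered by finitely many open planks of total
width at most `w` -/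
theorem plank_widths {ι : Type*} [Fintype ι] [DecidableEq ι]
    (K : Set (ℝ × ℝ)) (hK : Convex ℝ K) (hc : IsCompact K) (hne : K.Nonempty)
    (n : ι → ℝ × ℝ) (hn : ∀ i, dot (n i) (n i) = 1) (m r : ι → ℝ) (hr : ∀ i, 0 < r i)
    (w : ℝ) (hw : 0 ≤ w)
    (hwidth : ∀ v : ℝ × ℝ, dot v v = 1 → ∃ a ∈ K, ∃ b ∈ K, w ≤ dot (b - a) v)
    (hcov : ∀ x ∈ K, ∃ i, |dot x (n i) - m i| < r i / 2) : w < ∑ i, r i :=
  bang_plank K hK hne n hn m r hr w
    (fun i => chords_of_widths K hK hc hne w hw hwidth (n i) (hn i)) hcov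

end Plane

end Vale.Agent.Lib.P243
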