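import Vale.Agent.Lib.P243.Slices
import Vale.Agent.Lib.P243.Bang

open MeasureTheory Set
open scoped ENNReal

namespace Vale.Agent.Lib.P243

/-- the shadow map of a spatial body onto the plane spanned by the first axis and the
direction with coordinates a, b in the last two coordinates -/
theorem continuous_shadow (a b : ℝ) :
    Continuous (fun x : ℝ × ℝ × ℝ => (x.1, a * x.2.1 + b * x.2.2)) := by
  fun_prop

/-- the supremum and the infimum of the slice of a shadow of a compact body are attained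
at points of the body in the same slice -/
theorem exists_width_attained (K : Set (ℝ × ℝ × ℝ)) (hconv : Convex ℝ K) (hcomp : IsCompact K)
    (a b : ℝ) {z : ℝ} (hz : z ∈ Prod.fst '' K) :
    ∃ p q : ℝ × ℝ, (z, p) ∈ K ∧ (z, q) ∈ K ∧
      width ((fun x : ℝ × ℝ × ℝ => (x.1, a * x.2.1 + b * x.2.2)) '' K) z
        = lin a b p - lin a b q := by
  have _h := hconv
  set Ω : Set (ℝ × ℝ) := (fun x : ℝ × ℝ × ℝ => (x.1, a * x.2.1 + b * x.2.2)) '' K with hΩ
  have hΩc : IsCompact Ω := hcomp.image (continuous_shadow a b)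
  have hzΩ : z ∈ Prod.fst '' Ω := by
    obtain ⟨x, hx, rfl⟩ := hz
    exact ⟨(x.1, a * x.2.1 + b * x.2.2), ⟨x, hx, rfl⟩, rfl⟩
  have hc := vslice_compact hΩc z
  have hne := vslice_nonempty hzΩ
  have hu : (z, sSup (vslice Ω z)) ∈ Ω := hc.sSup_mem hne
  have hl : (z, sInf (vslice Ω z)) ∈ Ω := hc.sInf_mem hne
  obtain ⟨x, hx, hxe⟩ := hu
  obtain ⟨y, hy, hye⟩ := hl
  have hx1 : x.1 = z := congrArg Prod.fst hxe
  have hx2 : a * x.2.1 + b * x.2.2 = sSup (vslice Ω z) := congrArg Prod.snd hxe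
  have hy1 : y.1 = z := congrArg Prod.fst hye
  have hy2 : a * y.2.1 + b * y.2.2 = sInf (vslice Ω z) := congrArg Prod.snd hye
  refine ⟨x.2, y.2, ?_, ?_, ?_⟩
  · rw [← hx1]
    exact hx
  · rw [← hy1]
    exact hy
  · unfold width lin
    rw [hx2, hy2]

end Vale.Agent.Lib.P243
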