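import Mathlib
import Vale.Agent.Lib.P243.PlanarBM

open MeasureTheory Set
open scoped ENNReal Pointwise

namespace Vale.Agent.Lib.P243.Sym

open Vale.Agent.Lib.P243

/-- adding a set containing the two points with coordinates 0, c and 0, -c increases every slice width
by `2 c` -/
lemma width_add_ge {P S : Set (ℝ × ℝ)} (hPc : IsCompact P) (hSc : IsCompact S) {c : ℝ}
    (h1 : ((0 : ℝ), c) ∈ S) (h2 : ((0 : ℝ), -c) ∈ S) {z : ℝ} (hz : z ∈ Prod.fst '' P) :
    width P z + 2 * c ≤ width (P + S) z := by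
  have hWc : IsCompact (P + S) := hPc.add hSc
  have cP := vslice_compact hPc z
  have cW := vslice_compact hWc z
  have xu : (z, sSup (vslice P z)) ∈ P := cP.sSup_mem (vslice_nonempty hz)
  have xl : (z, sInf (vslice P z)) ∈ P := cP.sInf_mem (vslice_nonempty hz)
  have wu : sSup (vslice P z) + c ∈ vslice (P + S) z := by
    have := Set.add_mem_add xu h1
    simpa [vslice] using this
  have wl : sInf (vslice P z) + -c ∈ vslice (P + S) z := by
    have := Set.add_mem_add xl h2
    simpa [vslice] using this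
  have h3 := le_csSup cW.bddAbove wu
  have h4 := csInf_le cW.bddBelow wl
  unfold width
  linarith

/-- in a centrally symmetric planar convex set the central chord is the longest among the
parallel chords -/
lemma width_le_central {P : Set (ℝ × ℝ)} (hP : Convex ℝ P) (hPc : IsCompact P)
    (hsym : ∀ x ∈ P, -x ∈ P) {m : ℝ} (hm : ∀ s : ℝ, ((0 : ℝ), s) ∈ P → s ≤ m) {z : ℝ}
    (hz : z ∈ Prod.fst '' P) : width P z ≤ 2 * m := by
  have cP := vslice_compact hPc z
  have xu : (z, sSup (vslice P z)) ∈ P := cP.sSup_mem (vslice_nonempty hz)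
  have xl : (z, sInf (vslice P z)) ∈ P := cP.sInf_mem (vslice_nonempty hz)
  have xl' := hsym _ xl
  have hmid := hP xu xl' (by norm_num : (0 : ℝ) ≤ 1 / 2) (by norm_num : (0 : ℝ) ≤ 1 / 2)
    (by norm_num)
  have e : (1 / 2 : ℝ) • ((z, sSup (vslice P z)) : ℝ × ℝ)
      + (1 / 2 : ℝ) • (-((z, sInf (vslice P z)) : ℝ × ℝ))
      = ((0 : ℝ), (sSup (vslice P z) - sInf (vslice P z)) / 2) := by
    refine Prod.ext ?_ ?_
    · simp
    · simp only [Prod.snd_add, Prod.smul_snd, Prod.snd_neg, smul_eq_mul]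
      ring
  rw [e] at hmid
  have := hm _ hmid
  unfold width
  linarith

/-- planar lemma, axis form: adding a set that contains the points with coordinates 0, c and 0, -c to a
centrally symmetric convex set whose central vertical chord has half-length at most `m`
increases the area at least by the factor `1 + c / m` -/
theorem axis_planar {P S : Set (ℝ × ℝ)} (hP : Convex ℝ P) (hPc : IsCompact P)
    (hsym : ∀ x ∈ P, -x ∈ P) (hS : Convex ℝ S) (hSc : IsCompact S) {c m : ℝ} (hc : 0 ≤ c)
    (hm0 : 0 < m) (hm : ∀ s : ℝ, ((0 : ℝ), s) ∈ P → s ≤ m)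
    (h1 : ((0 : ℝ), c) ∈ S) (h2 : ((0 : ℝ), -c) ∈ S) :
    ENNReal.ofReal (1 + c / m) * volume P ≤ volume (P + S) := by
  have hW : Convex ℝ (P + S) := hP.add hS
  have hWc : IsCompact (P + S) := hPc.add hSc
  have hDc : IsCompact (Prod.fst '' P) := hPc.image continuous_fst
  have hDm : MeasurableSet (Prod.fst '' P) := hDc.measurableSet
  have e1 : ∫⁻ z, ENNReal.ofReal (width P z)
      = ∫⁻ z in Prod.fst '' P, ENNReal.ofReal (width P z) := by
    rw [← lintegral_indicator hDm]
    refine lintegral_congr (fun z => ?_)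
    by_cases hz : z ∈ Prod.fst '' P
    · rw [indicator_of_mem hz]
    · rw [indicator_of_notMem hz, width_eq_zero hz, ENNReal.ofReal_zero]
  have hA : volume P + ENNReal.ofReal (2 * c) * volume (Prod.fst '' P) ≤ volume (P + S) := by
    rw [volume_eq_lintegral_width' hW hWc, volume_eq_lintegral_width' hP hPc, e1,
      ← setLIntegral_const, ← lintegral_add_right _ measurable_const]
    calc ∫⁻ z in Prod.fst '' P, (ENNReal.ofReal (width P z) + ENNReal.ofReal (2 * c))
        ≤ ∫⁻ z in Prod.fst '' P, ENNReal.ofReal (width (P + S) z) := by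
          refine setLIntegral_mono' hDm (fun z hz => ?_)
          rw [← ENNReal.ofReal_add (width_nonneg hP hPc hz) (by positivity)]
          exact ENNReal.ofReal_le_ofReal (width_add_ge hPc hSc h1 h2 hz)
      _ ≤ ∫⁻ z, ENNReal.ofReal (width (P + S) z) := setLIntegral_le_lintegral _ _
  have hB : volume P ≤ ENNReal.ofReal (2 * m) * volume (Prod.fst '' P) := by
    rw [volume_eq_lintegral_width' hP hPc, ← setLIntegral_const, ← lintegral_indicator hDm]
    refine lintegral_mono (fun z => ?_)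
    by_cases hz : z ∈ Prod.fst '' P
    · rw [indicator_of_mem hz]
      exact ENNReal.ofReal_le_ofReal (width_le_central hP hPc hsym hm hz)
    · rw [indicator_of_notMem hz, width_eq_zero hz, ENNReal.ofReal_zero]
  have hcm : 0 ≤ c / m := div_nonneg hc hm0.le
  calc ENNReal.ofReal (1 + c / m) * volume P
      = volume P + ENNReal.ofReal (c / m) * volume P := by
        rw [ENNReal.ofReal_add zero_le_one hcm, ENNReal.ofReal_one, add_mul, one_mul]
    _ ≤ volume P + ENNReal.ofReal (c / m) * (ENNReal.ofReal (2 * m) * volume (Prod.fst '' P)) := by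
        gcongr
    _ = volume P + ENNReal.ofReal (2 * c) * volume (Prod.fst '' P) := by
        rw [← mul_assoc, ← ENNReal.ofReal_mul hcm]
        congr 3
        field_simp
    _ ≤ volume (P + S) := hA

/-- an area-preserving linear map of the plane sending `p` to the second basis vector -/
noncomputable def turn (p : ℝ × ℝ) : (ℝ × ℝ) →ₗ[ℝ] (ℝ × ℝ) where
  toFun x := (-p.2 * x.1 + p.1 * x.2, (p.1 * x.1 + p.2 * x.2) / (p.1 ^ 2 + p.2 ^ 2))
  map_add' x y := by
    simp only [Prod.fst_add, Prod.snd_add, Prod.mk_add_mk, Prod.mk.injEq]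
    refine ⟨by ring, by ring⟩
  map_smul' c x := by
    simp only [Prod.smul_fst, Prod.smul_snd, smul_eq_mul, RingHom.id_apply, Prod.smul_mk,
      Prod.mk.injEq]
    refine ⟨by ring, by ring⟩

theorem turn_apply (p x : ℝ × ℝ) :
    turn p x = (-p.2 * x.1 + p.1 * x.2, (p.1 * x.1 + p.2 * x.2) / (p.1 ^ 2 + p.2 ^ 2)) := rfl

theorem normsq_ne {p : ℝ × ℝ} (hp : p ≠ 0) : p.1 ^ 2 + p.2 ^ 2 ≠ 0 := by
  intro h
  apply hp
  have h1 : p.1 = 0 := by nlinarith [sq_nonneg p.1, sq_nonneg p.2]
  have h2 : p.2 = 0 := by nlinarith [sq_nonneg p.1, sq_nonneg p.2]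
  exact Prod.ext h1 h2

theorem turn_det {p : ℝ × ℝ} (hp : p ≠ 0) : LinearMap.det (turn p) = -1 := by
  have hn := normsq_ne hp
  rw [← LinearMap.det_toMatrix (Module.Basis.finTwoProd ℝ), Matrix.det_fin_two]
  simp [LinearMap.toMatrix_apply, turn_apply]
  field_simp
  ring

theorem volume_turn_image {p : ℝ × ℝ} (hp : p ≠ 0) (S : Set (ℝ × ℝ)) :
    volume (turn p '' S) = volume S := by
  rw [Measure.addHaar_image_linearMap, turn_det hp]
  simp

theorem turn_smul_self {p : ℝ × ℝ} (hp : p ≠ 0) (s : ℝ) : turn p (s • p) = (0, s) := by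
  have hn := normsq_ne hp
  rw [turn_apply]
  simp only [Prod.smul_fst, Prod.smul_snd, smul_eq_mul, Prod.mk.injEq]
  refine ⟨by ring, ?_⟩
  field_simp

theorem turn_injective {p : ℝ × ℝ} (hp : p ≠ 0) : Function.Injective (turn p) := by
  have hn := normsq_ne hp
  rw [← LinearMap.ker_eq_bot, LinearMap.ker_eq_bot']
  intro x hx
  rw [turn_apply] at hx
  have h1 : -p.2 * x.1 + p.1 * x.2 = 0 := congrArg Prod.fst hx
  have h2 : (p.1 * x.1 + p.2 * x.2) / (p.1 ^ 2 + p.2 ^ 2) = 0 := congrArg Prod.snd hx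
  rw [div_eq_zero_iff] at h2
  have h3 : p.1 * x.1 + p.2 * x.2 = 0 := h2.resolve_right hn
  have e1 : (p.1 ^ 2 + p.2 ^ 2) * x.1 = 0 := by linear_combination p.1 * h3 - p.2 * h1
  have e2 : (p.1 ^ 2 + p.2 ^ 2) * x.2 = 0 := by linear_combination p.2 * h3 + p.1 * h1
  exact Prod.ext ((mul_eq_zero.mp e1).resolve_left hn) ((mul_eq_zero.mp e2).resolve_left hn)

/-- planar lemma: let `P` be a centrally symmetric compact convex planar set and `p` a nonzero
vector such that `s • p ∈ P` forces `s ≤ m`. Adding the segment from `-c • p` to `c • p`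
increases the area of `P` at least by the factor `1 + c / m`. -/
theorem planar_dir {P : Set (ℝ × ℝ)} (hP : Convex ℝ P) (hPc : IsCompact P)
    (hsym : ∀ x ∈ P, -x ∈ P) {p : ℝ × ℝ} (hp : p ≠ 0) {c m : ℝ} (hc : 0 ≤ c) (hm0 : 0 < m)
    (hm : ∀ s : ℝ, s • p ∈ P → s ≤ m) :
    ENNReal.ofReal (1 + c / m) * volume P ≤ volume (P + segment ℝ (-(c • p)) (c • p)) := by
  have hcont : Continuous (turn p) := LinearMap.continuous_of_finiteDimensional (turn p)
  have hP' : Convex ℝ (turn p '' P) := hP.linear_image (turn p)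
  have hP'c : IsCompact (turn p '' P) := hPc.image hcont
  have hsym' : ∀ x ∈ turn p '' P, -x ∈ turn p '' P := by
    rintro _ ⟨x, hx, rfl⟩
    exact ⟨-x, hsym x hx, map_neg _ _⟩
  have hS' : Convex ℝ (turn p '' segment ℝ (-(c • p)) (c • p)) :=
    (convex_segment _ _).linear_image (turn p)
  have hSc : IsCompact (segment ℝ (-(c • p)) (c • p)) := by
    rw [segment_eq_image]
    exact isCompact_Icc.image (by fun_prop)
  have hS'c : IsCompact (turn p '' segment ℝ (-(c • p)) (c • p)) := hSc.image hcont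
  have hm' : ∀ s : ℝ, ((0 : ℝ), s) ∈ turn p '' P → s ≤ m := by
    rintro s ⟨x, hx, hxs⟩
    have : x = s • p := turn_injective hp (hxs.trans (turn_smul_self hp s).symm)
    exact hm s (this ▸ hx)
  have h1 : ((0 : ℝ), c) ∈ turn p '' segment ℝ (-(c • p)) (c • p) :=
    ⟨c • p, right_mem_segment ℝ _ _, turn_smul_self hp c⟩
  have h2 : ((0 : ℝ), -c) ∈ turn p '' segment ℝ (-(c • p)) (c • p) := by
    refine ⟨-(c • p), left_mem_segment ℝ _ _, ?_⟩
    rw [← neg_smul, turn_smul_self hp]
  have key := axis_planar hP' hP'c hsym' hS' hS'c hc hm0 hm' h1 h2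
  rw [← Set.image_add, volume_turn_image hp, volume_turn_image hp] at key
  exact key

end Vale.Agent.Lib.P243.Sym
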