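import Mathlib
import Vale.Agent.Lib.P243.Chord
import Vale.Agent.Lib.P243.SymPlanar

open MeasureTheory Set
open scoped ENNReal Pointwise

namespace Vale.Agent.Lib.P243.Sym

open Vale.Agent.Lib.P243.Cyl

variable {K : Set ((ℝ × ℝ) × ℝ)}

theorem lev_neg_mem (hsym : ∀ x ∈ K, -x ∈ K) {t : ℝ} {y : ℝ × ℝ} (hy : y ∈ lev K t) :
    -y ∈ lev K t := by
  obtain ⟨h₁, h₂, m₁, m₂, hle⟩ := hy
  exact ⟨-h₂, -h₁, hsym _ m₂, hsym _ m₁, by linarith⟩

theorem shadow_symm (hsym : ∀ x ∈ K, -x ∈ K) : ∀ y ∈ Prod.fst '' K, -y ∈ Prod.fst '' K := by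
  rintro _ ⟨x, hx, rfl⟩
  exact ⟨-x, hsym x hx, rfl⟩

theorem shadow_convex (hK : Convex ℝ K) : Convex ℝ (Prod.fst '' K) := by
  rw [← lev_zero]
  exact lev_convex hK 0

/-- lower bound for the areas of the level sets of the chord function of a centrally symmetric
convex body below the level of a given chord -/
theorem lev_lower (hK : Convex ℝ K) (hKc : IsCompact K) (hsym : ∀ x ∈ K, -x ∈ K)
    {p : ℝ × ℝ} (hp : p ≠ 0) {h m : ℝ} (hh : 0 < h) (hph : p ∈ lev K h) (hm0 : 0 < m)
    (hm : ∀ s : ℝ, s • p ∈ Prod.fst '' K → s ≤ m) {t : ℝ} (ht0 : 0 < t) (hth : t < h) :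
    ENNReal.ofReal ((1 - t / h) ^ 2 + t / h * (1 - t / h) / m) * volume (Prod.fst '' K)
      ≤ volume (lev K t) := by
  set a : ℝ := t / h with ha
  have ha0 : 0 < a := div_pos ht0 hh
  have ha1 : a < 1 := (div_lt_one hh).mpr hth
  set b : ℝ := 1 - a with hb
  have hb0 : 0 < b := by linarith
  set c : ℝ := a / b with hc
  have hc0 : 0 ≤ c := (div_pos ha0 hb0).le
  have hPc : IsCompact (Prod.fst '' K) := hKc.image continuous_fst
  have hplanar := planar_dir (shadow_convex hK) hPc (shadow_symm hsym) hp hc0 hm0 hm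
  have hseg : segment ℝ (-p) p ⊆ lev K h :=
    (lev_convex hK h).segment_subset (lev_neg_mem hsym hph) hph
  have hsub : b • (Prod.fst '' K + segment ℝ (-(c • p)) (c • p)) ⊆ lev K t := by
    rintro _ ⟨_, ⟨q, hq, s, hs, rfl⟩, rfl⟩
    obtain ⟨α, β, hα, hβ, hαβ, rfl⟩ := hs
    have hs₀ : α • (-p) + β • p ∈ segment ℝ (-p) p := ⟨α, β, hα, hβ, hαβ, rfl⟩
    have hq0 : q ∈ lev K 0 := by
      rw [lev_zero]
      exact hq
    have hmem : a • (α • (-p) + β • p) + b • q ∈ a • lev K h + b • lev K 0 :=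
      Set.add_mem_add (Set.smul_mem_smul_set (hseg hs₀)) (Set.smul_mem_smul_set hq0)
    have hcombo := lev_combo hK ha0.le hb0.le (by rw [hb]; ring) h 0 hmem
    have e1 : a * h + b * 0 = t := by
      rw [ha]
      field_simp
      ring
    have hbc : b * c = a := by
      rw [hc]
      field_simp
    have e2 : b • (q + (α • (-(c • p)) + β • (c • p))) = a • (α • (-p) + β • p) + b • q := by
      rw [← hbc]
      module
    rw [e1] at hcombo
    change b • (q + (α • (-(c • p)) + β • (c • p))) ∈ lev K t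
    rw [e2]
    exact hcombo
  have earith : (1 - a) ^ 2 + a * (1 - a) / m = b ^ 2 * (1 + c / m) := by
    have hb0' : b ≠ 0 := hb0.ne'
    have e3 : b ^ 2 * (1 + a / b / m) = b ^ 2 + a * b / m := by
      field_simp
    rw [hc, e3, hb]
  calc ENNReal.ofReal ((1 - a) ^ 2 + a * (1 - a) / m) * volume (Prod.fst '' K)
      = ENNReal.ofReal (b ^ 2) * (ENNReal.ofReal (1 + c / m) * volume (Prod.fst '' K)) := by
        rw [← mul_assoc, ← ENNReal.ofReal_mul (sq_nonneg b), earith]
    _ ≤ ENNReal.ofReal (b ^ 2) * volume (Prod.fst '' K + segment ℝ (-(c • p)) (c • p)) := by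
        gcongr
    _ = volume (b • (Prod.fst '' K + segment ℝ (-(c • p)) (c • p))) := by
        rw [Measure.addHaar_smul]
        congr 2
        simp [abs_of_nonneg (sq_nonneg b)]
    _ ≤ volume (lev K t) := measure_mono hsub

theorem lintegral_tent_poly {h m : ℝ} (hh : 0 < h) (hm : 0 < m) :
    ∫⁻ t in Ioo 0 h, ENNReal.ofReal ((1 - t / h) ^ 2 + t / h * (1 - t / h) / m)
      = ENNReal.ofReal (h * (1 / 3 + 1 / (6 * m))) := by
  have hcont : Continuous (fun t : ℝ => (1 - t / h) ^ 2 + t / h * (1 - t / h) / m) := by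
    fun_prop
  have hint : IntegrableOn (fun t : ℝ => (1 - t / h) ^ 2 + t / h * (1 - t / h) / m) (Ioc 0 h) :=
    (hcont.integrableOn_Icc).mono_set Ioc_subset_Icc_self
  have hnn : ∀ᵐ t ∂(volume.restrict (Ioc 0 h)),
      0 ≤ (1 - t / h) ^ 2 + t / h * (1 - t / h) / m := by
    filter_upwards [ae_restrict_mem measurableSet_Ioc] with t ht
    have h1 : 0 ≤ t / h := div_nonneg ht.1.le hh.le
    have h2 : t / h ≤ 1 := (div_le_one hh).mpr ht.2
    have h3 : 0 ≤ t / h * (1 - t / h) / m := div_nonneg (mul_nonneg h1 (by linarith)) hm.le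
    nlinarith [sq_nonneg (1 - t / h)]
  rw [setLIntegral_congr (Ioo_ae_eq_Ioc (a := (0 : ℝ)) (b := h) (μ := volume))]
  have h1 := ofReal_integral_eq_lintegral_ofReal hint hnn
  rw [← h1, ← intervalIntegral.integral_of_le hh.le]
  congr 1
  have hd : ∀ x ∈ Set.uIcc 0 h,
      HasDerivAt (fun t : ℝ => t - t ^ 2 / h + t ^ 3 / (3 * h ^ 2)
          + (t ^ 2 / (2 * h) - t ^ 3 / (3 * h ^ 2)) / m)
        ((1 - x / h) ^ 2 + x / h * (1 - x / h) / m) x := by
    intro x _
    have h1 : HasDerivAt (fun t : ℝ => t) 1 x := hasDerivAt_id x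
    have h2 : HasDerivAt (fun t : ℝ => t ^ 2) (2 * x) x := by
      simpa using hasDerivAt_pow 2 x
    have h3 : HasDerivAt (fun t : ℝ => t ^ 3) (3 * x ^ 2) x := by
      simpa using hasDerivAt_pow 3 x
    have h4 := ((h1.sub (h2.div_const h)).add (h3.div_const (3 * h ^ 2))).add
      (((h2.div_const (2 * h)).sub (h3.div_const (3 * h ^ 2))).div_const m)
    refine h4.congr_deriv ?_
    field_simp
    ring
  rw [intervalIntegral.integral_eq_sub_of_hasDerivAt hd (hcont.intervalIntegrable _ _)]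
  field_simp
  ring

/-- Sharpened tent inequality for centrally symmetric convex bodies: if the ray through a point
`p` of the shadow leaves the shadow at `m • p`, then the chord over `p` has length at most
`6 V / ((2 + 1 / m) A)`, where `V` is the volume and `A` the area of the shadow. -/
theorem tent_sym (hK : Convex ℝ K) (hKc : IsCompact K) (hsym : ∀ x ∈ K, -x ∈ K)
    {p : ℝ × ℝ} (hp : p ≠ 0) {m : ℝ} (hm0 : 0 < m)
    (hm : ∀ s : ℝ, s • p ∈ Prod.fst '' K → s ≤ m) (hpos : 0 < chord K p) :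
    ENNReal.ofReal (chord K p * (1 / 3 + 1 / (6 * m))) * volume (Prod.fst '' K) ≤ volume K := by
  have hph : p ∈ lev K (chord K p) := (mem_lev_iff_of_pos hK hKc hpos p).mpr le_rfl
  have hfin : volume (Prod.fst '' K) ≠ ⊤ := (hKc.image continuous_fst).measure_lt_top.ne
  rw [volume_eq_lintegral_lev hK hKc, ← lintegral_tent_poly hpos hm0,
    ← lintegral_mul_const' _ _ hfin]
  calc ∫⁻ t in Ioo 0 (chord K p), ENNReal.ofReal ((1 - t / chord K p) ^ 2
          + t / chord K p * (1 - t / chord K p) / m) * volume (Prod.fst '' K)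
      ≤ ∫⁻ t in Ioo 0 (chord K p), volume (lev K t) :=
        setLIntegral_mono' measurableSet_Ioo
          (fun t ht => lev_lower hK hKc hsym hp hpos hph hm0 hm ht.1 ht.2)
    _ ≤ ∫⁻ t in Ioi 0, volume (lev K t) := lintegral_mono_set Ioo_subset_Ioi_self

end Vale.Agent.Lib.P243.Sym
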