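import Mathlib
import Vale.Agent.Lib.P243.SymTent

open MeasureTheory Set
open scoped ENNReal Pointwise

namespace Vale.Agent.Lib.P243.Sym

open Vale.Agent.Lib.P243.Cyl

variable {K : Set ((ℝ × ℝ) × ℝ)}

/-- volume of the part of a compact set inside a cylinder as the integral of the chord lengths
over the base -/
theorem volume_inter_cyl_chord (hKc : IsCompact K) {B : Set (ℝ × ℝ)} (hB : MeasurableSet B) :
    volume (K ∩ Prod.fst ⁻¹' B) = ∫⁻ y in B, ENNReal.ofReal (chord K y) := by
  have hms : MeasurableSet (K ∩ Prod.fst ⁻¹' B) := hKc.measurableSet.inter (measurable_fst hB)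
  rw [Measure.volume_eq_prod (ℝ × ℝ) ℝ, Measure.prod_apply hms]
  have h1 : ∀ y, volume (Prod.mk y ⁻¹' (K ∩ Prod.fst ⁻¹' B))
      = B.indicator (fun y => ENNReal.ofReal (chord K y)) y := by
    intro y
    by_cases hy : y ∈ B
    · have e : Prod.mk y ⁻¹' (K ∩ Prod.fst ⁻¹' B) = Prod.mk y ⁻¹' K := by
        ext h
        simp [hy]
      rw [e, indicator_of_mem hy, chord,
        ENNReal.ofReal_toReal (fibre_compact hKc y).measure_lt_top.ne]
    · have e : Prod.mk y ⁻¹' (K ∩ Prod.fst ⁻¹' B) = ∅ := by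
        ext h
        simp [hy]
      rw [e, indicator_of_notMem hy, measure_empty]
  simp_rw [h1]
  rw [lintegral_indicator hB]

/-- chords of a dilate -/
theorem chord_smul (K : Set ((ℝ × ℝ) × ℝ)) {t : ℝ} (ht : 0 < t) (y : ℝ × ℝ) :
    chord (t • K) y = t * chord K (t⁻¹ • y) := by
  have e : Prod.mk y ⁻¹' (t • K) = t • (Prod.mk (t⁻¹ • y) ⁻¹' K) := by
    ext h
    rw [mem_preimage, mem_smul_set_iff_inv_smul_mem₀ ht.ne',
      mem_smul_set_iff_inv_smul_mem₀ ht.ne', mem_preimage]
    rfl
  unfold chord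
  rw [e, Measure.addHaar_smul, ENNReal.toReal_mul, ENNReal.toReal_ofReal (abs_nonneg _)]
  simp [abs_of_pos ht]

/-- the chord function is concave towards points of the shadow -/
theorem chord_combo_ge (hK : Convex ℝ K) (hKc : IsCompact K) {y₁ y₂ : ℝ × ℝ}
    (hy₂ : y₂ ∈ Prod.fst '' K) {a b : ℝ} (ha : 0 ≤ a) (hb : 0 ≤ b) (hab : a + b = 1) :
    a * chord K y₁ ≤ chord K (a • y₁ + b • y₂) := by
  by_cases hne : (Prod.mk y₁ ⁻¹' K).Nonempty
  · obtain ⟨h₁, h₂, m₁, m₂, he⟩ := exists_chord_ends hK hKc hne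
    obtain ⟨x, hx, rfl⟩ := hy₂
    have k1 : (a • y₁ + b • x.1, a * h₁ + b * x.2) ∈ K := hK m₁ hx ha hb hab
    have k2 : (a • y₁ + b • x.1, a * h₂ + b * x.2) ∈ K := hK m₂ hx ha hb hab
    have h := chord_ge_of_mem hK hKc k1 k2
    rw [he]
    linarith
  · rw [not_nonempty_iff_eq_empty] at hne
    have h0 : chord K y₁ = 0 := by simp [chord, hne]
    rw [h0, mul_zero]
    exact chord_nonneg K _

theorem lintegral_ray_poly {h m : ℝ} (hh : 0 ≤ h) (hm : 1 < m) :
    ∫⁻ t in Ioo (1 / m) 1, ENNReal.ofReal (h * ((m * t - 1) / (m - 1)))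
      = ENNReal.ofReal (h * ((m - 1) / (2 * m))) := by
  have hm0 : 0 < m := by linarith
  have hle : 1 / m ≤ 1 := by
    rw [div_le_one hm0]
    exact hm.le
  have hcont : Continuous (fun t : ℝ => h * ((m * t - 1) / (m - 1))) := by fun_prop
  have hint : IntegrableOn (fun t : ℝ => h * ((m * t - 1) / (m - 1))) (Ioc (1 / m) 1) :=
    (hcont.integrableOn_Icc).mono_set Ioc_subset_Icc_self
  have hnn : ∀ᵐ t ∂(volume.restrict (Ioc (1 / m) 1)), 0 ≤ h * ((m * t - 1) / (m - 1)) := by
    filter_upwards [ae_restrict_mem measurableSet_Ioc] with t ht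
    have h1 : 1 < m * t := by
      have := ht.1
      rw [div_lt_iff₀ hm0] at this
      linarith
    exact mul_nonneg hh (div_nonneg (by linarith) (by linarith))
  rw [setLIntegral_congr (Ioo_ae_eq_Ioc (a := 1 / m) (b := (1 : ℝ)) (μ := volume))]
  have h1 := ofReal_integral_eq_lintegral_ofReal hint hnn
  rw [← h1, ← intervalIntegral.integral_of_le hle]
  congr 1
  have hd : ∀ x ∈ Set.uIcc (1 / m) 1,
      HasDerivAt (fun t : ℝ => h * ((m * t ^ 2 / 2 - t) / (m - 1)))
        (h * ((m * x - 1) / (m - 1))) x := by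
    intro x _
    have h1 : HasDerivAt (fun t : ℝ => t) 1 x := hasDerivAt_id x
    have h2 : HasDerivAt (fun t : ℝ => t ^ 2) (2 * x) x := by
      simpa using hasDerivAt_pow 2 x
    have h4 := ((((h2.const_mul m).div_const 2).sub h1).div_const (m - 1)).const_mul h
    refine h4.congr_deriv ?_
    ring
  rw [intervalIntegral.integral_eq_sub_of_hasDerivAt hd (hcont.intervalIntegrable _ _)]
  have hm1 : m - 1 ≠ 0 := by linarith
  field_simp
  ring

/-- mass of the dilates over a point `p` of the shadow: concavity of the chord function on the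
ray from `p` to the boundary point `m • p` of the shadow -/
theorem ray_lintegral_ge (hK : Convex ℝ K) (hKc : IsCompact K) {p : ℝ × ℝ} {m : ℝ}
    (hm1 : 1 ≤ m) (hmp : m • p ∈ Prod.fst '' K) :
    ENNReal.ofReal (chord K p * ((m - 1) / (2 * m)))
      ≤ ∫⁻ t in Ioo (0 : ℝ) 1, ENNReal.ofReal (t * chord K (t⁻¹ • p)) := by
  rcases hm1.eq_or_lt with h1 | h1
  · rw [← h1]
    simp
  · have hm0 : 0 < m := by linarith
    have hlow : ∀ t ∈ Ioo (1 / m) 1,
        chord K p * ((m * t - 1) / (m - 1)) ≤ t * chord K (t⁻¹ • p) := by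
      intro t ht
      have ht0 : 0 < t := lt_trans (by positivity) ht.1
      have hmt : 1 < m * t := by
        have := ht.1
        rw [div_lt_iff₀ hm0] at this
        linarith
      have htinv : t⁻¹ ≤ m := by
        rw [inv_le_comm₀ ht0 hm0, ← one_div]
        exact ht.1.le
      have htinv1 : 1 ≤ t⁻¹ := (one_le_inv₀ ht0).mpr ht.2.le
      have hl0 : 0 ≤ (m - t⁻¹) / (m - 1) := div_nonneg (by linarith) (by linarith)
      have hl1 : 0 ≤ (t⁻¹ - 1) / (m - 1) := div_nonneg (by linarith) (by linarith)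
      have hm1' : m - 1 ≠ 0 := by linarith
      have hsum : (m - t⁻¹) / (m - 1) + (t⁻¹ - 1) / (m - 1) = 1 := by
        field_simp
        ring
      have hcomb := chord_combo_ge hK hKc (y₁ := p) hmp hl0 hl1 hsum
      have e : ((m - t⁻¹) / (m - 1)) • p + ((t⁻¹ - 1) / (m - 1)) • (m • p) = t⁻¹ • p := by
        rw [smul_smul, ← add_smul]
        congr 1
        field_simp
        ring
      rw [e] at hcomb
      calc chord K p * ((m * t - 1) / (m - 1))
          = t * ((m - t⁻¹) / (m - 1) * chord K p) := by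
            field_simp
        _ ≤ t * chord K (t⁻¹ • p) := mul_le_mul_of_nonneg_left hcomb ht0.le
    calc ENNReal.ofReal (chord K p * ((m - 1) / (2 * m)))
        = ∫⁻ t in Ioo (1 / m) 1, ENNReal.ofReal (chord K p * ((m * t - 1) / (m - 1))) :=
          (lintegral_ray_poly (chord_nonneg K p) h1).symm
      _ ≤ ∫⁻ t in Ioo (1 / m) 1, ENNReal.ofReal (t * chord K (t⁻¹ • p)) :=
          setLIntegral_mono' measurableSet_Ioo
            (fun t ht => ENNReal.ofReal_le_ofReal (hlow t ht))
      _ ≤ ∫⁻ t in Ioo (0 : ℝ) 1, ENNReal.ofReal (t * chord K (t⁻¹ • p)) :=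
          lintegral_mono_set (Ioo_subset_Ioo_left (by positivity))

/-- the ray through a nonzero point of the shadow leaves the shadow -/
theorem exists_ray_max (hKc : IsCompact K) {p : ℝ × ℝ} (hp : p ≠ 0)
    (hpP : p ∈ Prod.fst '' K) :
    ∃ m : ℝ, 1 ≤ m ∧ m • p ∈ Prod.fst '' K ∧ ∀ s : ℝ, s • p ∈ Prod.fst '' K → s ≤ m := by
  have hPc : IsCompact (Prod.fst '' K) := hKc.image continuous_fst
  have hAcl : IsClosed ((fun s : ℝ => s • p) ⁻¹' (Prod.fst '' K)) :=
    hPc.isClosed.preimage (by fun_prop)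
  have h1A : (1 : ℝ) ∈ (fun s : ℝ => s • p) ⁻¹' (Prod.fst '' K) := by
    rw [mem_preimage, one_smul]
    exact hpP
  have hbdd : BddAbove ((fun s : ℝ => s • p) ⁻¹' (Prod.fst '' K)) := by
    obtain ⟨R, hR⟩ := hPc.isBounded.exists_norm_le
    refine ⟨R / ‖p‖, fun s hs => ?_⟩
    have h := hR _ hs
    rw [norm_smul, Real.norm_eq_abs] at h
    have hpn : 0 < ‖p‖ := norm_pos_iff.mpr hp
    rw [le_div_iff₀ hpn]
    exact (mul_le_mul_of_nonneg_right (le_abs_self s) hpn.le).trans h
  exact ⟨sSup ((fun s : ℝ => s • p) ⁻¹' (Prod.fst '' K)), le_csSup hbdd h1A,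
    hAcl.csSup_mem ⟨1, h1A⟩ hbdd, fun s hs => le_csSup hbdd hs⟩

/-- the pointwise inequality behind the dual measure -/
theorem pointwise_sym (hK : Convex ℝ K) (hKc : IsCompact K) (hsym : ∀ x ∈ K, -x ∈ K)
    (hpos : 0 < volume (Prod.fst '' K)) {p : ℝ × ℝ} (hp : p ≠ 0) :
    3 * ENNReal.ofReal (chord K p)
      ≤ 2 * (∫⁻ t in Ioo (0 : ℝ) 1, ENNReal.ofReal (t * chord K (t⁻¹ • p)))
        + ENNReal.ofReal (6 * (volume K).toReal / (volume (Prod.fst '' K)).toReal) := by
  rcases (chord_nonneg K p).eq_or_lt with h0 | h0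
  · rw [← h0]
    simp
  · have hpP : p ∈ Prod.fst '' K := by
      by_contra hcon
      have hemp : Prod.mk p ⁻¹' K = ∅ := by
        ext h
        simp only [mem_preimage, mem_empty_iff_false, iff_false]
        exact fun hh => hcon ⟨(p, h), hh, rfl⟩
      have : chord K p = 0 := by simp [chord, hemp]
      linarith
    obtain ⟨m, hm1, hmp, hmax⟩ := exists_ray_max hKc hp hpP
    have hm0 : 0 < m := by linarith
    have hray := ray_lintegral_ge hK hKc hm1 hmp
    have htent := tent_sym hK hKc hsym hp hm0 hmax h0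
    have hAfin : volume (Prod.fst '' K) ≠ ⊤ := (hKc.image continuous_fst).measure_lt_top.ne
    have hVfin : volume K ≠ ⊤ := hKc.measure_lt_top.ne
    have hA0 : 0 < (volume (Prod.fst '' K)).toReal := ENNReal.toReal_pos hpos.ne' hAfin
    have hc0 : 0 ≤ chord K p * (1 / 3 + 1 / (6 * m)) := by positivity
    have hreal : chord K p * (1 / 3 + 1 / (6 * m)) * (volume (Prod.fst '' K)).toReal
        ≤ (volume K).toReal := by
      have := ENNReal.toReal_mono hVfin htent
      rw [ENNReal.toReal_mul, ENNReal.toReal_ofReal hc0] at this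
      exact this
    have hr0 : 0 ≤ chord K p * ((m - 1) / (2 * m)) :=
      mul_nonneg h0.le (div_nonneg (by linarith) (by linarith))
    have hkey : 3 * chord K p
        ≤ 2 * (chord K p * ((m - 1) / (2 * m)))
          + 6 * (volume K).toReal / (volume (Prod.fst '' K)).toReal := by
      have h2 : chord K p * (2 + 1 / m)
          ≤ 6 * (volume K).toReal / (volume (Prod.fst '' K)).toReal := by
        rw [le_div_iff₀ hA0]
        have e : chord K p * (2 + 1 / m) * (volume (Prod.fst '' K)).toReal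
            = 6 * (chord K p * (1 / 3 + 1 / (6 * m)) * (volume (Prod.fst '' K)).toReal) := by
          field_simp
          ring
        rw [e]
        linarith
      have e2 : 3 * chord K p
          = 2 * (chord K p * ((m - 1) / (2 * m))) + chord K p * (2 + 1 / m) := by
        field_simp
        ring
      linarith
    have hq0 : 0 ≤ 6 * (volume K).toReal / (volume (Prod.fst '' K)).toReal := by positivity
    calc 3 * ENNReal.ofReal (chord K p) = ENNReal.ofReal (3 * chord K p) := by
          rw [ENNReal.ofReal_mul (by norm_num)]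
          norm_num
      _ ≤ ENNReal.ofReal (2 * (chord K p * ((m - 1) / (2 * m)))
            + 6 * (volume K).toReal / (volume (Prod.fst '' K)).toReal) :=
          ENNReal.ofReal_le_ofReal hkey
      _ = 2 * ENNReal.ofReal (chord K p * ((m - 1) / (2 * m)))
            + ENNReal.ofReal (6 * (volume K).toReal / (volume (Prod.fst '' K)).toReal) := by
          rw [ENNReal.ofReal_add (by positivity) hq0, ENNReal.ofReal_mul (by norm_num)]
          norm_num
      _ ≤ _ := by gcongr

/-- Per-cylinder inequality in product coordinates: for a centrally symmetric convex body `K`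
and the cylinder over a measurable base `B`, three times the volume of the part of `K` in the
cylinder is at most twice the integrated volume of the parts of the dilates `t • K`,
`0 < t < 1`, in the cylinder, plus `6 V / A` times the area of the base. -/
theorem cyl_sym (hK : Convex ℝ K) (hKc : IsCompact K) (hsym : ∀ x ∈ K, -x ∈ K)
    (hpos : 0 < volume (Prod.fst '' K)) {B : Set (ℝ × ℝ)} (hB : MeasurableSet B) :
    3 * volume (K ∩ Prod.fst ⁻¹' B)
      ≤ 2 * (∫⁻ t in Ioo (0 : ℝ) 1, volume ((t • K) ∩ Prod.fst ⁻¹' B))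
        + ENNReal.ofReal (6 * (volume K).toReal / (volume (Prod.fst '' K)).toReal)
          * volume B := by
  have e1 : ∫⁻ t in Ioo (0 : ℝ) 1, volume ((t • K) ∩ Prod.fst ⁻¹' B)
      = ∫⁻ t in Ioo (0 : ℝ) 1, ∫⁻ y in B, ENNReal.ofReal (t * chord K (t⁻¹ • y)) := by
    refine setLIntegral_congr_fun measurableSet_Ioo (fun t ht => ?_)
    rw [volume_inter_cyl_chord (hKc.smul t) hB]
    refine lintegral_congr (fun y => ?_)
    rw [chord_smul K ht.1]
  have hmeas : Measurable
      (fun q : ℝ × (ℝ × ℝ) => ENNReal.ofReal (q.1 * chord K (q.1⁻¹ • q.2))) := by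
    have h1 : Measurable (fun q : ℝ × (ℝ × ℝ) => q.1⁻¹ • q.2) :=
      measurable_fst.inv.smul measurable_snd
    exact ENNReal.measurable_ofReal.comp
      (measurable_fst.mul ((chord_measurable hKc).comp h1))
  have e2 : ∫⁻ t in Ioo (0 : ℝ) 1, ∫⁻ y in B, ENNReal.ofReal (t * chord K (t⁻¹ • y))
      = ∫⁻ y in B, ∫⁻ t in Ioo (0 : ℝ) 1, ENNReal.ofReal (t * chord K (t⁻¹ • y)) :=
    lintegral_lintegral_swap (f := fun (t : ℝ) (y : ℝ × ℝ) =>
      ENNReal.ofReal (t * chord K (t⁻¹ • y))) hmeas.aemeasurable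
  have hne : ∀ᵐ y ∂(volume.restrict B), y ≠ (0 : ℝ × ℝ) := by
    refine ae_restrict_of_ae ?_
    exact compl_mem_ae_iff.mpr (measure_singleton (0 : ℝ × ℝ))
  rw [e1, e2, volume_inter_cyl_chord hKc hB, ← lintegral_const_mul' _ _ (by norm_num),
    ← lintegral_const_mul' _ _ (by norm_num), ← setLIntegral_const,
    ← lintegral_add_right _ measurable_const]
  refine lintegral_mono_ae ?_
  filter_upwards [hne] with y hy
  exact pointwise_sym hK hKc hsym hpos hy

end Vale.Agent.Lib.P243.Sym
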