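import Mathlib
import Vale.Agent.Lib.P243.SymChord
import Vale.Agent.Lib.P243.Count

open MeasureTheory Set
open scoped ENNReal Pointwise
open Vale.Agent.Lib.Helper4.Bang (dot coords)

namespace Vale.Agent.Lib.P243.Sym

open Vale.Agent.Lib.P243.Cyl

/-- the projection of a body of positive volume has positive area -/
theorem shadow_pos_frame {K : Set (ℝ × ℝ × ℝ)} (hvol : 0 < volume K) {e f : ℝ × ℝ × ℝ}
    (h : dot e e = 1 ∧ dot f f = 1 ∧ dot e f = 0) : 0 < volume (coords e f '' K) := by
  have hc0 : ENNReal.ofReal |LinearMap.det (frameL e f)| ≠ 0 := by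
    rw [Ne, ENNReal.ofReal_eq_zero, not_le]
    exact abs_pos.mpr (frameL_det_ne_zero h)
  have hfst : Prod.fst '' (frameM e f '' K) = coords e f '' K := by
    rw [image_image]
    rfl
  rw [← hfst]
  by_contra hcon
  have hz : volume (Prod.fst '' (frameM e f '' K)) = 0 := le_antisymm (not_lt.mp hcon) zero_le
  have hsub : frameM e f '' K
      ⊆ (Prod.fst '' (frameM e f '' K)) ×ˢ (Prod.snd '' (frameM e f '' K)) :=
    fun p hp => ⟨⟨p, hp, rfl⟩, ⟨p, hp, rfl⟩⟩
  have hle := measure_mono (μ := volume) hsub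
  rw [Measure.volume_eq_prod, Measure.prod_prod, hz, zero_mul] at hle
  have hz' : volume (frameM e f '' K) = 0 := le_antisymm hle zero_le
  rw [volume_frameM_image] at hz'
  rcases mul_eq_zero.mp hz' with h0 | h0
  · exact hc0 h0
  · exact hvol.ne' h0

/-- Per-cylinder inequality in a frame: for a centrally symmetric convex body `K` and the
cylinder with measurable base `B` (in the coordinates of the orthonormal pair `e`, `f`), three
times the volume of the part of `K` in the cylinder is at most twice the integrated volume of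
the parts of the dilates `t • K`, `0 < t < 1`, in the cylinder, plus `6 V / A` times the area
of the base, where `V` is the volume of `K` and `A` the area of its projection. -/
theorem cyl_sym_frame {K : Set (ℝ × ℝ × ℝ)} (hconv : Convex ℝ K) (hcomp : IsCompact K)
    (hsym : ∀ x ∈ K, -x ∈ K) (hvol : 0 < volume K) {e f : ℝ × ℝ × ℝ}
    (h : dot e e = 1 ∧ dot f f = 1 ∧ dot e f = 0) {B : Set (ℝ × ℝ)} (hB : MeasurableSet B) :
    3 * volume (K ∩ coords e f ⁻¹' B)
      ≤ 2 * (∫⁻ t in Ioo (0 : ℝ) 1, volume ((t • K) ∩ coords e f ⁻¹' B))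
        + ENNReal.ofReal (6 * (volume K).toReal / (volume (coords e f '' K)).toReal)
          * volume B := by
  have hd0 : 0 < |LinearMap.det (frameL e f)| := abs_pos.mpr (frameL_det_ne_zero h)
  have hc0 : ENNReal.ofReal |LinearMap.det (frameL e f)| ≠ 0 := by
    rw [Ne, ENNReal.ofReal_eq_zero, not_le]
    exact hd0
  have hc1 : ENNReal.ofReal |LinearMap.det (frameL e f)| ≠ ⊤ := ENNReal.ofReal_ne_top
  have hK'conv : Convex ℝ (frameM e f '' K) := hconv.linear_image (frameM e f)
  have hK'comp : IsCompact (frameM e f '' K) :=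
    hcomp.image (LinearMap.continuous_of_finiteDimensional (frameM e f))
  have hK'sym : ∀ x ∈ frameM e f '' K, -x ∈ frameM e f '' K := by
    rintro _ ⟨x, hx, rfl⟩
    exact ⟨-x, hsym x hx, map_neg _ _⟩
  have hfst : Prod.fst '' (frameM e f '' K) = coords e f '' K := by
    rw [image_image]
    rfl
  have hpos : 0 < volume (Prod.fst '' (frameM e f '' K)) := by
    rw [hfst]
    exact shadow_pos_frame hvol h
  have hmain := cyl_sym hK'conv hK'comp hK'sym hpos hB
  have himg : ∀ S : Set (ℝ × ℝ × ℝ),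
      frameM e f '' (S ∩ coords e f ⁻¹' B) = frameM e f '' S ∩ Prod.fst ⁻¹' B := by
    intro S
    have : coords e f ⁻¹' B = frameM e f ⁻¹' (Prod.fst ⁻¹' B) := rfl
    rw [this, image_inter_preimage]
  have e1 : volume (frameM e f '' K ∩ Prod.fst ⁻¹' B)
      = ENNReal.ofReal |LinearMap.det (frameL e f)| * volume (K ∩ coords e f ⁻¹' B) := by
    rw [← himg, volume_frameM_image]
  have e2 : ∀ t : ℝ, volume (t • (frameM e f '' K) ∩ Prod.fst ⁻¹' B)
      = ENNReal.ofReal |LinearMap.det (frameL e f)| * volume (t • K ∩ coords e f ⁻¹' B) := by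
    intro t
    rw [← image_smul_set, ← himg, volume_frameM_image]
  have e3 : ENNReal.ofReal (6 * (volume (frameM e f '' K)).toReal
        / (volume (Prod.fst '' (frameM e f '' K))).toReal)
      = ENNReal.ofReal |LinearMap.det (frameL e f)|
        * ENNReal.ofReal (6 * (volume K).toReal / (volume (coords e f '' K)).toReal) := by
    rw [hfst, volume_frameM_image, ENNReal.toReal_mul, ENNReal.toReal_ofReal hd0.le,
      ← ENNReal.ofReal_mul hd0.le]
    congr 1
    ring
  rw [e1, e3] at hmain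
  simp_rw [e2] at hmain
  rw [lintegral_const_mul' _ _ hc1] at hmain
  have hmain' : ENNReal.ofReal |LinearMap.det (frameL e f)| * (3 * volume (K ∩ coords e f ⁻¹' B))
      ≤ ENNReal.ofReal |LinearMap.det (frameL e f)|
        * (2 * (∫⁻ t in Ioo (0 : ℝ) 1, volume ((t • K) ∩ coords e f ⁻¹' B))
          + ENNReal.ofReal (6 * (volume K).toReal / (volume (coords e f '' K)).toReal)
            * volume B) := by
    calc ENNReal.ofReal |LinearMap.det (frameL e f)| * (3 * volume (K ∩ coords e f ⁻¹' B))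
        = 3 * (ENNReal.ofReal |LinearMap.det (frameL e f)| * volume (K ∩ coords e f ⁻¹' B)) := by
          ring
      _ ≤ _ := hmain
      _ = _ := by ring
  exact (ENNReal.mul_le_mul_iff_right hc0 hc1).mp hmain'

theorem aemeas_diff {K : Set (ℝ × ℝ × ℝ)} (A : Set (ℝ × ℝ × ℝ))
    (hmono : ∀ s t : ℝ, 0 < s → s ≤ t → s • K ⊆ t • K) :
    AEMeasurable (fun t : ℝ => volume (A \ t • K)) (volume.restrict (Ioo (0 : ℝ) 1)) := by
  refine aemeasurable_restrict_of_antitoneOn measurableSet_Ioo ?_
  intro s hs t _ hst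
  exact measure_mono (sdiff_subset_sdiff_right (hmono s t hs.1 hst))

theorem diff_split {K : Set (ℝ × ℝ × ℝ)} (A : Set (ℝ × ℝ × ℝ))
    (hsm : ∀ t : ℝ, MeasurableSet (t • K))
    (hmono : ∀ s t : ℝ, 0 < s → s ≤ t → s • K ⊆ t • K) :
    (∫⁻ t in Ioo (0 : ℝ) 1, volume (A \ t • K)) + ∫⁻ t in Ioo (0 : ℝ) 1, volume (A ∩ t • K)
      = volume A := by
  rw [← lintegral_add_left' (aemeas_diff A hmono)]
  have h : ∀ t : ℝ, volume (A \ t • K) + volume (A ∩ t • K) = volume A :=
    fun t => measure_sdiff_add_inter A (hsm t)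
  simp_rw [h]
  rw [setLIntegral_const, Real.volume_Ioo]
  simp

theorem lintegral_cube :
    ∫⁻ t in Ioo (0 : ℝ) 1, ENNReal.ofReal (t ^ 3) = ENNReal.ofReal (1 / 4) := by
  have hcont : Continuous (fun t : ℝ => t ^ 3) := by fun_prop
  have hint : IntegrableOn (fun t : ℝ => t ^ 3) (Ioc 0 1) :=
    (hcont.integrableOn_Icc).mono_set Ioc_subset_Icc_self
  have hnn : ∀ᵐ t ∂(volume.restrict (Ioc (0 : ℝ) 1)), 0 ≤ t ^ 3 := by
    filter_upwards [ae_restrict_mem measurableSet_Ioc] with t ht
    exact pow_nonneg ht.1.le 3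
  rw [setLIntegral_congr (Ioo_ae_eq_Ioc (a := (0 : ℝ)) (b := (1 : ℝ)) (μ := volume))]
  have h1 := ofReal_integral_eq_lintegral_ofReal hint hnn
  rw [← h1, ← intervalIntegral.integral_of_le zero_le_one]
  congr 1
  rw [integral_pow]
  norm_num

/-- Cylinder coverings of a centrally symmetric convex body: the directionwise relative area of
every finite covering is at least `5 / 12`. -/
theorem sym_cover (K : Set (ℝ × ℝ × ℝ)) (hconv : Convex ℝ K) (hcomp : IsCompact K)
    (hint : (interior K).Nonempty) (hsym : ∀ x ∈ K, -x ∈ K) (m : ℕ)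
    (e f : Fin m → ℝ × ℝ × ℝ)
    (horth : ∀ i, dot (e i) (e i) = 1 ∧ dot (f i) (f i) = 1 ∧ dot (e i) (f i) = 0)
    (B : Fin m → Set (ℝ × ℝ))
    (hcover : ∀ x ∈ K, ∃ i, coords (e i) (f i) x ∈ B i) :
    ENNReal.ofReal (5 / 12) ≤ ∑ i, volume (B i) / volume (coords (e i) (f i) '' K) := by
  have hhaar : (volume : Measure (ℝ × ℝ × ℝ)).IsAddHaarMeasure :=
    Measure.prod.instIsAddHaarMeasure (volume : Measure ℝ) (volume : Measure (ℝ × ℝ))
  have hvol : 0 < volume K :=
    lt_of_lt_of_le (isOpen_interior.measure_pos volume hint) (measure_mono interior_subset)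
  have hfin : volume K ≠ ⊤ := hcomp.measure_lt_top.ne
  have h0K : (0 : ℝ × ℝ × ℝ) ∈ K := by
    obtain ⟨x, hx⟩ := hint
    have hx' := interior_subset hx
    have h := hconv hx' (hsym x hx') (by norm_num : (0 : ℝ) ≤ 1 / 2)
      (by norm_num : (0 : ℝ) ≤ 1 / 2) (by norm_num)
    have e0 : (1 / 2 : ℝ) • x + (1 / 2 : ℝ) • (-x) = 0 := by
      rw [smul_neg, add_neg_cancel]
    rw [e0] at h
    exact h
  have hsubK : ∀ t ∈ Ioo (0 : ℝ) 1, t • K ⊆ K := by
    rintro t ht _ ⟨x, hx, rfl⟩
    exact hconv.smul_mem_of_zero_mem h0K hx ⟨ht.1.le, ht.2.le⟩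
  have hmono : ∀ s t : ℝ, 0 < s → s ≤ t → s • K ⊆ t • K := by
    rintro s t hs hst _ ⟨x, hx, rfl⟩
    have ht : 0 < t := lt_of_lt_of_le hs hst
    refine ⟨(s / t) • x,
      hconv.smul_mem_of_zero_mem h0K hx ⟨by positivity, (div_le_one ht).mpr hst⟩, ?_⟩
    change t • (s / t) • x = s • x
    rw [smul_smul, mul_div_cancel₀ _ ht.ne']
  have hsm : ∀ t : ℝ, MeasurableSet (t • K) := fun t => (hcomp.smul t).measurableSet
  -- measurable hulls of the bases
  have hB'm : ∀ i, MeasurableSet (toMeasurable volume (B i)) :=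
    fun i => measurableSet_toMeasurable _ _
  have hB'v : ∀ i, volume (toMeasurable volume (B i)) = volume (B i) :=
    fun i => measure_toMeasurable _
  set C : Fin m → Set (ℝ × ℝ × ℝ) :=
    fun i => K ∩ coords (e i) (f i) ⁻¹' toMeasurable volume (B i) with hC
  have hKsub : K ⊆ ⋃ i ∈ (Finset.univ : Finset (Fin m)), C i := by
    intro x hx
    obtain ⟨i, hi⟩ := hcover x hx
    exact mem_biUnion (Finset.mem_univ i) ⟨hx, subset_toMeasurable _ _ hi⟩
  have hV : volume K ≤ ∑ i, volume (C i) :=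
    (measure_mono hKsub).trans (measure_biUnion_finset_le _ _)
  have hJ : ∫⁻ t in Ioo (0 : ℝ) 1, volume (K \ t • K)
      ≤ ∑ i, ∫⁻ t in Ioo (0 : ℝ) 1, volume (C i \ t • K) := by
    rw [← lintegral_finsetSum' _ (fun i _ => aemeas_diff (C i) hmono)]
    refine lintegral_mono (fun t => ?_)
    have hsub : K \ t • K ⊆ ⋃ i ∈ (Finset.univ : Finset (Fin m)), (C i \ t • K) := by
      rintro x ⟨hx, hxt⟩
      obtain ⟨i, hi, hxi⟩ := mem_iUnion₂.mp (hKsub hx)
      exact mem_biUnion hi ⟨hxi, hxt⟩
    exact (measure_mono hsub).trans (measure_biUnion_finset_le _ _)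
  have hJK : (∫⁻ t in Ioo (0 : ℝ) 1, volume (K \ t • K)) + ENNReal.ofReal (1 / 4) * volume K
      = volume K := by
    have h := diff_split K hsm hmono
    have e1 : ∫⁻ t in Ioo (0 : ℝ) 1, volume (K ∩ t • K)
        = ENNReal.ofReal (1 / 4) * volume K := by
      rw [← lintegral_cube, ← lintegral_mul_const' _ _ hfin]
      refine setLIntegral_congr_fun measurableSet_Ioo (fun t ht => ?_)
      rw [inter_eq_right.mpr (hsubK t ht), Measure.addHaar_smul]
      congr 2
      have hfr : Module.finrank ℝ (ℝ × ℝ × ℝ) = 3 := by simp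
      rw [hfr, abs_of_nonneg (pow_nonneg ht.1.le 3)]
    rw [e1] at h
    exact h
  have hper : ∀ i, volume (C i) + 2 * (∫⁻ t in Ioo (0 : ℝ) 1, volume (C i \ t • K))
      ≤ ENNReal.ofReal (6 * (volume K).toReal)
        * (volume (B i) / volume (coords (e i) (f i) '' K)) := by
    intro i
    have hsplit := diff_split (C i) hsm hmono
    have hcyl := cyl_sym_frame hconv hcomp hsym hvol (horth i) (hB'm i)
    have e1 : ∫⁻ t in Ioo (0 : ℝ) 1, volume (C i ∩ t • K)
        = ∫⁻ t in Ioo (0 : ℝ) 1,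
          volume (t • K ∩ coords (e i) (f i) ⁻¹' toMeasurable volume (B i)) := by
      refine setLIntegral_congr_fun measurableSet_Ioo (fun t ht => ?_)
      congr 1
      ext x
      simp only [hC, mem_inter_iff, mem_preimage]
      constructor
      · rintro ⟨⟨-, h2⟩, h3⟩
        exact ⟨h3, h2⟩
      · rintro ⟨h3, h2⟩
        exact ⟨⟨hsubK t ht h3, h2⟩, h3⟩
    rw [e1] at hsplit
    have hXfin : volume (C i) ≠ ⊤ :=
      (lt_of_le_of_lt (measure_mono inter_subset_left) hfin.lt_top).ne
    have hIfin : ∫⁻ t in Ioo (0 : ℝ) 1,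
        volume (t • K ∩ coords (e i) (f i) ⁻¹' toMeasurable volume (B i)) ≠ ⊤ := by
      have hle : ∫⁻ t in Ioo (0 : ℝ) 1,
          volume (t • K ∩ coords (e i) (f i) ⁻¹' toMeasurable volume (B i)) ≤ volume (C i) := by
        rw [← hsplit]
        exact le_add_self
      exact (lt_of_le_of_lt hle hXfin.lt_top).ne
    have hApos := shadow_pos_frame hvol (horth i)
    have hAfin : volume (coords (e i) (f i) '' K) ≠ ⊤ := by
      have hcont : Continuous (coords (e i) (f i)) := by
        unfold coords dot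
        fun_prop
      exact (hcomp.image hcont).measure_lt_top.ne
    have hc : ENNReal.ofReal (6 * (volume K).toReal
          / (volume (coords (e i) (f i) '' K)).toReal) * volume (toMeasurable volume (B i))
        = ENNReal.ofReal (6 * (volume K).toReal)
          * (volume (B i) / volume (coords (e i) (f i) '' K)) := by
      rw [hB'v, ENNReal.ofReal_div_of_pos (ENNReal.toReal_pos hApos.ne' hAfin),
        ENNReal.ofReal_toReal hAfin, div_eq_mul_inv, div_eq_mul_inv]
      ring
    rw [hc] at hcyl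
    have h3 : volume (C i) + 2 * (∫⁻ t in Ioo (0 : ℝ) 1, volume (C i \ t • K))
        + 2 * (∫⁻ t in Ioo (0 : ℝ) 1,
          volume (t • K ∩ coords (e i) (f i) ⁻¹' toMeasurable volume (B i)))
        ≤ ENNReal.ofReal (6 * (volume K).toReal)
          * (volume (B i) / volume (coords (e i) (f i) '' K))
        + 2 * (∫⁻ t in Ioo (0 : ℝ) 1,
          volume (t • K ∩ coords (e i) (f i) ⁻¹' toMeasurable volume (B i))) := by
      calc volume (C i) + 2 * (∫⁻ t in Ioo (0 : ℝ) 1, volume (C i \ t • K))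
            + 2 * (∫⁻ t in Ioo (0 : ℝ) 1,
              volume (t • K ∩ coords (e i) (f i) ⁻¹' toMeasurable volume (B i)))
          = 3 * volume (C i) := by
            rw [← hsplit]
            ring
        _ ≤ _ := hcyl
        _ = _ := by ring
    exact (ENNReal.add_le_add_iff_right (ENNReal.mul_ne_top (by norm_num) hIfin)).mp h3
  -- the count
  have hsum : volume K + 2 * (∫⁻ t in Ioo (0 : ℝ) 1, volume (K \ t • K))
      ≤ ENNReal.ofReal (6 * (volume K).toReal)
        * ∑ i, volume (B i) / volume (coords (e i) (f i) '' K) := by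
    calc volume K + 2 * (∫⁻ t in Ioo (0 : ℝ) 1, volume (K \ t • K))
        ≤ ∑ i, volume (C i) + 2 * ∑ i, ∫⁻ t in Ioo (0 : ℝ) 1, volume (C i \ t • K) := by
          gcongr
      _ = ∑ i, (volume (C i) + 2 * (∫⁻ t in Ioo (0 : ℝ) 1, volume (C i \ t • K))) := by
          rw [Finset.mul_sum, Finset.sum_add_distrib]
      _ ≤ ∑ i, ENNReal.ofReal (6 * (volume K).toReal)
            * (volume (B i) / volume (coords (e i) (f i) '' K)) :=
          Finset.sum_le_sum (fun i _ => hper i)
      _ = _ := by rw [Finset.mul_sum]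
  by_cases hR : ∑ i, volume (B i) / volume (coords (e i) (f i) '' K) = ⊤
  · rw [hR]
    exact le_top
  · have hVr : 0 < (volume K).toReal := ENNReal.toReal_pos hvol.ne' hfin
    have hJfin : ∫⁻ t in Ioo (0 : ℝ) 1, volume (K \ t • K) ≠ ⊤ := by
      have hle : ∫⁻ t in Ioo (0 : ℝ) 1, volume (K \ t • K) ≤ volume K := by
        conv_rhs => rw [← hJK]
        exact le_self_add
      exact (lt_of_le_of_lt hle hfin.lt_top).ne
    have h1 := congrArg ENNReal.toReal hJK
    rw [ENNReal.toReal_add hJfin (ENNReal.mul_ne_top ENNReal.ofReal_ne_top hfin),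
      ENNReal.toReal_mul, ENNReal.toReal_ofReal (by norm_num)] at h1
    have h2 := ENNReal.toReal_mono (ENNReal.mul_ne_top ENNReal.ofReal_ne_top hR) hsum
    rw [ENNReal.toReal_add hfin (ENNReal.mul_ne_top (by norm_num) hJfin), ENNReal.toReal_mul,
      ENNReal.toReal_mul, ENNReal.toReal_ofReal (by positivity)] at h2
    have h3 : (5 / 12 : ℝ)
        ≤ (∑ i, volume (B i) / volume (coords (e i) (f i) '' K)).toReal := by
      by_contra hcon
      rw [not_le] at hcon
      have h4 : (2 : ℝ≥0∞).toReal = 2 := by norm_num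
      rw [h4] at h2
      nlinarith
    calc ENNReal.ofReal (5 / 12)
        ≤ ENNReal.ofReal (∑ i, volume (B i) / volume (coords (e i) (f i) '' K)).toReal :=
          ENNReal.ofReal_le_ofReal h3
      _ = _ := ENNReal.ofReal_toReal hR

end Vale.Agent.Lib.P243.Sym
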