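import Mathlib
import Vale.Agent.Lib.P243.SymCyl

open MeasureTheory Set
open scoped ENNReal Pointwise
open Vale.Agent.Lib.Helper4.Bang (dot coords)

namespace Vale.Agent.Lib.P243.Sym

theorem coords_add (e f x c : ℝ × ℝ × ℝ) : coords e f (x + c) = coords e f x + coords e f c := by
  simp only [coords, dot, Prod.fst_add, Prod.snd_add, Prod.mk_add_mk, Prod.mk.injEq]
  refine ⟨by ring, by ring⟩

/-- Cylinder coverings of a convex body that is centrally symmetric about a point `c`: the
directionwise relative area of every finite covering is at least `5 / 12`. -/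
theorem sym_cover_center (K : Set (ℝ × ℝ × ℝ)) (hconv : Convex ℝ K) (hcomp : IsCompact K)
    (hint : (interior K).Nonempty) (c : ℝ × ℝ × ℝ) (hsym : ∀ x ∈ K, c + c - x ∈ K) (m : ℕ)
    (e f : Fin m → ℝ × ℝ × ℝ)
    (horth : ∀ i, dot (e i) (e i) = 1 ∧ dot (f i) (f i) = 1 ∧ dot (e i) (f i) = 0)
    (B : Fin m → Set (ℝ × ℝ))
    (hcover : ∀ x ∈ K, ∃ i, coords (e i) (f i) x ∈ B i) :
    ENNReal.ofReal (5 / 12) ≤ ∑ i, volume (B i) / volume (coords (e i) (f i) '' K) := by
  have h1 : Convex ℝ ((fun x => x + c) ⁻¹' K) := hconv.translate_preimage_left c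
  have h2 : IsCompact ((fun x => x + c) ⁻¹' K) :=
    (Homeomorph.addRight c).isCompact_preimage.mpr hcomp
  have h3 : (interior ((fun x => x + c) ⁻¹' K)).Nonempty := by
    obtain ⟨x, hx⟩ := hint
    have e1 : interior ((fun x => x + c) ⁻¹' K) = (fun x => x + c) ⁻¹' interior K :=
      ((Homeomorph.addRight c).preimage_interior K).symm
    rw [e1]
    exact ⟨x - c, by simpa using hx⟩
  have h4 : ∀ x ∈ (fun x => x + c) ⁻¹' K, -x ∈ (fun x => x + c) ⁻¹' K := by
    intro x hx
    have h := hsym _ hx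
    have e1 : c + c - (x + c) = -x + c := by abel
    rw [e1] at h
    exact h
  have h5 : ∀ x ∈ (fun x => x + c) ⁻¹' K,
      ∃ i, coords (e i) (f i) x ∈ (fun y => y + coords (e i) (f i) c) ⁻¹' B i := by
    intro x hx
    obtain ⟨i, hi⟩ := hcover _ hx
    refine ⟨i, ?_⟩
    rw [coords_add] at hi
    exact hi
  have key := sym_cover _ h1 h2 h3 h4 m e f horth
    (fun i => (fun y => y + coords (e i) (f i) c) ⁻¹' B i) h5
  have e2 : ∀ i, coords (e i) (f i) '' ((fun x => x + c) ⁻¹' K)
      = (fun y => y + coords (e i) (f i) c) ⁻¹' (coords (e i) (f i) '' K) := by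
    intro i
    ext y
    constructor
    · rintro ⟨x, hx, rfl⟩
      exact ⟨x + c, hx, coords_add _ _ _ _⟩
    · rintro ⟨z, hz, hzy⟩
      refine ⟨z - c, by simpa using hz, ?_⟩
      have h := coords_add (e i) (f i) (z - c) c
      rw [sub_add_cancel, hzy] at h
      exact add_right_cancel h.symm
  have e3 : ∀ i, volume ((fun y => y + coords (e i) (f i) c) ⁻¹' B i)
      / volume (coords (e i) (f i) '' ((fun x => x + c) ⁻¹' K))
      = volume (B i) / volume (coords (e i) (f i) '' K) := by
    intro i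
    rw [e2 i, measure_preimage_add_right, measure_preimage_add_right]
  simp_rw [e3] at key
  exact key

end Vale.Agent.Lib.P243.Sym
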