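import Mathlib
open MeasureTheory Set
open scoped ENNReal RealInnerProductSpace
namespace Vale.Agent.Lib.P243

section coords
variable {F : Type*} [NormedAddCommGroup F] [InnerProductSpace ℝ F]
  [MeasurableSpace F] [BorelSpace F]

/-- coordinates of a two-dimensional inner product space in an orthonormal basis -/
noncomputable def planeCoords (b : OrthonormalBasis (Fin 2) ℝ F) : F ≃ᵐ ℝ × ℝ :=
  b.measurableEquiv.trans ((MeasurableEquiv.toLp 2 (Fin 2 → ℝ)).symm.trans MeasurableEquiv.finTwoArrow)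

theorem planeCoords_apply (b : OrthonormalBasis (Fin 2) ℝ F) (w : F) :
    planeCoords b w = (⟪b 0, w⟫, ⟪b 1, w⟫) := by
  simp [planeCoords, OrthonormalBasis.measurableEquiv, MeasurableEquiv.finTwoArrow, b.repr_apply_apply]

theorem planeCoords_measurePreserving [FiniteDimensional ℝ F] (b : OrthonormalBasis (Fin 2) ℝ F) :
    MeasurePreserving (planeCoords b) volume volume := by
  unfold planeCoords
  exact (b.measurePreserving_measurableEquiv).trans
    ((EuclideanSpace.volume_preserving_symm_measurableEquiv_toLp (Fin 2)).trans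
      (volume_preserving_finTwoArrow ℝ))

theorem volume_planeCoords_image [FiniteDimensional ℝ F] (b : OrthonormalBasis (Fin 2) ℝ F)
    (S : Set F) : volume (planeCoords b '' S) = volume S := by
  rw [MeasurableEquiv.image_eq_preimage_symm]
  exact (planeCoords_measurePreserving b).symm.measure_preimage_equiv S

end coords

abbrev E := EuclideanSpace ℝ (Fin 3)

/-- two planes through the origin of three-space share a unit vector -/
theorem exists_common_unit (W₁ W₂ : Submodule ℝ E) (hW₁ : Module.finrank ℝ W₁ = 2)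
    (hW₂ : Module.finrank ℝ W₂ = 2) : ∃ v : E, v ∈ W₁ ∧ v ∈ W₂ ∧ ‖v‖ = 1 := by
  have h1 := Submodule.finrank_sup_add_finrank_inf_eq W₁ W₂
  have h2 : Module.finrank ℝ ↥(W₁ ⊔ W₂) ≤ 3 := by
    have := Submodule.finrank_le (W₁ ⊔ W₂)
    simpa [finrank_euclideanSpace] using this
  have h3 : 0 < Module.finrank ℝ ↥(W₁ ⊓ W₂) := by omega
  obtain ⟨v₀, hv₀⟩ := Module.finrank_pos_iff_exists_ne_zero.mp h3
  have hv₀' : (v₀ : E) ≠ 0 := fun h => hv₀ (Subtype.ext h)
  have hn : ‖(v₀ : E)‖ ≠ 0 := norm_ne_zero_iff.mpr hv₀'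
  refine ⟨‖(v₀ : E)‖⁻¹ • (v₀ : E), ?_, ?_, ?_⟩
  · exact W₁.smul_mem _ (Submodule.mem_inf.mp v₀.2).1
  · exact W₂.smul_mem _ (Submodule.mem_inf.mp v₀.2).2
  · rw [norm_smul, norm_inv, norm_norm, inv_mul_cancel₀ hn]

/-- an orthonormal basis of a plane starting with a prescribed unit vector -/
theorem exists_basis_start (W : Submodule ℝ E) (hW : Module.finrank ℝ W = 2) (v : E) (hv : v ∈ W)
    (hn : ‖v‖ = 1) : ∃ b : OrthonormalBasis (Fin 2) ℝ W, (b 0 : E) = v := by
  have hcard : Module.finrank ℝ W = Fintype.card (Fin 2) := by simpa using hW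
  have horth : Orthonormal ℝ (({0} : Set (Fin 2)).domRestrict (fun _ : Fin 2 => (⟨v, hv⟩ : W))) := by
    constructor
    · intro i
      simpa using hn
    · intro i j hij
      exact absurd (Subtype.ext (i.2.trans j.2.symm)) hij
  obtain ⟨b, hb⟩ := horth.exists_orthonormalBasis_extension_of_card_eq hcard
  exact ⟨b, by rw [hb 0 rfl]⟩

theorem volume_proj_pos (K : Set E) (hint : (interior K).Nonempty) (W : Submodule ℝ E) :
    0 < volume (W.orthogonalProjectionOnto '' K) := by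
  have hsurj : Function.Surjective W.orthogonalProjectionOnto := fun w =>
    ⟨(w : E), W.orthogonalProjectionOnto_mem_subspace_eq_self w⟩
  have hopen : IsOpenMap W.orthogonalProjectionOnto :=
    ContinuousLinearMap.isOpenMap _ hsurj
  have h1 : IsOpen (W.orthogonalProjectionOnto '' interior K) := hopen _ isOpen_interior
  have h2 : (W.orthogonalProjectionOnto '' interior K).Nonempty := hint.image _
  exact lt_of_lt_of_le (h1.measure_pos volume h2) (measure_mono (image_mono interior_subset))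

theorem general_of_core
    (core : ∀ (K : Set (ℝ × ℝ × ℝ)), Convex ℝ K → IsCompact K →
      ∀ (B₁ B₂ : Set (ℝ × ℝ)), MeasurableSet B₁ → MeasurableSet B₂ →
      (∀ p ∈ K, (p.1, p.2.1) ∈ B₁ ∨ (p.1, p.2.2) ∈ B₂) →
      0 < volume ((fun p : ℝ × ℝ × ℝ => (p.1, p.2.1)) '' K) →
      0 < volume ((fun p : ℝ × ℝ × ℝ => (p.1, p.2.2)) '' K) →
      (1 / 2 : ℝ≥0∞) ≤ volume B₁ / volume ((fun p : ℝ × ℝ × ℝ => (p.1, p.2.1)) '' K)
        + volume B₂ / volume ((fun p : ℝ × ℝ × ℝ => (p.1, p.2.2)) '' K))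
    (K : Set E) (hconv : Convex ℝ K) (hcomp : IsCompact K)
    (hint : (interior K).Nonempty)
    (W₁ W₂ : Submodule ℝ E) (hW₁ : Module.finrank ℝ W₁ = 2) (hW₂ : Module.finrank ℝ W₂ = 2)
    (B₁ : Set W₁) (B₂ : Set W₂) (hB₁ : MeasurableSet B₁) (hB₂ : MeasurableSet B₂)
    (hcover : ∀ x ∈ K, W₁.orthogonalProjectionOnto x ∈ B₁ ∨ W₂.orthogonalProjectionOnto x ∈ B₂) :
    (1 / 2 : ℝ≥0∞) ≤ volume B₁ / volume (W₁.orthogonalProjectionOnto '' K)
      + volume B₂ / volume (W₂.orthogonalProjectionOnto '' K) := by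
  obtain ⟨v, hv₁, hv₂, hvn⟩ := exists_common_unit W₁ W₂ hW₁ hW₂
  obtain ⟨b₁, hb₁⟩ := exists_basis_start W₁ hW₁ v hv₁ hvn
  obtain ⟨b₂, hb₂⟩ := exists_basis_start W₂ hW₂ v hv₂ hvn
  let Φ : E →L[ℝ] ℝ × ℝ × ℝ :=
    (innerSL ℝ v).prod ((innerSL ℝ (b₁ 1 : E)).prod (innerSL ℝ (b₂ 1 : E)))
  have hΦ : ∀ x : E, Φ x = (⟪v, x⟫, ⟪(b₁ 1 : E), x⟫, ⟪(b₂ 1 : E), x⟫) := fun x => rfl
  have he₁ : ∀ x : E, planeCoords b₁ (W₁.orthogonalProjectionOnto x) = ((Φ x).1, (Φ x).2.1) := by
    intro x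
    rw [planeCoords_apply, hΦ, Submodule.inner_orthogonalProjectionOnto_eq_of_mem_left,
      Submodule.inner_orthogonalProjectionOnto_eq_of_mem_left, hb₁]
  have he₂ : ∀ x : E, planeCoords b₂ (W₂.orthogonalProjectionOnto x) = ((Φ x).1, (Φ x).2.2) := by
    intro x
    rw [planeCoords_apply, hΦ, Submodule.inner_orthogonalProjectionOnto_eq_of_mem_left,
      Submodule.inner_orthogonalProjectionOnto_eq_of_mem_left, hb₂]
  have him₁ : (fun p : ℝ × ℝ × ℝ => (p.1, p.2.1)) '' (Φ '' K)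
      = planeCoords b₁ '' (W₁.orthogonalProjectionOnto '' K) := by
    rw [image_image, image_image]
    exact image_congr (fun x _ => (he₁ x).symm)
  have him₂ : (fun p : ℝ × ℝ × ℝ => (p.1, p.2.2)) '' (Φ '' K)
      = planeCoords b₂ '' (W₂.orthogonalProjectionOnto '' K) := by
    rw [image_image, image_image]
    exact image_congr (fun x _ => (he₂ x).symm)
  have hvol₁ : volume ((fun p : ℝ × ℝ × ℝ => (p.1, p.2.1)) '' (Φ '' K))
      = volume (W₁.orthogonalProjectionOnto '' K) := by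
    rw [him₁, volume_planeCoords_image]
  have hvol₂ : volume ((fun p : ℝ × ℝ × ℝ => (p.1, p.2.2)) '' (Φ '' K))
      = volume (W₂.orthogonalProjectionOnto '' K) := by
    rw [him₂, volume_planeCoords_image]
  have hmain := core (Φ '' K) (hconv.linear_image Φ.toLinearMap) (hcomp.image Φ.continuous)
    (planeCoords b₁ '' B₁) (planeCoords b₂ '' B₂)
    ((planeCoords b₁).measurableSet_image.mpr hB₁) ((planeCoords b₂).measurableSet_image.mpr hB₂)
    (by
      rintro p ⟨x, hx, rfl⟩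
      rcases hcover x hx with h | h
      · left
        exact ⟨_, h, he₁ x⟩
      · right
        exact ⟨_, h, he₂ x⟩)
    (by rw [hvol₁]; exact volume_proj_pos K hint W₁)
    (by rw [hvol₂]; exact volume_proj_pos K hint W₂)
  rw [hvol₁, hvol₂, volume_planeCoords_image, volume_planeCoords_image] at hmain
  exact hmain

end Vale.Agent.Lib.P243
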